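import Vale.Agent.P224.R2.H869.TlBlk
import Vale.Agent.P224.R2.H925.NxR

/-!
Certificates with the standard multipliers, and the list of relative tails of a block for the glue.
-/

namespace Vale.Agent.P224.R2.H869

open MeasureTheory Set Function Real Module Matrix Vale.Agent.P224 Vale.Agent.P224.FV
  Vale.Agent.P224.R2.H582 Vale.Agent.P224.R2.H484 Vale.Agent.P224.R2.H728
  Vale.Agent.P224.R2.H686 Vale.Agent.P224.R2.H662 Vale.Agent.P224.R2.H876
open Vale.Agent.P224.SM2 hiding ker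
open Vale.Agent.P224.R2.H470 hiding tg
open Vale.Agent.P224.R2.H176 (NearData NearOut)
open Vale.Agent.P224.R2.H925 (RelU)
open scoped Topology RealInnerProductSpace ContDiff Manifold

set_option linter.unusedSectionVars false

/-- a relative tail for `j_a² ≤ kap (m + 1)`, from the standard multipliers and the pointwise
inequality -/
structure CertM (B : BlkS) where
  Mu : Mult
  kap : ℚ
  rel : ℚ
  ab : ℚ
  mok : Mu.ok = true
  fit : fitR B.m1 Mu.lam Mu.eta kap rel ab = true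
  pt : ∀ m : ℕ, B.m1 ≤ m → (B.m2 = 0 ∨ m ≤ B.m2) → PtIneqB m Mu.lam B.G Mu.row rel

/-- a certificate from the form without square roots -/
def CertM.ofPL {B : BlkS} (Mu : Mult) (kap rel ab : ℚ) (mok : Mu.ok = true)
    (fit : fitR B.m1 Mu.lam Mu.eta kap rel ab = true) {th : List ℚ} {thz : ℚ}
    {al be : ℕ → ℕ → ℚ} {ra rb : ℚ}
    (hth : thOK B.jj B.X2 B.X1 B.X0 B.z2 B.z1 B.z0 th thz al be ra rb = true)
    (pt : ∀ m : ℕ, PtIneq m (PL B.jj al be ra rb) Mu.row rel) : CertM B where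
  Mu := Mu
  kap := kap
  rel := rel
  ab := ab
  mok := mok
  fit := fit
  pt := fun m _ _ => ((pt m).toB Mu.lam).mono fun _ _ _ ha hb hφ => PS_le_PL hth ha hb hφ

/-- a certificate for a smaller bound of the weights or a larger constant -/
def CertM.weaken {B : BlkS} (C : CertM B) (kap rel ab : ℚ) (hrel : C.rel ≤ rel)
    (fit : fitR B.m1 C.Mu.lam C.Mu.eta kap rel ab = true) : CertM B where
  Mu := C.Mu
  kap := kap
  rel := rel
  ab := ab
  mok := C.mok
  fit := fit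
  pt := fun m h1 h2 ρ y φ g1 g2 g3 g4 g5 g6 =>
    (C.pt m h1 h2 ρ y φ g1 g2 g3 g4 g5 g6).trans (add_le_add (mul_le_mul_of_nonneg_right
      (by exact_mod_cast hrel) (by positivity)) le_rfl)

section

variable {V W M : Type*} [NormedAddCommGroup V] [InnerProductSpace ℝ V] [FiniteDimensional ℝ V]
  [NormedAddCommGroup W] [InnerProductSpace ℝ W] [FiniteDimensional ℝ W]
  [TopologicalSpace M] [ChartedSpace V M]
  [MeasurableSpace V] [BorelSpace V] [MeasurableSpace M] [BorelSpace M]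
  [MeasurableSpace W] [BorelSpace W] [IsManifold 𝓘(ℝ, V) ∞ M]
  [CompactSpace M] [T2Space M]

/-- **the relative tail of a block of dimensions** -/
theorem CertM.relTail {B : BlkS} (C : CertM B) {F N : M → W} (D : NrmData V F N)
    {ι : Type*} [Fintype ι] [DecidableEq ι] (b : OrthonormalBasis ι ℝ W) {j : ι → ℝ}
    [Nontrivial W] (hLS : LSq (nrm (volM V F)) (diagonal j) (co b F) (co b N))
    (hm1 : B.m1 ≤ finrank ℝ V) (hm2 : B.m2 = 0 ∨ finrank ℝ V ≤ B.m2)
    (hP : RowP V F N (dop b j) C.Mu.lam C.Mu.eta C.Mu.c1) {lT : ℝ → ℝ}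
    (l1 : ∀ T ∈ Ioo (0 : ℝ) 1, (B.c1 : ℝ) ≤ lT T)
    (l2 : ∀ T ∈ Ioo (0 : ℝ) 1, (B.c2 : ℝ) / (1 - T ^ 2) ≤ lT T)
    (habs : AbsTail (volM V F) (finrank ℝ V) F N lT C.ab)
    (hj : ∀ a, j a ^ 2 ≤ (C.kap : ℝ) * (finrank ℝ V + 1)) :
    AbsTail (volM V F) (finrank ℝ V) F N lT
      (C.rel * hh (nrm (volM V F)) (diagonal j) (co b F) (co b N)) :=
  rel_endS D b hLS B.ok B.cells B.coef B.mom hm1 hm2 (fun _ _ T hT _ _ => ⟨l1 T hT, l2 T hT⟩)
    C.fit (hR_mult D b C.mok (Or.inr hP)) (C.pt _ hm1 hm2) habs hj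

/-- **the list of relative tails of a block** in the form of the glue -/
theorem relU_of [Nonempty M] {B : BlkS} (certs : List (CertM B)) {c1 c2 : ℚ} (e1 : c1 = B.c1)
    (e2 : c2 = B.c2) {m : ℕ} (hmm : m = finrank ℝ V) (h1m : 1 ≤ m)
    (hm1 : B.m1 ≤ m) (hm2 : B.m2 = 0 ∨ m ≤ B.m2)
    (hW : finrank ℝ W = finrank ℝ V + 2) {F : M → W} (hF : SphImm V F)
    (hmin : ∀ x n, IsUnitNormal V F x n → meanCurv V F x n = 0) {ν : ℝ}
    (habs : ∀ N : M → W, ContMDiff 𝓘(ℝ, V) 𝓘(ℝ, W) ∞ N → (∀ x, IsUnitNormal V F x (N x)) →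
      ∀ C ∈ certs, AbsTail (volM V F) m F N (fun T => (1 - T ^ 2) * H925.lamX c1 c2 T) C.ab)
    (hP : ∀ N : M → W, NrmData V F N → ∀ (J : W →L[ℝ] W), ∀ C ∈ certs,
      RowP V F N J C.Mu.lam C.Mu.eta C.Mu.c1) :
    RelU c1 c2 V W M (certs.map fun C => (C.kap, C.rel)) ν m F := by
  intro N b j hd k hk hj
  subst hmm e1 e2
  obtain ⟨C, hC, rfl⟩ := List.mem_map.1 hk
  have hNT : Nontrivial W := by
    have : 0 < finrank ℝ W := by omega
    exact Module.finrank_pos_iff.1 this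
  have D := nrmData_of_min h1m hW hF hmin hd.smooth hd.unit
  have e : ∀ T ∈ Ioo (0 : ℝ) 1, (1 - T ^ 2) * H925.lamX B.c1 B.c2 T
      = max (B.c1 : ℝ) ((B.c2 : ℝ) / (1 - T ^ 2)) := by
    intro T hT
    have hk : 0 < 1 - T ^ 2 := by nlinarith [hT.1, hT.2]
    unfold H925.lamX
    field_simp
  refine C.relTail D b hd.lsq hm1 hm2 (hP N D (dop b j) C hC) (fun T hT => ?_) (fun T hT => ?_)
    (habs N hd.smooth hd.unit C hC) hj
  · rw [e T hT]
    exact le_max_left _ _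
  · rw [e T hT]
    exact le_max_right _ _

end

end Vale.Agent.P224.R2.H869
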