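import Vale.Agent.P224.R2.H869.TlRow
import Vale.Agent.P224.R2.H484.TlL
import Vale.Agent.P224.R2.H484.AbsV
import Vale.Agent.P224.R2.H876.TlTab

/-!
The relative tail of minimal hypersurfaces, final form: the kernel checked tables of a block of
dimensions (form with square roots), any combination of rows and the pointwise inequality give the
relative tail, for every size of the error.
-/

namespace Vale.Agent.P224.R2.H869

open MeasureTheory Set Function Real Module Matrix Vale.Agent.P224 Vale.Agent.P224.FV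
  Vale.Agent.P224.R2.H582 Vale.Agent.P224.R2.H484 Vale.Agent.P224.R2.H728
  Vale.Agent.P224.R2.H686 Vale.Agent.P224.R2.H662 Vale.Agent.P224.R2.H876
open Vale.Agent.P224.SM2 hiding ker
open Vale.Agent.P224.R2.H470 hiding tg
open scoped Topology RealInnerProductSpace ContDiff Manifold

set_option linter.unusedSectionVars false

lemma lam_upB {kap lam : ℝ} {m1 m : ℕ} (h1 : 1 ≤ m1)
    (h : kap * (m1 + 1) ≤ lam ^ 2 * m1) (hm : m1 ≤ m) : kap * (m + 1) ≤ lam ^ 2 * m := by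
  have h1' : (1 : ℝ) ≤ m1 := by exact_mod_cast h1
  have hm' : (m1 : ℝ) ≤ m := by exact_mod_cast hm
  have h2 : kap ≤ lam ^ 2 := by
    by_contra hc
    push Not at hc
    nlinarith
  nlinarith

/-- the numbers of the final relative bound: `lam` fits to the bound `kap` of the weights, and the
absolute tail `ab` is below `rel * eta` -/
def fitR (m1 : ℕ) (lam eta kap rel ab : ℚ) : Bool :=
  decide (1 ≤ m1) && decide (0 ≤ lam) && decide (0 ≤ rel)
    && decide (kap * (m1 + 1) ≤ lam ^ 2 * m1) && decide (ab ≤ rel * eta)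

section

variable {V W M : Type*} [NormedAddCommGroup V] [InnerProductSpace ℝ V] [FiniteDimensional ℝ V]
  [NormedAddCommGroup W] [InnerProductSpace ℝ W] [FiniteDimensional ℝ W]
  [TopologicalSpace M] [ChartedSpace V M]
  [MeasurableSpace V] [BorelSpace V] [MeasurableSpace M] [BorelSpace M]
  [MeasurableSpace W] [BorelSpace W] [IsManifold 𝓘(ℝ, V) ∞ M]
  [CompactSpace M] [T2Space M]

/-- the data of the rows from the least squares form -/
lemma datR {F N : M → W} (D : NrmData V F N) {ι : Type*} [Fintype ι] [DecidableEq ι]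
    (b : OrthonormalBasis ι ℝ W) {j : ι → ℝ}
    (hL : LSq (nrm (volM V F)) (diagonal j) (co b F) (co b N)) {m1 : ℕ}
    (hm1 : m1 ≤ finrank ℝ V) {lam eta kap rel ab : ℚ} (hfit : fitR m1 lam eta kap rel ab = true)
    (hj : ∀ a, j a ^ 2 ≤ (kap : ℝ) * (finrank ℝ V + 1)) :
    Dat (nrm (volM V F)) (finrank ℝ V) F N (dop b j) lam := by
  have := D.prob
  simp only [fitR, Bool.and_eq_true, decide_eq_true_eq] at hfit
  obtain ⟨⟨⟨⟨h1, h2⟩, -⟩, h4⟩, -⟩ := hfit
  have h4' : (kap : ℝ) * (m1 + 1) ≤ (lam : ℝ) ^ 2 * m1 := by exact_mod_cast h4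
  refine Dat.of_LSq D.one (h1.trans hm1) b hL (by exact_mod_cast h2) fun a => ?_
  exact (hj a).trans (lam_upB h1 h4' hm1)

/-- **the relative tail**, general one point function and general row -/
theorem rel_genR {F N : M → W} (D : NrmData V F N) {ι : Type*} [Fintype ι] [DecidableEq ι]
    (b : OrthonormalBasis ι ℝ W) {j : ι → ℝ}
    (hL : LSq (nrm (volM V F)) (diagonal j) (co b F) (co b N)) {m1 : ℕ}
    (hm1 : m1 ≤ finrank ℝ V) {lam eta kap rel ab : ℚ} (hfit : fitR m1 lam eta kap rel ab = true)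
    (hj : ∀ a, j a ^ 2 ≤ (kap : ℝ) * (finrank ℝ V + 1)) {lT : ℝ → ℝ}
    (habs : AbsTail (volM V F) (finrank ℝ V) F N lT ab)
    {G R : ℝ → ℝ → ℝ → ℝ}
    (hG : Integrable (fun x => G (aG (zz (dop b j) F N) x) (bG (zz (dop b j) F N) N x)
      (pG (finrank ℝ V) F (zz (dop b j) F N) x)) (nrm (volM V F)))
    (hTail : Tail (nrm (volM V F)) (finrank ℝ V) F N lT
      (∫ x, G (aG (zz (dop b j) F N) x) (bG (zz (dop b j) F N) N x)
      (pG (finrank ℝ V) F (zz (dop b j) F N) x) ∂(nrm (volM V F))))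
    (hR : Dat (nrm (volM V F)) (finrank ℝ V) F N (dop b j) lam →
      ∫ x, aa (dop b j) F N x ∂(nrm (volM V F)) ≤ eta →
      IsRow (nrm (volM V F)) (finrank ℝ V) F N (dop b j) R)
    (hpt : PtIneqB (finrank ℝ V) lam G R rel) :
    AbsTail (volM V F) (finrank ℝ V) F N lT
      (rel * hh (nrm (volM V F)) (diagonal j) (co b F) (co b N)) := by
  have := D.fin
  have := D.nz
  have := D.prob
  have d := datR D b hL hm1 hfit hj
  have e : hh (nrm (volM V F)) (diagonal j) (co b F) (co b N)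
      = ∫ x, aa (dop b j) F N x ∂(nrm (volM V F)) := hh_norm b j
  simp only [fitR, Bool.and_eq_true, decide_eq_true_eq] at hfit
  obtain ⟨⟨⟨⟨-, -⟩, h5⟩, -⟩, h6⟩ := hfit
  rcases le_or_gt (∫ x, aa (dop b j) F N x ∂(nrm (volM V F))) (eta : ℝ) with hη | hη
  · exact rel_nearB D b j d hG hTail (hR d hη) hpt
  · obtain ⟨τ, t1, t2, t3⟩ := habs
    refine ⟨τ, t1, t2, t3.trans ?_⟩
    have h6' : (ab : ℝ) ≤ (rel : ℝ) * (eta : ℝ) := by exact_mod_cast h6
    have h5' : (0 : ℝ) ≤ rel := by exact_mod_cast h5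
    rw [e]
    exact h6'.trans (mul_le_mul_of_nonneg_left hη.le h5')

/-- the tail in terms of the one point polynomial with square roots, kernel checked tables -/
theorem tail_PS {F N : M → W} (D : NrmData V F N) {ι : Type*} [Fintype ι] [DecidableEq ι]
    (b : OrthonormalBasis ι ℝ W) (j : ι → ℝ) [Nontrivial W]
    {L : List CN} {m1 m2 : ℕ} {Lm : List ℕ} {c1 c2 : ℕ → ℚ} {η β K : ℚ}
    {jj i1 i2 : ℕ} {X2 X1 X0 : ℕ → ℕ → ℚ} {z2 z1 z0 : ℚ}
    (hok : okB m1 c1 c2 η β K jj i1 i2 = true) (hL : cellsOK L m1 m2 c1 c2 = true)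
    (hco : coefS L m1 (MQ Lm) η β K jj i1 i2 X2 X1 X0 z2 z1 z0 = true)
    (hMM : ∀ m q : ℕ, m1 ≤ m → (m2 = 0 ∨ m ≤ m2) → MM m q ≤ Mt m Lm q)
    (hm1 : m1 ≤ finrank ℝ V) (hm2 : m2 = 0 ∨ finrank ℝ V ≤ m2) {lT : ℝ → ℝ}
    (hl : ∀ c < 200, ∀ T ∈ Ioo (0 : ℝ) 1, ((tR c : ℚ) : ℝ) < T → T ≤ tR (c + 1) →
      ((c1 c : ℚ) : ℝ) ≤ lT T ∧ ((c2 c : ℚ) : ℝ) / (1 - T ^ 2) ≤ lT T) :
    Integrable (fun x => PS jj X2 X1 X0 z2 z1 z0 (aG (zz (dop b j) F N) x)
      (bG (zz (dop b j) F N) N x) (pG (finrank ℝ V) F (zz (dop b j) F N) x)) (nrm (volM V F)) ∧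
    Tail (nrm (volM V F)) (finrank ℝ V) F N lT
      (∫ x, PS jj X2 X1 X0 z2 z1 z0 (aG (zz (dop b j) F N) x) (bG (zz (dop b j) F N) N x)
      (pG (finrank ℝ V) F (zz (dop b j) F N) x) ∂(nrm (volM V F))) := by
  have := D.prob
  have h17 : 17 ≤ m1 := by
    unfold okB at hok
    simp only [Bool.and_eq_true, decide_eq_true_eq] at hok
    exact hok.2
  have cz : Continuous (zz (dop b j) F N) := by
    have := D.one.cp
    have := D.one.cn
    unfold zz
    fun_prop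
  obtain ⟨B, hB⟩ := isCompact_univ.exists_bound_of_continuousOn cz.continuousOn
  have hB' : ∀ x, ‖zz (dop b j) F N x‖ ≤ B := fun x => hB x (mem_univ x)
  have hmom : MomB (nrm (volM V F)) (finrank ℝ V) F (Mt (finrank ℝ V) Lm) := by
    have hcv : CV (nrm (volM V F)) (finrank ℝ V - 1) F := by
      have hr := D.row
      obtain ⟨q, hq⟩ : ∃ q, finrank ℝ V = q + 1 := ⟨finrank ℝ V - 1, by omega⟩
      rw [hq] at hr ⊢
      exact cv_pred_of_min hr
    exact (momB_of_cv hcv (by omega)).mono fun q => hMM _ q hm1 hm2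
  have hb := bm_bG (n := N) D.two.mn D.two.nn cz.measurable hB'
  refine ⟨(bm_PS (bm_aG cz.measurable hB') hb (bm_pG D.two.toPts cz.measurable hB') jj X2 X1 X0
    z2 z1 z0).int, ?_⟩
  exact rel_blkS hok hL hco D.two (by simp) hmom hm1 hm2 cz.measurable hB'
    (fun x y => zz_pair (fun u v => by rw [dop_symm]) x y) hb
    (fun y => bG_nonneg (D.two.nn y)) (bOk_bG D.two.nn) hl

/-- **the relative tail of a block of dimensions**, form with square roots -/
theorem rel_endS {F N : M → W} (D : NrmData V F N) {ι : Type*} [Fintype ι] [DecidableEq ι]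
    (b : OrthonormalBasis ι ℝ W) {j : ι → ℝ} [Nontrivial W]
    (hLS : LSq (nrm (volM V F)) (diagonal j) (co b F) (co b N))
    {L : List CN} {m1 m2 : ℕ} {Lm : List ℕ} {c1 c2 : ℕ → ℚ} {η β K : ℚ}
    {jj i1 i2 : ℕ} {X2 X1 X0 : ℕ → ℕ → ℚ} {z2 z1 z0 : ℚ}
    (hok : okB m1 c1 c2 η β K jj i1 i2 = true) (hL : cellsOK L m1 m2 c1 c2 = true)
    (hco : coefS L m1 (MQ Lm) η β K jj i1 i2 X2 X1 X0 z2 z1 z0 = true)
    (hMM : ∀ m q : ℕ, m1 ≤ m → (m2 = 0 ∨ m ≤ m2) → MM m q ≤ Mt m Lm q)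
    (hm1 : m1 ≤ finrank ℝ V) (hm2 : m2 = 0 ∨ finrank ℝ V ≤ m2) {lT : ℝ → ℝ}
    (hl : ∀ c < 200, ∀ T ∈ Ioo (0 : ℝ) 1, ((tR c : ℚ) : ℝ) < T → T ≤ tR (c + 1) →
      ((c1 c : ℚ) : ℝ) ≤ lT T ∧ ((c2 c : ℚ) : ℝ) / (1 - T ^ 2) ≤ lT T)
    {lam eta kap rel ab : ℚ} (hfit : fitR m1 lam eta kap rel ab = true)
    {R : ℝ → ℝ → ℝ → ℝ}
    (hR : Dat (nrm (volM V F)) (finrank ℝ V) F N (dop b j) lam →
      ∫ x, aa (dop b j) F N x ∂(nrm (volM V F)) ≤ eta →
      IsRow (nrm (volM V F)) (finrank ℝ V) F N (dop b j) R)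
    (hpt : PtIneqB (finrank ℝ V) lam (PS jj X2 X1 X0 z2 z1 z0) R rel)
    (habs : AbsTail (volM V F) (finrank ℝ V) F N lT ab)
    (hj : ∀ a, j a ^ 2 ≤ (kap : ℝ) * (finrank ℝ V + 1)) :
    AbsTail (volM V F) (finrank ℝ V) F N lT
      (rel * hh (nrm (volM V F)) (diagonal j) (co b F) (co b N)) := by
  obtain ⟨g1, g2⟩ := tail_PS D b j hok hL hco hMM hm1 hm2 hl
  exact rel_genR D b hLS hm1 hfit hj habs g1 g2 hR hpt

/-- the rows of `Mult` -/
lemma hR_mult {F N : M → W} (D : NrmData V F N) {ι : Type*} [Fintype ι] [DecidableEq ι]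
    (b : OrthonormalBasis ι ℝ W) {j : ι → ℝ} {Mu : Mult} (hMu : Mu.ok = true)
    (hP : Mu.wP = 0 ∨ (Dat (nrm (volM V F)) (finrank ℝ V) F N (dop b j) Mu.lam →
      ∫ x, aa (dop b j) F N x ∂(nrm (volM V F)) ≤ Mu.eta →
      ∫ x, ph (finrank ℝ V) (dop b j) F x ^ 2 ∂(nrm (volM V F))
        ≤ Mu.c1 * ∫ x, aa (dop b j) F N x ∂(nrm (volM V F)))) :
    Dat (nrm (volM V F)) (finrank ℝ V) F N (dop b j) Mu.lam →
      ∫ x, aa (dop b j) F N x ∂(nrm (volM V F)) ≤ Mu.eta →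
      IsRow (nrm (volM V F)) (finrank ℝ V) F N (dop b j) Mu.row := by
  have := D.prob
  intro d hη
  exact Mult.isRow hMu d hη (hP.imp_right fun h => h d hη)

/-- the rows of a list -/
lemma hR_list {F N : M → W} (D : NrmData V F N) {ι : Type*} [Fintype ι] [DecidableEq ι]
    (b : OrthonormalBasis ι ℝ W) {j : ι → ℝ} {l : List (RowT × ℚ)} {C1 lam eta : ℚ}
    (hl : rowsOK C1 l = true)
    (hP : Dat (nrm (volM V F)) (finrank ℝ V) F N (dop b j) lam →
      ∫ x, aa (dop b j) F N x ∂(nrm (volM V F)) ≤ eta →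
      ∫ x, ph (finrank ℝ V) (dop b j) F x ^ 2 ∂(nrm (volM V F))
        ≤ C1 * ∫ x, aa (dop b j) F N x ∂(nrm (volM V F))) :
    Dat (nrm (volM V F)) (finrank ℝ V) F N (dop b j) lam →
      ∫ x, aa (dop b j) F N x ∂(nrm (volM V F)) ≤ eta →
      IsRow (nrm (volM V F)) (finrank ℝ V) F N (dop b j) (rowL lam eta l) := by
  have := D.prob
  intro d hη
  exact isRow_rowL hl d hη (hP d hη)

end

end Vale.Agent.P224.R2.H869
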