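import Vale.Agent.P224.R2.H484.Conf

/-!
Moments of the Moebius coordinates at level `T`, from the conformal volume bound: for every
vector `b` the `j`-th absolute moment of `⟪b, mob T y (p x)⟫` with respect to the level `T`
kernel of exponent `q` is at most `A ‖b‖ ^ j Mo q j`. Products of coordinates satisfy the same
bound with the total degree.
-/

namespace Vale.Agent.P224.R2.H869

open MeasureTheory Set Function Module Vale.Agent.P224 Vale.Agent.P224.SM2
  Vale.Agent.P224.R2.H484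
open scoped RealInnerProductSpace

set_option linter.unusedSectionVars false

/-- the moment constant -/
noncomputable def Mo (q j : ℕ) : ℝ :=
  2 * (√((j : ℝ) / (q + j)) ^ j * √((q : ℝ) / (q + j)) ^ q)

lemma Mo_nonneg (q j : ℕ) : 0 ≤ Mo q j := by
  unfold Mo
  positivity

/-- weighted arithmetic and geometric mean with natural exponents -/
lemma amgm_nat {i j : ℕ} (h : 0 < i + j) {a b : ℝ} (ha : 0 ≤ a) (hb : 0 ≤ b) :
    a ^ i * b ^ j ≤ ((i * a + j * b) / (i + j)) ^ (i + j) := by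
  have hn : (0 : ℝ) < (i : ℝ) + j := by exact_mod_cast h
  have h1 := Real.geom_mean_le_arith_mean2_weighted (w₁ := i / (i + j)) (w₂ := j / (i + j))
    (p₁ := a) (p₂ := b) (by positivity) (by positivity) ha hb (by field_simp)
  have h2 : (a ^ ((i : ℝ) / (i + j)) * b ^ ((j : ℝ) / (i + j))) ^ (i + j) = a ^ i * b ^ j := by
    rw [mul_pow, ← Real.rpow_natCast (a ^ _), ← Real.rpow_natCast (b ^ _), ← Real.rpow_mul ha,
      ← Real.rpow_mul hb]
    push_cast
    rw [div_mul_cancel₀ _ hn.ne', div_mul_cancel₀ _ hn.ne', Real.rpow_natCast, Real.rpow_natCast]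
  rw [← h2]
  refine pow_le_pow_left₀ (by positivity) (h1.trans (le_of_eq ?_)) _
  ring

/-- the pointwise bound of a monomial by a tilted kernel -/
lemma pow_le_kernel {q : ℕ} (hq : 0 < q) (j : ℕ) {w : ℝ} (hw : 0 ≤ w) (hw1 : w ≤ 1) :
    w ^ j ≤ √((j : ℝ) / (q + j)) ^ j * ((q : ℝ) / (q + j)) ^ q *
      ((1 - √((j : ℝ) / (q + j)) * w) ^ q)⁻¹ := by
  have hq' : (0 : ℝ) < q := by exact_mod_cast hq
  rcases Nat.eq_zero_or_pos j with rfl | hj
  · simp [div_self hq'.ne']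
  have hj' : (0 : ℝ) < j := by exact_mod_cast hj
  have hn : (0 : ℝ) < (q : ℝ) + j := by positivity
  set t := √((j : ℝ) / (q + j)) with ht
  have ht2 : t ^ 2 = j / (q + j) := Real.sq_sqrt (by positivity)
  have htp : 0 < t := Real.sqrt_pos.2 (by positivity)
  have ht1 : t < 1 := by
    rw [ht, Real.sqrt_lt' one_pos, one_pow, div_lt_one hn]
    linarith
  have htw : 0 < 1 - t * w := by nlinarith
  have h1 := amgm_nat (i := j) (j := q) (by positivity) (a := w / t)
    (b := (1 - t * w) / ((q : ℝ) / (q + j))) (by positivity) (by positivity)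
  have h2 : ((j : ℝ) * (w / t) + q * ((1 - t * w) / ((q : ℝ) / (q + j)))) / (j + q) = 1 := by
    have e : (j : ℝ) * (w / t) = (q + j) * t * w := by
      have h3 : (j : ℝ) = (q + j) * t ^ 2 := by rw [ht2]; field_simp
      have h4 : (j : ℝ) * (w / t) = ((q + j) * t ^ 2) * (w / t) := by rw [← h3]
      rw [h4]
      field_simp
    rw [e]
    field_simp
    ring
  rw [h2, one_pow, div_pow, div_pow, div_mul_div_comm, div_le_one (by positivity)] at h1
  rw [← div_eq_mul_inv, le_div_iff₀ (pow_pos htw q)]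
  exact h1

variable {X : Type*} [MeasurableSpace X] {E : Type*} [NormedAddCommGroup E]
  [InnerProductSpace ℝ E] [MeasurableSpace E] [BorelSpace E] [SecondCountableTopology E]
  {μ : Measure X} [IsFiniteMeasure μ] {q : ℕ} {p : X → E}

lemma measurable_mob (hp : Measurable p) (T : ℝ) (y : E) :
    Measurable fun x => mob T y (p x) := by
  unfold mob
  fun_prop

lemma abs_inner_mob_le {T : ℝ} (hT : T ∈ Ico (0 : ℝ) 1) {x y : E} (hx : ‖x‖ = 1)
    (hy : ‖y‖ = 1) (b : E) : |⟪b, mob T y x⟫| ≤ ‖b‖ := by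
  refine (abs_real_inner_le_norm _ _).trans ?_
  rw [norm_mob hT hx hy, mul_one]

/-- moments of a unit direction -/
theorem mom_unit (h : CV μ q p) (hq : 0 < q) {T : ℝ} (hT : T ∈ Ico (0 : ℝ) 1) {y : E}
    (hy : ‖y‖ = 1) {b : E} (hb : ‖b‖ = 1) (j : ℕ) :
    √(1 - T ^ 2) ^ q * ∫ x, ((1 - T * ⟪p x, y⟫) ^ q)⁻¹ * |⟪b, mob T y (p x)⟫| ^ j ∂μ
      ≤ μ.real univ * Mo q j := by
  have hq' : (0 : ℝ) < q := by exact_mod_cast hq
  set t := √((j : ℝ) / (q + j)) with ht
  have ht0 : 0 ≤ t := Real.sqrt_nonneg _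
  have hn : (0 : ℝ) < (q : ℝ) + j := by positivity
  have ht2 : t ^ 2 = j / (q + j) := Real.sq_sqrt (by positivity)
  have ht1 : t < 1 := by
    rw [ht, Real.sqrt_lt' one_pos, one_pow, div_lt_one hn]
    linarith
  set C := t ^ j * ((q : ℝ) / (q + j)) ^ q with hC
  have hC0 : 0 ≤ C := by positivity
  have h1 := h.dom hT hy (Finset.univ : Finset Bool) (fun _ => C)
    (fun s => if s then t • b else -(t • b)) (fun _ _ => hC0)
    (fun s _ => by cases s <;> simp [norm_smul, hb, abs_of_nonneg ht0, ht1])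
    (G := fun x => |⟪b, mob T y (p x)⟫| ^ j) (fun x => by positivity)
    (fun x => by
      have ha : |⟪b, mob T y (p x)⟫| ≤ 1 := by
        have := abs_inner_mob_le hT (h.np x) hy b
        rwa [hb] at this
      have hk := pow_le_kernel hq j (abs_nonneg ⟪b, mob T y (p x)⟫) ha
      rw [← ht, ← hC] at hk
      have hpos : ∀ z : ℝ, |z| ≤ 1 → 0 ≤ ((1 - t * z) ^ q)⁻¹ := fun z hz => by
        have := abs_le.1 hz
        have : 0 ≤ 1 - t * z := by nlinarith
        positivity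
      have e1 := hpos ⟪b, mob T y (p x)⟫ ha
      have e2 := hpos (-⟪b, mob T y (p x)⟫) (by rwa [abs_neg])
      simp only [Fintype.univ_bool, Finset.mem_singleton, Bool.true_eq_false, not_false_eq_true,
        Finset.sum_insert, Finset.sum_singleton, if_true, if_false, Bool.false_eq_true,
        real_inner_smul_left, inner_neg_left]
      rw [← mul_add]
      refine hk.trans (mul_le_mul_of_nonneg_left ?_ hC0)
      rw [mul_neg] at e2
      rcases abs_choice ⟪b, mob T y (p x)⟫ with e | e <;> rw [e]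
      · linarith
      · rw [mul_neg]
        linarith)
  refine h1.trans (le_of_eq ?_)
  have e3 : ∀ s : Bool, ‖(if s then t • b else -(t • b))‖ = t := fun s => by
    cases s <;> simp [norm_smul, hb, abs_of_nonneg ht0]
  have e4 : 1 - t ^ 2 = q / (q + j) := by
    rw [ht2]
    field_simp
    ring
  have e5 : ((q : ℝ) / (q + j)) ^ q = √((q : ℝ) / (q + j)) ^ q * √((q : ℝ) / (q + j)) ^ q := by
    rw [← mul_pow, Real.mul_self_sqrt (by positivity)]
  have e6 : √((q : ℝ) / (q + j)) ^ q ≠ 0 := by positivity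
  simp only [e3, e4, Finset.sum_const, Finset.card_univ, Fintype.card_bool]
  unfold Mo
  rw [← ht, hC, e5]
  field_simp
  ring

lemma int_mom (h : CV μ q p) {T : ℝ} (hT : T ∈ Ico (0 : ℝ) 1) {y : E}
    (hy : ‖y‖ = 1) {G : X → ℝ} (hG : Measurable G) {C : ℝ} (hC : ∀ x, |G x| ≤ C) :
    Integrable (fun x => ((1 - T * ⟪p x, y⟫) ^ q)⁻¹ * G x) μ := by
  have h1 := h.int_mgf hT hy (b := 0) (by simp)
  simp only [inner_zero_left, sub_zero, one_pow, inv_one, mul_one] at h1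
  exact h1.mul_bdd hG.aestronglyMeasurable (Filter.Eventually.of_forall fun x => by
    rw [Real.norm_eq_abs]
    exact hC x)

/-- moments of products of coordinates: all directions, total degree `∑ e i` -/
theorem mom_prod (h : CV μ q p) (hq : 0 < q) {T : ℝ} (hT : T ∈ Ico (0 : ℝ) 1) {y : E}
    (hy : ‖y‖ = 1) {ι : Type*} (s : Finset ι) (b : ι → E) (e : ι → ℕ) :
    √(1 - T ^ 2) ^ q *
        ∫ x, ((1 - T * ⟪p x, y⟫) ^ q)⁻¹ * ∏ i ∈ s, |⟪b i, mob T y (p x)⟫| ^ e i ∂μ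
      ≤ μ.real univ * ((∏ i ∈ s, ‖b i‖ ^ e i) * Mo q (∑ i ∈ s, e i)) := by
  classical
  set J := ∑ i ∈ s, e i with hJ
  by_cases hz : ∃ i ∈ s, e i ≠ 0 ∧ b i = 0
  · obtain ⟨i, hi, he, hb⟩ := hz
    have h1 : ∀ x, ∏ i ∈ s, |⟪b i, mob T y (p x)⟫| ^ e i = 0 := fun x =>
      Finset.prod_eq_zero hi (by simp [hb, he])
    have h2 : ∏ i ∈ s, ‖b i‖ ^ e i = 0 := Finset.prod_eq_zero hi (by simp [hb, he])
    simp [h1, h2]
  push Not at hz
  rcases Nat.eq_zero_or_pos J with hJ0 | hJpos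
  · have he : ∀ i ∈ s, e i = 0 := fun i hi => by
      have := Finset.sum_eq_zero_iff.1 (hJ.symm.trans hJ0)
      exact this i hi
    have h1 : ∀ x, ∏ i ∈ s, |⟪b i, mob T y (p x)⟫| ^ e i = 1 := fun x =>
      Finset.prod_eq_one fun i hi => by simp [he i hi]
    have h2 : ∏ i ∈ s, ‖b i‖ ^ e i = 1 := Finset.prod_eq_one fun i hi => by simp [he i hi]
    simp only [h1, h2, hJ0, mul_one, one_mul]
    have h3 := h.mgf hT hy (b := 0) (by simp)
    simp only [inner_zero_left, sub_zero, one_pow, inv_one, mul_one, norm_zero, ne_eq,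
      OfNat.ofNat_ne_zero, not_false_eq_true, zero_pow, Real.sqrt_one] at h3
    have h4 : Mo q 0 = 2 := by
      have hq' : (0 : ℝ) < q := by exact_mod_cast hq
      simp [Mo, div_self hq'.ne']
    have hA : 0 ≤ μ.real univ := measureReal_nonneg
    rw [h4]
    linarith
  have hJ' : (0 : ℝ) < J := by exact_mod_cast hJpos
  set s' := s.filter (fun i => e i ≠ 0) with hs'
  have hbp : ∀ i ∈ s', 0 < ‖b i‖ := fun i hi => by
    rw [hs', Finset.mem_filter] at hi
    exact norm_pos_iff.2 (hz i hi.1 hi.2)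
  have hprod : ∀ f : ι → ℝ, ∏ i ∈ s, f i ^ e i = ∏ i ∈ s', f i ^ e i := fun f => by
    rw [hs', Finset.prod_filter]
    refine Finset.prod_congr rfl fun i _ => ?_
    by_cases hi : e i = 0 <;> simp [hi]
  have hsum : ∑ i ∈ s', e i = J := by
    rw [hs', Finset.sum_filter, hJ]
    refine Finset.sum_congr rfl fun i _ => ?_
    by_cases hi : e i = 0 <;> simp [hi]
  have hpt : ∀ x, ∏ i ∈ s, |⟪b i, mob T y (p x)⟫| ^ e i ≤
      (∏ i ∈ s', ‖b i‖ ^ e i) *
        ∑ i ∈ s', ((e i : ℝ) / J) * |⟪‖b i‖⁻¹ • b i, mob T y (p x)⟫| ^ J := by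
    intro x
    rw [hprod]
    have h1 := Real.geom_mean_le_arith_mean_weighted s' (fun i => (e i : ℝ) / J)
      (fun i => |⟪‖b i‖⁻¹ • b i, mob T y (p x)⟫| ^ J) (fun i _ => by positivity)
      (by rw [← Finset.sum_div, ← Nat.cast_sum, hsum, div_self hJ'.ne'])
      (fun i _ => by positivity)
    have h2 : ∏ i ∈ s', |⟪b i, mob T y (p x)⟫| ^ e i
        = (∏ i ∈ s', ‖b i‖ ^ e i) *
          ∏ i ∈ s', (|⟪‖b i‖⁻¹ • b i, mob T y (p x)⟫| ^ J) ^ ((e i : ℝ) / J) := by
      rw [← Finset.prod_mul_distrib]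
      refine Finset.prod_congr rfl fun i hi => ?_
      have hb := hbp i hi
      rw [← Real.rpow_natCast _ J, ← Real.rpow_mul (abs_nonneg _), mul_div_cancel₀ _ hJ'.ne',
        Real.rpow_natCast, ← mul_pow, real_inner_smul_left, abs_mul, abs_of_pos (inv_pos.2 hb),
        ← mul_assoc, mul_inv_cancel₀ hb.ne', one_mul]
    rw [h2]
    exact mul_le_mul_of_nonneg_left h1 (Finset.prod_nonneg fun i _ => by positivity)
  have hsk : 0 ≤ √(1 - T ^ 2) ^ q := by positivity
  have hv : ∀ x, 0 ≤ ((1 - T * ⟪p x, y⟫) ^ q)⁻¹ := fun x =>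
    (inv_pos.2 (pow_pos (v_pos hT (h.np x) hy) q)).le
  have hmm : ∀ c : E, Measurable fun x => |⟪c, mob T y (p x)⟫| ^ J := fun c =>
    ((measurable_const.inner (measurable_mob h.mp T y)).abs).pow_const J
  have hint : ∀ i ∈ s', Integrable (fun x => ((e i : ℝ) / J) *
      (((1 - T * ⟪p x, y⟫) ^ q)⁻¹ * |⟪‖b i‖⁻¹ • b i, mob T y (p x)⟫| ^ J)) μ := fun i hi => by
    refine (int_mom h hT hy (hmm _) (C := 1) fun x => ?_).const_mul _
    have h5 := abs_inner_mob_le hT (h.np x) hy (‖b i‖⁻¹ • b i)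
    rw [norm_smul, norm_inv, norm_norm, inv_mul_cancel₀ (hbp i hi).ne'] at h5
    rw [abs_of_nonneg (by positivity)]
    exact pow_le_one₀ (abs_nonneg _) h5
  have h3 : ∫ x, ((1 - T * ⟪p x, y⟫) ^ q)⁻¹ * ∏ i ∈ s, |⟪b i, mob T y (p x)⟫| ^ e i ∂μ ≤
      ∫ x, (∏ i ∈ s', ‖b i‖ ^ e i) * ∑ i ∈ s', ((e i : ℝ) / J) *
      (((1 - T * ⟪p x, y⟫) ^ q)⁻¹ * |⟪‖b i‖⁻¹ • b i, mob T y (p x)⟫| ^ J) ∂μ := by
    refine integral_mono_of_nonneg (Filter.Eventually.of_forall fun x => ?_)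
      ((integrable_finsetSum _ hint).const_mul _) (Filter.Eventually.of_forall fun x => ?_)
    · exact mul_nonneg (hv x) (Finset.prod_nonneg fun i _ => by positivity)
    · refine (mul_le_mul_of_nonneg_left (hpt x) (hv x)).trans (le_of_eq ?_)
      beta_reduce
      rw [Finset.mul_sum, Finset.mul_sum, Finset.mul_sum]
      exact Finset.sum_congr rfl fun i _ => by ring
  refine (mul_le_mul_of_nonneg_left h3 hsk).trans ?_
  rw [integral_const_mul, integral_finsetSum _ hint, hprod (fun i => ‖b i‖)]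
  have h6 : ∀ i ∈ s', √(1 - T ^ 2) ^ q * ∫ x, ((e i : ℝ) / J) *
      (((1 - T * ⟪p x, y⟫) ^ q)⁻¹ * |⟪‖b i‖⁻¹ • b i, mob T y (p x)⟫| ^ J) ∂μ ≤
      ((e i : ℝ) / J) * (μ.real univ * Mo q J) := fun i hi => by
    rw [integral_const_mul]
    have h7 := mom_unit h hq hT hy (b := ‖b i‖⁻¹ • b i)
      (by rw [norm_smul, norm_inv, norm_norm, inv_mul_cancel₀ (hbp i hi).ne']) J
    have := mul_le_mul_of_nonneg_left h7 (show (0 : ℝ) ≤ (e i : ℝ) / J by positivity)
    linarith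
  have h8 := Finset.sum_le_sum h6
  rw [← Finset.sum_mul, ← Finset.sum_div, ← Nat.cast_sum, hsum, div_self hJ'.ne', one_mul,
    ← Finset.mul_sum] at h8
  have h9 : 0 ≤ ∏ i ∈ s', ‖b i‖ ^ e i := Finset.prod_nonneg fun i _ => by positivity
  have := mul_le_mul_of_nonneg_left h8 h9
  linarith

/-- moments of a single coordinate -/
theorem mom_one (h : CV μ q p) (hq : 0 < q) {T : ℝ} (hT : T ∈ Ico (0 : ℝ) 1) {y : E}
    (hy : ‖y‖ = 1) (b : E) (j : ℕ) :
    √(1 - T ^ 2) ^ q * ∫ x, ((1 - T * ⟪p x, y⟫) ^ q)⁻¹ * |⟪b, mob T y (p x)⟫| ^ j ∂μ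
      ≤ μ.real univ * (‖b‖ ^ j * Mo q j) := by
  have := mom_prod h hq hT hy ({()} : Finset Unit) (fun _ => b) (fun _ => j)
  simpa using this

/-- moments of products of two coordinates -/
theorem mom_two (h : CV μ q p) (hq : 0 < q) {T : ℝ} (hT : T ∈ Ico (0 : ℝ) 1) {y : E}
    (hy : ‖y‖ = 1) (a b : E) (i j : ℕ) :
    √(1 - T ^ 2) ^ q * ∫ x, ((1 - T * ⟪p x, y⟫) ^ q)⁻¹ *
      (|⟪a, mob T y (p x)⟫| ^ i * |⟪b, mob T y (p x)⟫| ^ j) ∂μ
      ≤ μ.real univ * (‖a‖ ^ i * ‖b‖ ^ j * Mo q (i + j)) := by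
  have := mom_prod h hq hT hy (Finset.univ : Finset Bool) (fun s => if s then a else b)
    (fun s => if s then i else j)
  simpa [add_comm, mul_comm, mul_left_comm] using this

end Vale.Agent.P224.R2.H869
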