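import Vale.Agent.P224.R2.H869.TlQ

/-!
The mixed rows with the square root, the general list of rows, and the pointwise inequality for
bounded `ρ`.
-/

namespace Vale.Agent.P224.R2.H869

open MeasureTheory Set Function Real Module Matrix Vale.Agent.P224 Vale.Agent.P224.FV
  Vale.Agent.P224.R2.H582 Vale.Agent.P224.R2.H484 Vale.Agent.P224.R2.H728
  Vale.Agent.P224.R2.H686 Vale.Agent.P224.R2.H662
open Vale.Agent.P224.SM2 hiding ker
open Vale.Agent.P224.R2.H470 hiding tg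
open scoped Topology RealInnerProductSpace ContDiff Manifold

set_option linter.unusedSectionVars false

/-- the mixed row function of `φ ^ (2 i) q ^ (2 k + 2)` with the square root -/
noncomputable def XE1 (Λ η : ℝ) (i k : ℕ) (a q φ : ℝ) : ℝ :=
  φ ^ (2 * i) * q ^ (2 * k + 2) - Λ ^ 2 * (φ ^ (2 * i) * max q 0 ^ (2 * k + 1))
    - (Λ ^ 2 + η) * (φ ^ (2 * i) * max (-q) 0 ^ (2 * k + 1))
    - 4 * i * Λ * (φ ^ (2 * i - 1) * |q| ^ (2 * k + 1) * √((a - (a - q) ^ 2 / 4) * (1 + q)))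
    - (4 * k + 2) * Λ ^ 2 * (φ ^ (2 * i) * q ^ (2 * k) * (1 + q))

/-- the mixed row function of `φ ^ (2 i + 2) q ^ (2 k + 2)`, with the square root removed -/
noncomputable def XT1 (Λ η θ : ℝ) (i k : ℕ) (a q φ : ℝ) : ℝ :=
  (1 - θ) * (φ ^ (2 * i + 2) * q ^ (2 * k + 2)) - Λ ^ 2 * (φ ^ (2 * i + 2) * max q 0 ^ (2 * k + 1))
    - (Λ ^ 2 + η) * (φ ^ (2 * i + 2) * max (-q) 0 ^ (2 * k + 1))
    - 4 * (i + 1) ^ 2 * Λ ^ 2 / θ * (φ ^ (2 * i) * q ^ (2 * k) * ((a - (a - q) ^ 2 / 4) * (1 + q)))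
    - (4 * k + 2) * Λ ^ 2 * (φ ^ (2 * i + 2) * q ^ (2 * k) * (1 + q))

section

variable {X : Type*} {E : Type*} [NormedAddCommGroup E] [InnerProductSpace ℝ E]
  [FiniteDimensional ℝ E] [TopologicalSpace X] [MeasurableSpace X] [CompactSpace X] [BorelSpace X]
  {μ : Measure X} [IsProbabilityMeasure μ] {m : ℕ} {p n : X → E} {J : E →L[ℝ] E} {Λ : ℝ}

/-- the mixed rows with the square root -/
lemma isRow_XE (d : Dat μ m p n J Λ) {η : ℝ} (hη : ∫ x, aa J p n x ∂μ ≤ η) (i k : ℕ) :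
    IsRow μ m p n J (XE1 Λ η i k) := by
  have ca := d.ca
  have cq := d.cq
  have cp := d.cph
  have ct := d.ctau
  refine ⟨?_, ?_⟩
  · unfold XE1
    fun_prop
  refine le_trans ?_ (H876.X_row d i k)
  refine integral_mono (int_of_cont ?_) (int_of_cont (by fun_prop)) fun x => ?_
  · unfold XE1
    fun_prop
  have hm := d.m_pos
  have hm1 : (0 : ℝ) < m + 1 := by linarith
  have h1 : t0 J / (m + 1) ≤ Λ ^ 2 := by
    rw [div_le_iff₀ hm1]
    have := d.t0_le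
    nlinarith [sq_nonneg Λ]
  have h2 : -η ≤ t0 J / (m + 1) := by
    rw [le_div_iff₀ hm1]
    have := d.t0_ge
    nlinarith
  have hφ : 0 ≤ ph m J p x ^ (2 * i) := pow_nonneg (ph_nonneg x) _
  simp only [XE1]
  have e1 : tau J p n x = aa J p n x - (aa J p n x - qq J p x) ^ 2 / 4 := rfl
  rw [e1]
  rcases le_total 0 (qq J p x) with hq | hq
  · rw [max_eq_left hq, max_eq_right (by linarith : -qq J p x ≤ 0)]
    have h3 := mul_le_mul_of_nonneg_right h1 (mul_nonneg hφ (pow_nonneg hq (2 * k + 1)))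
    have e0 : (0 : ℝ) ^ (2 * k + 1) = 0 := zero_pow (by omega)
    rw [e0]
    linarith
  · rw [max_eq_right hq, max_eq_left (by linarith : 0 ≤ -qq J p x)]
    have h3 := mul_le_mul_of_nonneg_right h2
      (mul_nonneg hφ (pow_nonneg (by linarith : 0 ≤ -qq J p x) (2 * k + 1)))
    have e0 : (0 : ℝ) ^ (2 * k + 1) = 0 := zero_pow (by omega)
    have e2 : t0 J / (m + 1) * (ph m J p x ^ (2 * i) * qq J p x ^ (2 * k + 1))
        = -(t0 J / (m + 1) * (ph m J p x ^ (2 * i) * (-qq J p x) ^ (2 * k + 1))) := by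
      rw [Odd.neg_pow ⟨k, rfl⟩]
      ring
    rw [e2, e0]
    linarith

lemma XT1_le {Λ η θ : ℝ} (hθ : 0 < θ) (i k : ℕ) {a q φ : ℝ}
    (hq : -1 ≤ q) (ht : 0 ≤ a - (a - q) ^ 2 / 4) :
    XT1 Λ η θ i k a q φ ≤ XE1 Λ η (i + 1) k a q φ := by
  unfold XT1 XE1
  set s := √((a - (a - q) ^ 2 / 4) * (1 + q)) with hs
  have h4 : 0 ≤ (a - (a - q) ^ 2 / 4) * (1 + q) := mul_nonneg ht (by linarith)
  have h5 : s ^ 2 = (a - (a - q) ^ 2 / 4) * (1 + q) := Real.sq_sqrt h4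
  rw [← h5]
  have e0 : 2 * (i + 1) = 2 * i + 2 := by ring
  have e1 : 2 * (i + 1) - 1 = 2 * i + 1 := by omega
  rw [e0, show 2 * i + 2 - 1 = 2 * i + 1 by omega]
  push_cast
  have h6 : 4 * ((i : ℝ) + 1) * Λ * (φ ^ (2 * i + 1) * |q| ^ (2 * k + 1) * s)
      ≤ θ * (φ ^ (2 * i + 2) * q ^ (2 * k + 2))
        + 4 * ((i : ℝ) + 1) ^ 2 * Λ ^ 2 / θ * (φ ^ (2 * i) * q ^ (2 * k) * s ^ 2) := by
    have e2 : q ^ (2 * k + 2) = (|q| ^ (k + 1)) ^ 2 := by
      rw [← pow_mul, show (k + 1) * 2 = 2 * (k + 1) by ring, pow_mul |q|, sq_abs, ← pow_mul]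
      ring_nf
    have e3 : q ^ (2 * k) = (|q| ^ k) ^ 2 := by
      rw [← pow_mul, show k * 2 = 2 * k by ring, pow_mul |q|, sq_abs, ← pow_mul]
    have e4 : |q| ^ (2 * k + 1) = |q| ^ (k + 1) * |q| ^ k := by
      rw [← pow_add]
      ring_nf
    rw [e2, e3, e4]
    have e5 : θ * (φ ^ (2 * i + 2) * (|q| ^ (k + 1)) ^ 2)
        + 4 * ((i : ℝ) + 1) ^ 2 * Λ ^ 2 / θ * (φ ^ (2 * i) * (|q| ^ k) ^ 2 * s ^ 2)
        - 4 * ((i : ℝ) + 1) * Λ * (φ ^ (2 * i + 1) * (|q| ^ (k + 1) * |q| ^ k) * s)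
        = (φ ^ i) ^ 2 * (θ * (φ * |q| ^ (k + 1)) - 2 * ((i : ℝ) + 1) * Λ * (|q| ^ k * s)) ^ 2
          / θ := by
      field_simp
      ring
    have e6 : 0 ≤ (φ ^ i) ^ 2 * (θ * (φ * |q| ^ (k + 1))
        - 2 * ((i : ℝ) + 1) * Λ * (|q| ^ k * s)) ^ 2 / θ := by positivity
    linarith
  have e7 : (1 - θ) * (φ ^ (2 * i + 2) * q ^ (2 * k + 2))
      = φ ^ (2 * i + 2) * q ^ (2 * k + 2) - θ * (φ ^ (2 * i + 2) * q ^ (2 * k + 2)) := by ring
  linarith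

/-- the mixed rows without the square root -/
lemma isRow_XT (d : Dat μ m p n J Λ) {η θ : ℝ} (hθ : 0 < θ) (hη : ∫ x, aa J p n x ∂μ ≤ η)
    (i k : ℕ) : IsRow μ m p n J (XT1 Λ η θ i k) := by
  have ca := d.ca
  have cq := d.cq
  have cp := d.cph
  have h := isRow_XE d hη (i + 1) k
  have hc : Continuous (fun x => XT1 Λ η θ i k (aa J p n x) (qq J p x) (ph m J p x)) := by
    unfold XT1
    fun_prop
  refine ⟨hc, le_trans (integral_mono (int_of_cont hc) (int_of_cont h.1) fun x => ?_) h.2⟩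
  exact XT1_le hθ i k (d.q_ge x) (d.tau_nonneg x)

/-- the types of rows -/
inductive RowT
  | P (c1 : ℚ)
  | F (i : ℕ)
  | R (k l : ℕ)
  | Q (k : ℕ)
  | XX (th : ℚ)
  | XE (i k : ℕ)
  | XT (i k : ℕ) (th : ℚ)

namespace RowT

/-- the function of a row -/
noncomputable def fn (Λ η : ℝ) : RowT → ℝ → ℝ → ℝ → ℝ
  | P c1 => fun a _ φ => φ ^ 2 - c1 * a
  | F i => FF1 Λ i
  | R k l => fun _ q _ => RR1 Λ k l q
  | Q k => fun _ q _ => QQ1 Λ η k q
  | XX th => XX1 Λ η th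
  | XE i k => XE1 Λ η i k
  | XT i k th => XT1 Λ η th i k

/-- the parameter of the row is admissible; the constant of the row of `φ²` is at least `C1` -/
def ok (C1 : ℚ) : RowT → Bool
  | P c1 => decide (C1 ≤ c1)
  | F _ => true
  | R _ _ => true
  | Q _ => true
  | XX th => decide (0 < th)
  | XE _ _ => true
  | XT _ _ th => decide (0 < th)

theorem isRow {r : RowT} {C1 : ℚ} (h : r.ok C1 = true) (d : Dat μ m p n J Λ) {η : ℝ}
    (hη : ∫ x, aa J p n x ∂μ ≤ η)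
    (hP : ∫ x, ph m J p x ^ 2 ∂μ ≤ C1 * ∫ x, aa J p n x ∂μ) :
    IsRow μ m p n J (r.fn Λ η) := by
  cases r with
  | P c1 =>
    have h1 : (C1 : ℝ) ≤ (c1 : ℝ) := by exact_mod_cast of_decide_eq_true h
    exact isRow_P d (hP.trans (mul_le_mul_of_nonneg_right h1 aa_int_nonneg))
  | F i => exact isRow_F d i
  | R k l => exact isRow_R d k l
  | Q k => exact isRow_Q d hη k
  | XX th => exact isRow_X d (by exact_mod_cast of_decide_eq_true h) hη
  | XE i k => exact isRow_XE d hη i k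
  | XT i k th => exact isRow_XT d (by exact_mod_cast of_decide_eq_true h) hη i k

end RowT

/-- the combination of a list of rows with their multipliers -/
noncomputable def rowL (Λ η : ℝ) (l : List (RowT × ℚ)) (a q φ : ℝ) : ℝ :=
  (l.map fun t => (t.2 : ℝ) * t.1.fn Λ η a q φ).sum

/-- the check of a list of rows with their multipliers -/
def rowsOK (C1 : ℚ) (l : List (RowT × ℚ)) : Bool :=
  l.all fun t => t.1.ok C1 && decide (0 ≤ t.2)

theorem isRow_rowL {l : List (RowT × ℚ)} {C1 : ℚ} (h : rowsOK C1 l = true)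
    (d : Dat μ m p n J Λ) {η : ℝ} (hη : ∫ x, aa J p n x ∂μ ≤ η)
    (hP : ∫ x, ph m J p x ^ 2 ∂μ ≤ C1 * ∫ x, aa J p n x ∂μ) :
    IsRow μ m p n J (rowL Λ η l) := by
  induction l with
  | nil =>
    unfold rowL
    simp only [List.map_nil, List.sum_nil]
    exact isRow_zero
  | cons t l ih =>
    simp only [rowsOK, List.all_cons, Bool.and_eq_true, decide_eq_true_eq] at h
    obtain ⟨⟨h1, h2⟩, h3⟩ := h
    have h4 := (RowT.isRow h1 d hη hP).smul (c := (t.2 : ℝ)) (by exact_mod_cast h2)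
    have h5 := h4.add (ih h3)
    unfold rowL
    simp only [List.map_cons, List.sum_cons]
    exact h5

end

/-- the pointwise inequality in the variables `ρ`, `y`, `φ`, for `ρ² ≤ Λ² m` -/
def PtIneqB (m : ℕ) (Λ : ℝ) (G R : ℝ → ℝ → ℝ → ℝ) (c : ℝ) : Prop :=
  ∀ ρ y φ : ℝ, 0 ≤ ρ → ρ ^ 2 ≤ Λ ^ 2 * m → 0 ≤ y → y ≤ 4 * ρ → 0 ≤ φ →
    φ ^ 2 ≤ m * (y * ρ - y ^ 2 / 4) →
    G (y + (1 - ρ) ^ 2) (if 1 ≤ ρ then y else y + (1 - ρ) ^ 2) φ
      ≤ c * (y + (1 - ρ) ^ 2) + R (y + (1 - ρ) ^ 2) (ρ ^ 2 - 1) φ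

lemma PtIneq.toB {m : ℕ} {G R : ℝ → ℝ → ℝ → ℝ} {c : ℝ} (h : PtIneq m G R c) (Λ : ℝ) :
    PtIneqB m Λ G R c := fun ρ y φ h1 _ h3 h4 h5 h6 => h ρ y φ h1 h3 h4 h5 h6

/-- from the variables `ρ`, `y`, `φ` to the variables `a`, `q`, `φ` -/
lemma PtIneqB.aq {m : ℕ} {Λ : ℝ} (hm : 0 < m) {G R : ℝ → ℝ → ℝ → ℝ} {c : ℝ}
    (h : PtIneqB m Λ G R c) (a q φ : ℝ) (hq : -1 ≤ q) (hq2 : 1 + q ≤ Λ ^ 2 * m) (hφ : 0 ≤ φ)
    (h1 : φ ^ 2 ≤ (m : ℝ) * (a - (a - q) ^ 2 / 4)) :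
    G a (a - (max (√(1 + q)) 1 - 1) ^ 2) φ ≤ c * a + R a q φ := by
  have hm' : (0 : ℝ) < m := by exact_mod_cast hm
  obtain ⟨ρ, hρ⟩ : ∃ ρ, ρ = √(1 + q) := ⟨_, rfl⟩
  have hρ0 : 0 ≤ ρ := hρ ▸ Real.sqrt_nonneg _
  have hρ2 : ρ ^ 2 = 1 + q := by rw [hρ, Real.sq_sqrt (by linarith)]
  obtain ⟨y, hy⟩ : ∃ y, y = a - (1 - ρ) ^ 2 := ⟨_, rfl⟩
  have ea : a = y + (1 - ρ) ^ 2 := by linarith
  have eq1 : q = ρ ^ 2 - 1 := by linarith
  have eτ : a - (a - q) ^ 2 / 4 = y * ρ - y ^ 2 / 4 := by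
    rw [ea, eq1]
    ring
  have h2 : 0 ≤ a - (a - q) ^ 2 / 4 := by
    by_contra hc
    push Not at hc
    have := mul_neg_of_pos_of_neg hm' hc
    nlinarith [sq_nonneg φ]
  rw [eτ] at h2 h1
  have hy0 : 0 ≤ y := by
    by_contra hc
    push Not at hc
    nlinarith
  have hy4 : y ≤ 4 * ρ := by
    by_contra hc
    push Not at hc
    nlinarith
  have h3 := h ρ y φ hρ0 (by rw [hρ2]; exact hq2) hy0 hy4 hφ h1
  rw [← ea, ← eq1] at h3
  have e3 : a - (max (√(1 + q)) 1 - 1) ^ 2 = if 1 ≤ ρ then y else a := by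
    rw [← hρ]
    split_ifs with h4
    · rw [max_eq_left h4, hy]
      ring
    · rw [max_eq_right (by linarith)]
      ring
  rw [e3]
  exact h3

section

variable {V W M : Type*} [NormedAddCommGroup V] [InnerProductSpace ℝ V] [FiniteDimensional ℝ V]
  [NormedAddCommGroup W] [InnerProductSpace ℝ W] [FiniteDimensional ℝ W]
  [TopologicalSpace M] [ChartedSpace V M]
  [MeasurableSpace V] [BorelSpace V] [MeasurableSpace M] [BorelSpace M]
  [MeasurableSpace W] [BorelSpace W] [IsManifold 𝓘(ℝ, V) ∞ M]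
  [CompactSpace M] [T2Space M]

/-- **the relative tail**, for a mean at most `η`, from the tail with a function of `a`, `b`, `φ`
and the pointwise inequality in `ρ`, `y`, `φ` for `ρ² ≤ Λ² m` -/
theorem rel_nearB {F N : M → W} (D : NrmData V F N) {ι : Type*} [Fintype ι] [DecidableEq ι]
    (b : OrthonormalBasis ι ℝ W) (j : ι → ℝ) {Λ : ℝ}
    (d : Dat (nrm (volM V F)) (finrank ℝ V) F N (dop b j) Λ) {lT : ℝ → ℝ}
    {G R : ℝ → ℝ → ℝ → ℝ} {c : ℝ}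
    (hG : Integrable (fun x => G (aG (zz (dop b j) F N) x) (bG (zz (dop b j) F N) N x)
      (pG (finrank ℝ V) F (zz (dop b j) F N) x)) (nrm (volM V F)))
    (hTail : Tail (nrm (volM V F)) (finrank ℝ V) F N lT
      (∫ x, G (aG (zz (dop b j) F N) x) (bG (zz (dop b j) F N) N x)
      (pG (finrank ℝ V) F (zz (dop b j) F N) x) ∂(nrm (volM V F))))
    (hR : IsRow (nrm (volM V F)) (finrank ℝ V) F N (dop b j) R)
    (hpt : PtIneqB (finrank ℝ V) Λ G R c) :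
    Tail (volM V F) (finrank ℝ V) F N lT
      (c * hh (nrm (volM V F)) (diagonal j) (co b F) (co b N)) := by
  have := D.fin
  have := D.nz
  have := D.prob
  have h1 := int_le_of_pt d hG hR (c := c) (fun x => by
    obtain ⟨-, r2, r3, r4⟩ := range_data d x
    rw [aG_eq, bG_eq d, pG_eq d]
    refine hpt.aq (Nat.pos_of_ne_zero fun h => by
      have := d.m1
      omega) _ _ _ r2 ?_ r3 r4
    rw [d.q_eq]
    have h2 := d.nJ (F x)
    rw [D.one.np, mul_one] at h2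
    have h3 := pow_le_pow_left₀ (norm_nonneg _) h2 2
    rw [mul_pow, Real.sq_sqrt (Nat.cast_nonneg _)] at h3
    linarith)
  have h2 : hh (nrm (volM V F)) (diagonal j) (co b F) (co b N)
      = ∫ x, aa (dop b j) F N x ∂(nrm (volM V F)) := hh_norm b j
  rw [h2]
  exact Tail.of_nrm (hTail.mono h1)

end

end Vale.Agent.P224.R2.H869
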