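import Vale.Agent.P224.R2.H876.Tl2

/-!
The relative tail bound at level `T` with the smooth cut and a free weight in the quadratic
bound of the main part.
-/

namespace Vale.Agent.P224.R2.H869

open MeasureTheory Set Function Module Vale.Agent.P224 Vale.Agent.P224.SM2
  Vale.Agent.P224.R2.H876 Vale.Agent.P224.R2.H582 Vale.Agent.P224.R2.H484
  Vale.Agent.P224.R2.H728
open scoped RealInnerProductSpace

set_option linter.unusedSectionVars false

/-- the bound of the main part; `lam` is the size of the quadratic form -/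
noncomputable def YV3 (M : ℕ → ℝ) (j : ℕ) (l K s d lam : ℝ) : ℝ :=
  K * (cc j / l ^ j) * ∑ i ∈ Finset.range (j + 2),
    ((j + 1).choose i : ℝ) * (lam ^ i * s ^ (j + 1 - i)) * mp2 M (j + 1 + i) s d

lemma YV3_eq (M : ℕ → ℝ) (j : ℕ) (l K s d : ℝ) : YV3 M j l K s d (d ^ 2 / 4) = YV2 M j l K s d := rfl

/-- the quadratic bound with a weight `C ≥ 1` -/
lemma quad_le {C r Q Z : ℝ} (hC : 1 ≤ C) (hr0 : 0 ≤ r) (hr1 : r ≤ 1) :
    r * Z * Q - r ^ 2 * Q ^ 2 ≤ (C * Q - (Q - Z) / C) ^ 2 / 4 := by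
  have hC0 : 0 < C := by linarith
  have e : (C * Q - (Q - Z) / C) ^ 2 / 4 - (r * Z * Q - r ^ 2 * Q ^ 2)
      = ((Z + (C ^ 2 - 1 - 2 * C ^ 2 * r) * Q) ^ 2 + 4 * C ^ 2 * (C ^ 2 - 1) * r * (1 - r) * Q ^ 2)
        / (4 * C ^ 2) := by
    field_simp
    ring
  have h1 : 0 ≤ C ^ 2 - 1 := by nlinarith
  have h2 : 0 ≤ 1 - r := by linarith
  have h3 : 0 ≤ ((Z + (C ^ 2 - 1 - 2 * C ^ 2 * r) * Q) ^ 2
      + 4 * C ^ 2 * (C ^ 2 - 1) * r * (1 - r) * Q ^ 2) / (4 * C ^ 2) := by positivity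
  linarith

section

variable {X : Type*} [MeasurableSpace X] {E : Type*} [NormedAddCommGroup E]
  [InnerProductSpace ℝ E] [MeasurableSpace E] [BorelSpace E] [SecondCountableTopology E]
  {μ : Measure X} [IsFiniteMeasure μ] {m : ℕ} {p n z : X → E}

/-- the main part at a fixed point -/
theorem main3 {M : ℕ → ℝ} (hM : MomB μ m p M) (hM0 : ∀ q, 0 ≤ M q) (hp : FV.Pts p n)
    {T : ℝ} (hT : T ∈ Ico (0 : ℝ) 1) {y : E} (hy : ‖y‖ = 1) {N c : E} (hN : ‖N‖ = 1) (j : ℕ)
    {l η s s' K C lam : ℝ} (hl : 0 < l) (hη : 0 < η) (hη1 : η < 1) (hs : |s'| ≤ s) (hK0 : 0 ≤ K)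
    (hK : ∀ ρ, 0 ≤ ρ → ρ ≤ η → 1 - ρ ^ 2 / η ^ 2 ≤ K * (1 - ρ) ^ (2 * j + 4)) (hC : 1 ≤ C)
    (hlam : ‖C • N - C⁻¹ • (N - c)‖ ^ 2 ≤ 4 * lam)
    {P U : X → ℝ} (hPQ : ∀ x, P x - xi m T y N (p x) = U x - (xi m T y c (p x) + s')) :
    ∫ x, wt m T (p x) y * G1 l η (P x) (xi m T y N (p x)) (U x) (xi m T y c (p x) + s') ∂μ
      ≤ μ.real univ * YV3 M j l K s ‖c‖ lam := by
  have hs0 : 0 ≤ s := (abs_nonneg _).trans hs
  have hA : 0 ≤ μ.real univ := measureReal_nonneg
  have hC0 : 0 < C := by linarith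
  set w : E := C • N - C⁻¹ • (N - c) with hw
  have hlam0 : 0 ≤ lam := by
    have := sq_nonneg ‖w‖
    linarith
  have bw := bm_wt (m := m) hp hT hy
  have bN := bm_abs (bm_xi (m := m) hp hT hy N)
  have bc := bm_abs (bm_xi (m := m) hp hT hy c)
  have bww := bm_abs (bm_xi (m := m) hp hT hy w)
  have hcj := cc_nonneg j
  set K' : ℝ := K * (cc j / l ^ j) with hK'
  have hK'0 : 0 ≤ K' := by positivity
  have bi : ∀ i, BM (fun x => wt m T (p x) y * (|xi m T y w (p x)| ^ (2 * i)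
      * |xi m T y N (p x)| ^ (j + 1 - i) * (|xi m T y c (p x)| + s) ^ 2)) := fun i =>
    bw.mul (((bww.pow _).mul (bN.pow _)).mul ((bc.add (BM.const s)).pow 2))
  have h1 : ∫ x, wt m T (p x) y * G1 l η (P x) (xi m T y N (p x)) (U x)
        (xi m T y c (p x) + s') ∂μ
      ≤ ∫ x, ∑ i ∈ Finset.range (j + 2), (K' * (((j + 1).choose i : ℝ) *
        ((1 / 4) ^ i * s ^ (j + 1 - i)))) *
        (wt m T (p x) y * (|xi m T y w (p x)| ^ (2 * i) * |xi m T y N (p x)| ^ (j + 1 - i)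
          * (|xi m T y c (p x)| + s) ^ 2)) ∂μ := by
    refine integral_mono_of_nonneg (Filter.Eventually.of_forall fun x =>
      mul_nonneg (wt_nonneg hT (hp.np x) hy) (G1_nonneg _ _ _ _ _ _)) ?_
      (Filter.Eventually.of_forall fun x => ?_)
    · exact (BM.sum _ fun i _ => (bi i).const_mul _).int
    · have hwt := wt_nonneg (m := m) hT (hp.np x) hy
      have hPQx := hPQ x
      set Q := xi m T y N (p x) with hQ
      set V := xi m T y c (p x) with hV
      set W := xi m T y w (p x) with hW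
      have eW : W = C * Q - (Q - V) / C := by
        rw [hW, hQ, hV, hw]
        unfold xi
        rw [inner_sub_left, real_inner_smul_left, real_inner_smul_left, inner_sub_left]
        field_simp
      have hB0 : 0 ≤ W ^ 2 / 4 + s * |Q| := by positivity
      have t1 := G1_le hPQx hl hη hη1 j hK0 hK hB0 (fun r hr0 hr1 => by
        have h3 : r * (s' * Q) ≤ s * |Q| := by
          have h4 : s' * Q ≤ s * |Q| := by
            refine (le_abs_self _).trans ?_
            rw [abs_mul]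
            exact mul_le_mul_of_nonneg_right hs (abs_nonneg _)
          have h5 : 0 ≤ s * |Q| := by positivity
          nlinarith
        have h6 := quad_le (Q := Q) (Z := V) hC hr0 hr1
        rw [← eW] at h6
        nlinarith)
      have t4 := add_sq_abs_le (a := V) hs
      have t5 : G1 l η (P x) Q (U x) (V + s') ≤ K' * ((W ^ 2 / 4 + s * |Q|) ^ (j + 1)
          * (|V| + s) ^ 2) := by
        refine t1.trans ?_
        have h6 := mul_le_mul_of_nonneg_right t4 (pow_nonneg hB0 (j + 1))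
        have h7 := mul_le_mul_of_nonneg_left h6 hK'0
        linarith
      refine (mul_le_mul_of_nonneg_left t5 hwt).trans (le_of_eq ?_)
      rw [add_pow, Finset.sum_mul, Finset.mul_sum, Finset.mul_sum]
      refine Finset.sum_congr rfl fun i _ => ?_
      have e2 : (W ^ 2 / 4) ^ i = (1 / 4) ^ i * |W| ^ (2 * i) := by
        rw [pow_mul, sq_abs, ← mul_pow]
        congr 1
        ring
      rw [e2, mul_pow]
      ring
  refine h1.trans ?_
  rw [integral_finsetSum _ fun i _ => ((bi i).const_mul _).int]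
  have h2 : ∀ i ∈ Finset.range (j + 2), ∫ x, (K' * (((j + 1).choose i : ℝ) *
        ((1 / 4) ^ i * s ^ (j + 1 - i)))) *
        (wt m T (p x) y * (|xi m T y w (p x)| ^ (2 * i) * |xi m T y N (p x)| ^ (j + 1 - i)
          * (|xi m T y c (p x)| + s) ^ 2)) ∂μ ≤ μ.real univ * (K' *
          (((j + 1).choose i : ℝ) * (lam ^ i * s ^ (j + 1 - i))
            * mp2 M (j + 1 + i) s ‖c‖)) := by
    intro i hi
    have hi' : i ≤ j + 1 := by
      have := Finset.mem_range.1 hi
      omega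
    rw [integral_const_mul]
    have h3 := hM.sq hp hT hy w N c (2 * i) (j + 1 - i) hs0
    rw [hN, one_pow, mul_one, show 2 * i + (j + 1 - i) = j + 1 + i by omega] at h3
    have h4 : 0 ≤ K' * (((j + 1).choose i : ℝ) * ((1 / 4) ^ i * s ^ (j + 1 - i))) := by
      positivity
    refine (mul_le_mul_of_nonneg_left h3 h4).trans ?_
    have h5 : (1 / 4 : ℝ) ^ i * ‖w‖ ^ (2 * i) ≤ lam ^ i := by
      rw [pow_mul, ← mul_pow]
      refine pow_le_pow_left₀ (by positivity) ?_ i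
      linarith
    have h6 : 0 ≤ mp2 M (j + 1 + i) s ‖c‖ := by
      have a1 := hM0 (j + 1 + i + 2)
      have a2 := hM0 (j + 1 + i + 1)
      have a3 := hM0 (j + 1 + i)
      unfold mp2
      positivity
    calc K' * (((j + 1).choose i : ℝ) * ((1 / 4) ^ i * s ^ (j + 1 - i))) *
          (μ.real univ * (‖w‖ ^ (2 * i) * mp2 M (j + 1 + i) s ‖c‖))
        = (μ.real univ * (K' * (((j + 1).choose i : ℝ) * s ^ (j + 1 - i)
          * mp2 M (j + 1 + i) s ‖c‖))) * ((1 / 4 : ℝ) ^ i * ‖w‖ ^ (2 * i)) := by ring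
      _ ≤ (μ.real univ * (K' * (((j + 1).choose i : ℝ) * s ^ (j + 1 - i)
          * mp2 M (j + 1 + i) s ‖c‖))) * lam ^ i :=
          mul_le_mul_of_nonneg_left h5 (by positivity)
      _ = _ := by ring
  refine (Finset.sum_le_sum h2).trans (le_of_eq ?_)
  unfold YV3
  rw [← Finset.mul_sum, ← Finset.mul_sum]

/-- the relative tail bound at level `T`, smooth cut; the power `j y` and the weight `C y` may
depend on the point -/
theorem tl_level3 (h2 : Two μ m p n) {M : ℕ → ℝ} (hM : MomB μ m p M) (hM0 : ∀ q, 0 ≤ M q)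
    (hm : 1 ≤ m) (hz : Measurable z) {B : ℝ} (hB : ∀ x, ‖z x‖ ≤ B)
    (hsym : ∀ x y, ⟪n x, p y⟫ - ⟪p x, n y⟫ = ⟪z x, p y⟫ - ⟪p x, z y⟫)
    {T : ℝ} (hT : T ∈ Ico (0 : ℝ) 1) {l η β : ℝ} (hl : 0 < l)
    (hη : 0 < η) (hη1 : η < 1) (hβ : 0 < β) (i i' : ℕ) (j : X → ℕ) {K C lam H : X → ℝ}
    (hK0 : ∀ y, 0 ≤ K y)
    (hK : ∀ y ρ, 0 ≤ ρ → ρ ≤ η → 1 - ρ ^ 2 / η ^ 2 ≤ K y * (1 - ρ) ^ (2 * j y + 4))
    (hC : ∀ y, 1 ≤ C y)
    (hlam : ∀ y, C y ^ 2 - 2 * (1 - ⟪n y, z y⟫) + (1 - 2 * ⟪n y, z y⟫ + dz T p z y ^ 2) / C y ^ 2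
      ≤ 4 * lam y)
    (hHi : Integrable H μ)
    (hH : ∀ y, YV3 M (j y) l (K y) (sh m T p z y) (dz T p z y) (lam y)
      + ZV M i i' l η β (sh m T p z y) (dz T p z y) ≤ H y) :
    √(1 - T ^ 2) ^ (m + 1) * E2 μ p n (TK m T l) ≤ μ.real univ * (2 / m * ∫ y, H y ∂μ) := by
  have hp : FV.Pts p n := h2.toPts
  have hm0 : (0 : ℝ) < m := by exact_mod_cast hm
  have hA : 0 ≤ μ.real univ := measureReal_nonneg
  have bP := bm_Phi2 (m := m) hp hT hz hB l η β
  have iP := bP.int (μ := μ.prod μ)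
  have iPs : Integrable (fun q : X × X => Phi2 m T l η β p n z q.swap) (μ.prod μ) := iP.swap
  -- the pair integral
  have h1 : √(1 - T ^ 2) ^ (m + 1) * E2 μ p n (TK m T l)
      ≤ 1 / m * (2 * ∫ q, Phi2 m T l η β p n z q ∂(μ.prod μ)) := by
    unfold E2
    rw [← integral_const_mul]
    have iS : Integrable (fun q : X × X => 1 / (m : ℝ) * (Phi2 m T l η β p n z q
        + Phi2 m T l η β p n z q.swap)) (μ.prod μ) := (iP.add iPs).const_mul (1 / (m : ℝ))
    refine (integral_mono ((int_E2 h2 (measurable_TK m T l) (contOn_TK hT m l)).const_mul _)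
      iS fun q => TK_le_Phi2 h2 hm hT hsym hη hβ q).trans (le_of_eq ?_)
    rw [integral_const_mul]
    congr 1
    have e1 : ∫ q : X × X, Phi2 m T l η β p n z q.swap ∂(μ.prod μ)
        = ∫ q, Phi2 m T l η β p n z q ∂(μ.prod μ) := integral_prod_swap _
    have e2 : ∫ q : X × X, (Phi2 m T l η β p n z q + Phi2 m T l η β p n z q.swap)
        ∂(μ.prod μ) = ∫ q, Phi2 m T l η β p n z q ∂(μ.prod μ)
          + ∫ q : X × X, Phi2 m T l η β p n z q.swap ∂(μ.prod μ) := integral_add iP iPs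
    rw [e2, e1]
    ring
  -- the fixed point bound
  have h3 : ∀ y, ∫ x, Phi2 m T l η β p n z (x, y) ∂μ ≤ μ.real univ * H y := by
    intro y
    have hy := h2.np y
    have hN := h2.nn y
    have hNy : ⟪n y, p y⟫ = 0 := by rw [real_inner_comm]; exact h2.pn y
    set c : E := (z y - ⟪z y, p y⟫ • p y) + (⟪z y, p y⟫ / √(1 - T ^ 2)) • p y with hc
    set s' : ℝ := √m * (T * ⟪z y, p y⟫ / √(1 - T ^ 2)) with hs'
    have hk := k_pos hT
    have hsk := Real.sqrt_pos.2 hk
    have hs : |s'| ≤ sh m T p z y := by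
      rw [hs']
      unfold sh
      rw [abs_mul, abs_div, abs_mul, abs_of_nonneg hT.1, abs_of_pos hsk,
        abs_of_nonneg (Real.sqrt_nonneg _)]
    have hcn : ‖c‖ = dz T p z y := by
      unfold dz
      rw [← norm_affine_sq hT hy (z y), ← hc, Real.sqrt_sq (norm_nonneg _)]
    have eQ : ∀ x, pf m T p n (x, y) = xi m T (p y) (n y) (p x) := by
      intro x
      unfold pf xi
      rw [inner_mob_perp hT (h2.np x) hy hNy]
    have eV : ∀ x, pf m T p z (x, y) = xi m T (p y) c (p x) + s' := by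
      intro x
      unfold pf xi
      simp only
      rw [inner_affine hT (h2.np x) hy (z y), mul_add]
    have hPQ : ∀ x, pf m T p n (y, x) - xi m T (p y) (n y) (p x)
        = pf m T p z (y, x) - (xi m T (p y) c (p x) + s') := by
      intro x
      rw [← eQ, ← eV]
      have hv' : 1 - T * ⟪p y, p x⟫ = 1 - T * ⟪p x, p y⟫ := by rw [real_inner_comm]
      have h := hsym x y
      rw [real_inner_comm (n y) (p x), real_inner_comm (z y) (p x)] at h
      unfold pf
      simp only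
      rw [hv', ← mul_sub, ← mul_sub, ← sub_div, ← sub_div, ← mul_sub, ← mul_sub, h]
    have b1 := bm_xi (m := m) hp hT hy (n y)
    have b2 := (bm_xi (m := m) hp hT hy c).add (BM.const s')
    have b3 : BM (fun x => pf m T p n (y, x)) := by
      obtain ⟨m1, C, hC⟩ := bm_pf (m := m) hp hT hp.mn (fun x => (hp.nn x).le)
      exact ⟨m1.comp measurable_prodMk_left, C, fun x => hC _⟩
    have b4 : BM (fun x => pf m T p z (y, x)) := by
      obtain ⟨m1, C, hC⟩ := bm_pf (m := m) hp hT hz hB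
      exact ⟨m1.comp measurable_prodMk_left, C, fun x => hC _⟩
    have bw := bm_wt (m := m) hp hT hy
    have i1 := (bw.mul (bm_G1 b3 b1 b4 b2 l η)).int (μ := μ)
    have i2 := (bw.mul (bm_G2 b1 b2 l η β)).int (μ := μ)
    have e3 : ∫ x, Phi2 m T l η β p n z (x, y) ∂μ
        = ∫ x, wt m T (p x) (p y) * G1 l η (pf m T p n (y, x)) (xi m T (p y) (n y) (p x))
            (pf m T p z (y, x)) (xi m T (p y) c (p x) + s') ∂μ
        + ∫ x, wt m T (p x) (p y) * G2 l η β (xi m T (p y) (n y) (p x))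
          (xi m T (p y) c (p x) + s') ∂μ := by
      rw [← integral_add i1 i2]
      refine integral_congr_ae (Filter.Eventually.of_forall fun x => ?_)
      simp only
      unfold Phi2
      simp only [Prod.swap_prod_mk]
      rw [eQ, eV]
    have hl4 := hlam y
    have hw := norm_w_sq (w := z y) hT hy hN hNy (C := C y) (by linarith [hC y])
    rw [← hc] at hw
    have hdz : dz T p z y ^ 2 = ‖z y‖ ^ 2 + T ^ 2 / (1 - T ^ 2) * ⟪z y, p y⟫ ^ 2 := by
      rw [← hcn, hc, norm_affine_sq hT hy (z y)]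
    rw [hdz, ← hw] at hl4
    have v1 := main3 hM hM0 hp hT hy hN (j y) hl hη hη1 hs (hK0 y) (hK y) (hC y) hl4
      (P := fun x => pf m T p n (y, x)) (U := fun x => pf m T p z (y, x)) hPQ
    have v2 := hM.rem hp hT hy hN i i' hl hs hη hβ (c := c)
    rw [hcn] at v1 v2
    rw [e3]
    have v3 := mul_le_mul_of_nonneg_left (hH y) hA
    linarith
  have h4 : ∫ q, Phi2 m T l η β p n z q ∂(μ.prod μ) ≤ μ.real univ * ∫ y, H y ∂μ := by
    rw [integral_prod_symm _ iP, ← integral_const_mul]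
    refine integral_mono_of_nonneg (Filter.Eventually.of_forall fun y =>
      integral_nonneg fun x => ?_) (hHi.const_mul _) (Filter.Eventually.of_forall h3)
    unfold Phi2
    have hw0 := wt_nonneg (m := m) hT (h2.np x) (h2.np y)
    exact add_nonneg (mul_nonneg hw0 (G1_nonneg _ _ _ _ _ _))
      (mul_nonneg hw0 (G2_nonneg _ _ _ _ _))
  refine h1.trans ?_
  have h5 := mul_le_mul_of_nonneg_left h4 (by positivity : (0 : ℝ) ≤ 1 / m * 2)
  calc 1 / (m : ℝ) * (2 * ∫ q, Phi2 m T l η β p n z q ∂(μ.prod μ))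
      = 1 / m * 2 * ∫ q, Phi2 m T l η β p n z q ∂(μ.prod μ) := by ring
    _ ≤ 1 / m * 2 * (μ.real univ * ∫ y, H y ∂μ) := h5
    _ = _ := by ring

end

end Vale.Agent.P224.R2.H869
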