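import Vale.Agent.P224.R2.H869.TlFin
import Vale.Agent.P224.R2.H484.TlG

/-!
The rows of the even powers of `q`, the standard list of multipliers, and the pointwise inequality
in the variables `ρ = |J x|`, `y = a - (1 - ρ)²`, `φ`.
-/

namespace Vale.Agent.P224.R2.H869

open MeasureTheory Set Function Real Module Matrix Vale.Agent.P224 Vale.Agent.P224.FV
  Vale.Agent.P224.R2.H582 Vale.Agent.P224.R2.H484 Vale.Agent.P224.R2.H728
  Vale.Agent.P224.R2.H686 Vale.Agent.P224.R2.H662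
open Vale.Agent.P224.SM2 hiding ker
open Vale.Agent.P224.R2.H470 hiding tg
open scoped Topology RealInnerProductSpace ContDiff Manifold

set_option linter.unusedSectionVars false

/-- the row function of the even powers of `q`; `η` bounds the mean of `a` -/
noncomputable def QQ1 (Λ η : ℝ) (k : ℕ) (q : ℝ) : ℝ :=
  q ^ (2 * k + 2) - (4 * k + 2) * Λ ^ 2 * (q ^ (2 * k) * (1 + q))
    - Λ ^ 2 * max q 0 ^ (2 * k + 1) - (Λ ^ 2 + η) * max (-q) 0 ^ (2 * k + 1)

section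

variable {X : Type*} {E : Type*} [NormedAddCommGroup E] [InnerProductSpace ℝ E]
  [FiniteDimensional ℝ E] [TopologicalSpace X] [MeasurableSpace X] [CompactSpace X] [BorelSpace X]
  {μ : Measure X} [IsProbabilityMeasure μ] {m : ℕ} {p n : X → E} {J : E →L[ℝ] E} {Λ : ℝ}

/-- the rows of the even powers of `q` -/
lemma isRow_Q (d : Dat μ m p n J Λ) {η : ℝ} (hη : ∫ x, aa J p n x ∂μ ≤ η) (k : ℕ) :
    IsRow μ m p n J (fun _ q _ => QQ1 Λ η k q) := by
  have cq := d.cq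
  refine ⟨?_, ?_⟩
  · unfold QQ1
    fun_prop
  refine le_trans ?_ (d.Q_row k)
  refine integral_mono (int_of_cont ?_) (int_of_cont (by fun_prop)) fun x => ?_
  · unfold QQ1
    fun_prop
  have hm := d.m_pos
  have hm1 : (0 : ℝ) < m + 1 := by linarith
  have h1 : t0 J / (m + 1) ≤ Λ ^ 2 := by
    rw [div_le_iff₀ hm1]
    have := d.t0_le
    nlinarith [sq_nonneg Λ]
  have h2 : -η ≤ t0 J / (m + 1) := by
    rw [le_div_iff₀ hm1]
    have := d.t0_ge
    nlinarith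
  simp only [QQ1]
  rcases le_total 0 (qq J p x) with hq | hq
  · rw [max_eq_left hq, max_eq_right (by linarith : -qq J p x ≤ 0)]
    have h3 := mul_le_mul_of_nonneg_right h1 (pow_nonneg hq (2 * k + 1))
    have e0 : (0 : ℝ) ^ (2 * k + 1) = 0 := zero_pow (by omega)
    rw [e0]
    linarith
  · rw [max_eq_right hq, max_eq_left (by linarith : 0 ≤ -qq J p x)]
    have h3 := mul_le_mul_of_nonneg_right h2 (pow_nonneg (by linarith : 0 ≤ -qq J p x) (2 * k + 1))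
    have e0 : (0 : ℝ) ^ (2 * k + 1) = 0 := zero_pow (by omega)
    have e2 : t0 J / (m + 1) * qq J p x ^ (2 * k + 1)
        = -(t0 J / (m + 1) * (-qq J p x) ^ (2 * k + 1)) := by
      rw [Odd.neg_pow ⟨k, rfl⟩]
      ring
    rw [e2, e0]
    linarith

lemma isRow_zero : IsRow μ m p n J (fun _ _ _ => 0) := by
  refine ⟨continuous_const, ?_⟩
  simp

/-- the standard multipliers: `lam` the bound of the size of `J`, `eta` the bound of the mean of `a`,
`th` the parameter of the mixed row, `c1` the constant of the row of `φ²` -/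
structure Mult where
  lam : ℚ
  eta : ℚ
  th : ℚ
  c1 : ℚ
  wP : ℚ
  wX : ℚ
  wF : List ℚ
  wQ : List ℚ
  wR0 : List ℚ
  wR1 : List ℚ

namespace Mult

/-- the signs of the multipliers -/
def ok (M : Mult) : Bool :=
  decide (0 ≤ M.lam) && decide (0 < M.th) && decide (0 ≤ M.wP) && decide (0 ≤ M.wX)
    && M.wF.all (fun w => decide (0 ≤ w)) && M.wQ.all (fun w => decide (0 ≤ w))
    && M.wR0.all (fun w => decide (0 ≤ w)) && M.wR1.all (fun w => decide (0 ≤ w))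

/-- a combination with a list of coefficients -/
noncomputable def cmb (l : List ℚ) (f : ℕ → ℝ) : ℝ :=
  ∑ i ∈ Finset.range l.length, ((l.getD i 0 : ℚ) : ℝ) * f i

/-- the combination of the rows -/
noncomputable def row (M : Mult) (a q φ : ℝ) : ℝ :=
  M.wP * (φ ^ 2 - M.c1 * a) + M.wX * XX1 M.lam M.eta M.th a q φ
    + cmb M.wF (fun i => FF1 M.lam i a q φ) + cmb M.wQ (fun i => QQ1 M.lam M.eta i q)
    + cmb M.wR0 (fun i => RR1 M.lam 0 i q) + cmb M.wR1 (fun i => RR1 M.lam 1 i q)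

lemma getD_nonneg {l : List ℚ} (h : l.all (fun w => decide (0 ≤ w)) = true) (i : ℕ) :
    (0 : ℝ) ≤ ((l.getD i 0 : ℚ) : ℝ) := by
  rw [List.all_eq_true] at h
  have h1 : 0 ≤ l.getD i 0 := by
    rcases lt_or_ge i l.length with hi | hi
    · rw [List.getD_eq_getElem _ _ hi]
      exact of_decide_eq_true (h _ (List.getElem_mem hi))
    · rw [List.getD_eq_default _ _ hi]
  exact_mod_cast h1

lemma ok_spec {M : Mult} (h : M.ok = true) : 0 ≤ M.lam ∧ 0 < M.th ∧ 0 ≤ M.wP ∧ 0 ≤ M.wX ∧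
    (∀ i, (0 : ℝ) ≤ ((M.wF.getD i 0 : ℚ) : ℝ)) ∧ (∀ i, (0 : ℝ) ≤ ((M.wQ.getD i 0 : ℚ) : ℝ)) ∧
    (∀ i, (0 : ℝ) ≤ ((M.wR0.getD i 0 : ℚ) : ℝ)) ∧ (∀ i, (0 : ℝ) ≤ ((M.wR1.getD i 0 : ℚ) : ℝ)) := by
  unfold ok at h
  simp only [Bool.and_eq_true, decide_eq_true_eq] at h
  obtain ⟨⟨⟨⟨⟨⟨⟨h1, h2⟩, h3⟩, h4⟩, h5⟩, h6⟩, h7⟩, h8⟩ := h
  exact ⟨h1, h2, h3, h4, getD_nonneg h5, getD_nonneg h6, getD_nonneg h7, getD_nonneg h8⟩

/-- the standard combination is a row -/
theorem isRow {M : Mult} (h : M.ok = true) (d : Dat μ m p n J M.lam)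
    (hη : ∫ x, aa J p n x ∂μ ≤ M.eta)
    (hP : M.wP = 0 ∨ ∫ x, ph m J p x ^ 2 ∂μ ≤ M.c1 * ∫ x, aa J p n x ∂μ) :
    IsRow μ m p n J M.row := by
  obtain ⟨-, h2, h3, h4, h5, h6, h7, h8⟩ := ok_spec h
  have hP' : IsRow μ m p n J (fun a _ φ => M.wP * (φ ^ 2 - M.c1 * a)) := by
    rcases hP with hP | hP
    · simp only [hP, Rat.cast_zero, zero_mul]
      exact isRow_zero
    · exact (isRow_P d hP).smul (by exact_mod_cast h3)
  have hX := (isRow_X d (η := M.eta) (θ := M.th) (by exact_mod_cast h2) hη).smul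
    (c := M.wX) (by exact_mod_cast h4)
  have hF := IsRow.sum (Finset.range M.wF.length) (fun i _ => isRow_F d i) (fun i _ => h5 i)
  have hQ := IsRow.sum (Finset.range M.wQ.length) (fun i _ => isRow_Q d hη i) (fun i _ => h6 i)
  have hR0 := IsRow.sum (Finset.range M.wR0.length) (fun i _ => isRow_R d 0 i) (fun i _ => h7 i)
  have hR1 := IsRow.sum (Finset.range M.wR1.length) (fun i _ => isRow_R d 1 i) (fun i _ => h8 i)
  exact ((((hP'.add hX).add hF).add hQ).add hR0).add hR1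

end Mult

end

/-- the pointwise inequality in the variables `ρ`, `y`, `φ` -/
def PtIneq (m : ℕ) (G R : ℝ → ℝ → ℝ → ℝ) (c : ℝ) : Prop :=
  ∀ ρ y φ : ℝ, 0 ≤ ρ → 0 ≤ y → y ≤ 4 * ρ → 0 ≤ φ → φ ^ 2 ≤ m * (y * ρ - y ^ 2 / 4) →
    G (y + (1 - ρ) ^ 2) (if 1 ≤ ρ then y else y + (1 - ρ) ^ 2) φ
      ≤ c * (y + (1 - ρ) ^ 2) + R (y + (1 - ρ) ^ 2) (ρ ^ 2 - 1) φ

/-- from the variables `ρ`, `y`, `φ` to the variables `a`, `q`, `φ` -/
lemma PtIneq.aq {m : ℕ} (hm : 0 < m) {G R : ℝ → ℝ → ℝ → ℝ} {c : ℝ} (h : PtIneq m G R c)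
    (a q φ : ℝ) (hq : -1 ≤ q) (hφ : 0 ≤ φ) (h1 : φ ^ 2 ≤ (m : ℝ) * (a - (a - q) ^ 2 / 4)) :
    G a (a - (max (√(1 + q)) 1 - 1) ^ 2) φ ≤ c * a + R a q φ := by
  have hm' : (0 : ℝ) < m := by exact_mod_cast hm
  obtain ⟨ρ, hρ⟩ : ∃ ρ, ρ = √(1 + q) := ⟨_, rfl⟩
  have hρ0 : 0 ≤ ρ := hρ ▸ Real.sqrt_nonneg _
  have hρ2 : ρ ^ 2 = 1 + q := by rw [hρ, Real.sq_sqrt (by linarith)]
  obtain ⟨y, hy⟩ : ∃ y, y = a - (1 - ρ) ^ 2 := ⟨_, rfl⟩
  have ea : a = y + (1 - ρ) ^ 2 := by linarith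
  have eq1 : q = ρ ^ 2 - 1 := by linarith
  have eτ : a - (a - q) ^ 2 / 4 = y * ρ - y ^ 2 / 4 := by
    rw [ea, eq1]
    ring
  have h2 : 0 ≤ a - (a - q) ^ 2 / 4 := by
    by_contra hc
    push Not at hc
    have := mul_neg_of_pos_of_neg hm' hc
    nlinarith [sq_nonneg φ]
  rw [eτ] at h2 h1
  have hy0 : 0 ≤ y := by
    by_contra hc
    push Not at hc
    nlinarith
  have hy4 : y ≤ 4 * ρ := by
    by_contra hc
    push Not at hc
    nlinarith
  have h3 := h ρ y φ hρ0 hy0 hy4 hφ h1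
  rw [← ea, ← eq1] at h3
  have e3 : a - (max (√(1 + q)) 1 - 1) ^ 2 = if 1 ≤ ρ then y else a := by
    rw [← hρ]
    split_ifs with h4
    · rw [max_eq_left h4, hy]
      ring
    · rw [max_eq_right (by linarith)]
      ring
  rw [e3]
  exact h3

section

variable {V W M : Type*} [NormedAddCommGroup V] [InnerProductSpace ℝ V] [FiniteDimensional ℝ V]
  [NormedAddCommGroup W] [InnerProductSpace ℝ W] [FiniteDimensional ℝ W]
  [TopologicalSpace M] [ChartedSpace V M]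
  [MeasurableSpace V] [BorelSpace V] [MeasurableSpace M] [BorelSpace M]
  [MeasurableSpace W] [BorelSpace W] [IsManifold 𝓘(ℝ, V) ∞ M]
  [CompactSpace M] [T2Space M]

/-- the function `bG` in terms of `q` -/
lemma bG_eq {X E : Type*} [NormedAddCommGroup E] [InnerProductSpace ℝ E]
    [FiniteDimensional ℝ E] [TopologicalSpace X] [MeasurableSpace X] [CompactSpace X]
    [BorelSpace X] {μ : Measure X} [IsProbabilityMeasure μ] {m : ℕ} {p n : X → E}
    {J : E →L[ℝ] E} {Λ : ℝ} (d : Dat μ m p n J Λ) (x : X) :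
    bG (zz J p n) n x = aa J p n x - (max (√(1 + qq J p x)) 1 - 1) ^ 2 := by
  unfold bG
  have e1 : n x - zz J p n x = J (p x) := by
    unfold zz
    abel
  have e2 : √(1 + qq J p x) = ‖J (p x)‖ := by
    rw [d.q_eq]
    rw [show 1 + (‖J (p x)‖ ^ 2 - 1) = ‖J (p x)‖ ^ 2 by ring, Real.sqrt_sq (norm_nonneg _)]
  rw [e1, e2, aG_eq]

/-- **the relative tail**, for a mean at most `η`, from the tail with a function of `a`, `b`, `φ`
and the pointwise inequality in `ρ`, `y`, `φ` -/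
theorem rel_near {F N : M → W} (D : NrmData V F N) {ι : Type*} [Fintype ι] [DecidableEq ι]
    (b : OrthonormalBasis ι ℝ W) (j : ι → ℝ) {Λ : ℝ}
    (d : Dat (nrm (volM V F)) (finrank ℝ V) F N (dop b j) Λ) {lT : ℝ → ℝ}
    {G R : ℝ → ℝ → ℝ → ℝ} {c : ℝ}
    (hG : Integrable (fun x => G (aG (zz (dop b j) F N) x) (bG (zz (dop b j) F N) N x)
      (pG (finrank ℝ V) F (zz (dop b j) F N) x)) (nrm (volM V F)))
    (hTail : Tail (nrm (volM V F)) (finrank ℝ V) F N lT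
      (∫ x, G (aG (zz (dop b j) F N) x) (bG (zz (dop b j) F N) N x)
      (pG (finrank ℝ V) F (zz (dop b j) F N) x) ∂(nrm (volM V F))))
    (hR : IsRow (nrm (volM V F)) (finrank ℝ V) F N (dop b j) R)
    (hpt : PtIneq (finrank ℝ V) G R c) :
    Tail (volM V F) (finrank ℝ V) F N lT
      (c * hh (nrm (volM V F)) (diagonal j) (co b F) (co b N)) := by
  have := D.fin
  have := D.nz
  have := D.prob
  have e1 : ∀ x, G (aG (zz (dop b j) F N) x) (bG (zz (dop b j) F N) N x)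
      (pG (finrank ℝ V) F (zz (dop b j) F N) x)
      = (fun a q φ => G a (a - (max (√(1 + q)) 1 - 1) ^ 2) φ) (aa (dop b j) F N x)
        (qq (dop b j) F x) (ph (finrank ℝ V) (dop b j) F x) := by
    intro x
    simp only
    rw [aG_eq, bG_eq d, pG_eq d]
  refine rel_core D b j d (G := fun a q φ => G a (a - (max (√(1 + q)) 1 - 1) ^ 2) φ) (R := R)
    ?_ ?_ hR ?_
  · exact hG.congr (Filter.Eventually.of_forall e1)
  · rw [← integral_congr_ae (Filter.Eventually.of_forall e1)]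
    exact hTail
  · intro a q φ _ hq hφ h1
    exact hpt.aq (Nat.pos_of_ne_zero fun h => by
      have := d.m1
      omega) a q φ hq hφ h1

end

end Vale.Agent.P224.R2.H869
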