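import Vale.Agent.P224.R2.H869.TlEnd2

/-!
Blocks of dimensions with their kernel checked tables, certificates, and the relative tail in the
form of the glue.
-/

namespace Vale.Agent.P224.R2.H869

open MeasureTheory Set Function Real Module Matrix Vale.Agent.P224 Vale.Agent.P224.FV
  Vale.Agent.P224.R2.H582 Vale.Agent.P224.R2.H484 Vale.Agent.P224.R2.H728
  Vale.Agent.P224.R2.H686 Vale.Agent.P224.R2.H662 Vale.Agent.P224.R2.H876
open Vale.Agent.P224.SM2 hiding ker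
open Vale.Agent.P224.R2.H470 hiding tg
open scoped Topology RealInnerProductSpace ContDiff Manifold

set_option linter.unusedSectionVars false

/-! ### removal of the square roots -/

/-- the check of the tables without square roots: `th` the parameters of the rows of the table,
`thz` the one of the remainder -/
def thOK (jj : ℕ) (X2 X1 X0 : ℕ → ℕ → ℚ) (z2 z1 z0 : ℚ) (th : List ℚ) (thz : ℚ)
    (al be : ℕ → ℕ → ℚ) (ra rb : ℚ) : Bool :=
  (List.range (jj + 2)).all (fun i => decide (0 < th.getD i 1) &&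
    (List.range (i + 1)).all (fun k => decide (0 ≤ X1 i k)
      && decide (X2 i k + X1 i k / (2 * th.getD i 1) ≤ al i k)
      && decide (X0 i k + X1 i k * th.getD i 1 / 2 ≤ be i k)))
  && decide (0 < thz) && decide (0 ≤ z1) && decide (z2 + z1 / (2 * thz) ≤ ra)
  && decide (z0 + z1 * thz / 2 ≤ rb)

lemma sqrt_mul_le' {a φ t : ℝ} (ha : 0 ≤ a) (ht : 0 < t) :
    √a * φ ≤ a / (2 * t) + t / 2 * φ ^ 2 := by
  have h1 := Real.sq_sqrt ha
  have e : a / (2 * t) + t / 2 * φ ^ 2 - √a * φ = (√a - t * φ) ^ 2 / (2 * t) := by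
    rw [sub_sq, h1]
    field_simp
    ring
  have h2 : 0 ≤ (√a - t * φ) ^ 2 / (2 * t) := by positivity
  linarith

lemma term_le {X2 X1 X0 al be t : ℝ} {a φ : ℝ} (ha : 0 ≤ a) (ht : 0 < t) (h1 : 0 ≤ X1)
    (h2 : X2 + X1 / (2 * t) ≤ al) (h3 : X0 + X1 * t / 2 ≤ be) :
    X2 * a + X1 * (√a * φ) + X0 * φ ^ 2 ≤ al * a + be * φ ^ 2 := by
  have h4 := mul_le_mul_of_nonneg_left (sqrt_mul_le' (φ := φ) ha ht) h1
  have h5 := mul_le_mul_of_nonneg_right h2 ha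
  have h6 := mul_le_mul_of_nonneg_right h3 (sq_nonneg φ)
  have e : X1 * (a / (2 * t) + t / 2 * φ ^ 2) = X1 / (2 * t) * a + X1 * t / 2 * φ ^ 2 := by
    field_simp
  rw [e] at h4
  linarith

/-- the form without square roots is larger -/
theorem PS_le_PL {jj : ℕ} {X2 X1 X0 : ℕ → ℕ → ℚ} {z2 z1 z0 : ℚ} {th : List ℚ} {thz : ℚ}
    {al be : ℕ → ℕ → ℚ} {ra rb : ℚ} (h : thOK jj X2 X1 X0 z2 z1 z0 th thz al be ra rb = true)
    {a b φ : ℝ} (ha : 0 ≤ a) (hb : 0 ≤ b) (hφ : 0 ≤ φ) :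
    PS jj X2 X1 X0 z2 z1 z0 a b φ ≤ PL jj al be ra rb a b φ := by
  unfold thOK at h
  simp only [Bool.and_eq_true, decide_eq_true_eq, List.all_eq_true, List.mem_range] at h
  obtain ⟨⟨⟨⟨h1, h2⟩, h3⟩, h4⟩, h5⟩ := h
  unfold PS PL
  refine add_le_add (Finset.sum_le_sum fun i hi => Finset.sum_le_sum fun k hk => ?_) ?_
  · obtain ⟨h6, h7⟩ := h1 i (Finset.mem_range.1 hi)
    obtain ⟨⟨h8, h9⟩, h10⟩ := h7 k (Finset.mem_range.1 hk)
    have h6' : (0 : ℝ) < ((th.getD i 1 : ℚ) : ℝ) := by exact_mod_cast h6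
    have h8' : (0 : ℝ) ≤ ((X1 i k : ℚ) : ℝ) := by exact_mod_cast h8
    have h9' : ((X2 i k : ℚ) : ℝ) + ((X1 i k : ℚ) : ℝ) / (2 * ((th.getD i 1 : ℚ) : ℝ))
        ≤ ((al i k : ℚ) : ℝ) := by exact_mod_cast h9
    have h10' : ((X0 i k : ℚ) : ℝ) + ((X1 i k : ℚ) : ℝ) * ((th.getD i 1 : ℚ) : ℝ) / 2
        ≤ ((be i k : ℚ) : ℝ) := by exact_mod_cast h10
    exact mul_le_mul_of_nonneg_right (term_le ha h6' h8' h9' h10') (by positivity)
  · have h2' : (0 : ℝ) < (thz : ℝ) := by exact_mod_cast h2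
    have h3' : (0 : ℝ) ≤ (z1 : ℝ) := by exact_mod_cast h3
    have h4' : (z2 : ℝ) + (z1 : ℝ) / (2 * (thz : ℝ)) ≤ (ra : ℝ) := by exact_mod_cast h4
    have h5' : (z0 : ℝ) + (z1 : ℝ) * (thz : ℝ) / 2 ≤ (rb : ℝ) := by exact_mod_cast h5
    exact term_le ha h2' h3' h4' h5'

lemma PtIneqB.mono {m : ℕ} {Λ : ℝ} {G G' R : ℝ → ℝ → ℝ → ℝ} {c : ℝ} (h : PtIneqB m Λ G' R c)
    (hG : ∀ a b φ, 0 ≤ a → 0 ≤ b → 0 ≤ φ → G a b φ ≤ G' a b φ) : PtIneqB m Λ G R c := by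
  intro ρ y φ h1 h2 h3 h4 h5 h6
  refine le_trans (hG _ _ _ (by positivity) ?_ h5) (h ρ y φ h1 h2 h3 h4 h5 h6)
  split_ifs <;> positivity

/-! ### blocks -/

/-- a block with its kernel checked tables; constant thresholds `c1`, `c2` -/
structure BlkS where
  m1 : ℕ
  m2 : ℕ
  L : List CN
  Lm : List ℕ
  c1 : ℚ
  c2 : ℚ
  η : ℚ
  β : ℚ
  K : ℚ
  jj : ℕ
  i1 : ℕ
  i2 : ℕ
  X2 : ℕ → ℕ → ℚ
  X1 : ℕ → ℕ → ℚ
  X0 : ℕ → ℕ → ℚ
  z2 : ℚ
  z1 : ℚ
  z0 : ℚ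
  ok : okB m1 (fun _ => c1) (fun _ => c2) η β K jj i1 i2 = true
  cells : cellsOK L m1 m2 (fun _ => c1) (fun _ => c2) = true
  coef : coefS L m1 (MQ Lm) η β K jj i1 i2 X2 X1 X0 z2 z1 z0 = true
  mom : ∀ m q : ℕ, m1 ≤ m → (m2 = 0 ∨ m ≤ m2) → MM m q ≤ Mt m Lm q

/-- the one point function of the block -/
noncomputable def BlkS.G (B : BlkS) : ℝ → ℝ → ℝ → ℝ := PS B.jj B.X2 B.X1 B.X0 B.z2 B.z1 B.z0

/-- a relative tail for `j_a² ≤ kap (m + 1)`, from the rows `rows` and the pointwise inequality;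
`C1` is the constant of the row of `φ²` -/
structure CertS (B : BlkS) where
  lam : ℚ
  eta : ℚ
  kap : ℚ
  rel : ℚ
  ab : ℚ
  C1 : ℚ
  rows : List (RowT × ℚ)
  fit : fitR B.m1 lam eta kap rel ab = true
  rok : rowsOK C1 rows = true
  pt : ∀ m : ℕ, B.m1 ≤ m → (B.m2 = 0 ∨ m ≤ B.m2) → PtIneqB m lam B.G (rowL lam eta rows) rel

section

variable {V W M : Type*} [NormedAddCommGroup V] [InnerProductSpace ℝ V] [FiniteDimensional ℝ V]
  [NormedAddCommGroup W] [InnerProductSpace ℝ W] [FiniteDimensional ℝ W]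
  [TopologicalSpace M] [ChartedSpace V M]
  [MeasurableSpace V] [BorelSpace V] [MeasurableSpace M] [BorelSpace M]
  [MeasurableSpace W] [BorelSpace W] [IsManifold 𝓘(ℝ, V) ∞ M]
  [CompactSpace M] [T2Space M]

/-- the row of `φ²` with the constant `C1`, for the data with bound `lam` of the matrix and mean at
most `eta` -/
def RowP (V : Type*) [NormedAddCommGroup V] [InnerProductSpace ℝ V]
    [FiniteDimensional ℝ V] {W M : Type*}
    [NormedAddCommGroup W] [InnerProductSpace ℝ W] [FiniteDimensional ℝ W]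
    [TopologicalSpace M] [ChartedSpace V M]
    [MeasurableSpace V] [BorelSpace V] [MeasurableSpace M] [BorelSpace M]
    [MeasurableSpace W] [BorelSpace W] [CompactSpace M] (F N : M → W) (J : W →L[ℝ] W)
    (lam eta C1 : ℝ) : Prop :=
  Dat (nrm (volM V F)) (finrank ℝ V) F N J lam →
    ∫ x, aa J F N x ∂(nrm (volM V F)) ≤ eta →
    ∫ x, ph (finrank ℝ V) J F x ^ 2 ∂(nrm (volM V F)) ≤ C1 * ∫ x, aa J F N x ∂(nrm (volM V F))

/-- **the relative tail of a block of dimensions** -/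
theorem CertS.relTail {B : BlkS} (C : CertS B) {F N : M → W} (D : NrmData V F N)
    {ι : Type*} [Fintype ι] [DecidableEq ι] (b : OrthonormalBasis ι ℝ W) {j : ι → ℝ}
    [Nontrivial W] (hLS : LSq (nrm (volM V F)) (diagonal j) (co b F) (co b N))
    (hm1 : B.m1 ≤ finrank ℝ V) (hm2 : B.m2 = 0 ∨ finrank ℝ V ≤ B.m2)
    (hP : RowP V F N (dop b j) C.lam C.eta C.C1) {lT : ℝ → ℝ}
    (l1 : ∀ T ∈ Ioo (0 : ℝ) 1, (B.c1 : ℝ) ≤ lT T)
    (l2 : ∀ T ∈ Ioo (0 : ℝ) 1, (B.c2 : ℝ) / (1 - T ^ 2) ≤ lT T)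
    (habs : AbsTail (volM V F) (finrank ℝ V) F N lT C.ab)
    (hj : ∀ a, j a ^ 2 ≤ (C.kap : ℝ) * (finrank ℝ V + 1)) :
    AbsTail (volM V F) (finrank ℝ V) F N lT
      (C.rel * hh (nrm (volM V F)) (diagonal j) (co b F) (co b N)) :=
  rel_endS D b hLS B.ok B.cells B.coef B.mom hm1 hm2 (fun _ _ T hT _ _ => ⟨l1 T hT, l2 T hT⟩)
    C.fit (hR_list D b C.rok hP) (C.pt _ hm1 hm2) habs hj

end

end Vale.Agent.P224.R2.H869
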