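import Vale.Agent.P224.R2.H869.Cv

/-!
Moebius form of the conformal volume bound: for a fixed unit vector `y` and `T ∈ [0, 1)` the map
`mob T y` (the conformal map of the sphere centred at `T y`) satisfies, for every `|b| < 1`,
`∫ k^(m/2) v⁻ᵐ (1 - ⟪b, mob T y x⟫)⁻ᵐ ≤ A (1 - |b|²)^(-m/2)`,
with `v = 1 - T ⟪x, y⟫`, `k = 1 - T²`.
-/

namespace Vale.Agent.P224.R2.H869

open MeasureTheory Set Function Module Vale.Agent.P224 Vale.Agent.P224.FV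
  Vale.Agent.P224.SM2
open scoped RealInnerProductSpace Topology ContDiff Manifold

set_option linter.unusedSectionVars false

section

variable {X : Type*} [MeasurableSpace X] {E : Type*} [NormedAddCommGroup E]
  [InnerProductSpace ℝ E] [MeasurableSpace E] [BorelSpace E] [SecondCountableTopology E]
  {μ : Measure X} [IsFiniteMeasure μ] {m : ℕ} {p n : X → E}

/-- the conformal map of the unit sphere with centre `T y` -/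
noncomputable def mob (T : ℝ) (y x : E) : E :=
  (1 - T * ⟪x, y⟫)⁻¹ • (√(1 - T ^ 2) • (x - ⟪x, y⟫ • y) + (⟪x, y⟫ - T) • y)

/-- the kernel at level `T`: `(1 - T²)^(m/2) (1 - T ⟪x, y⟫)⁻ᵐ` -/
noncomputable def KT (m : ℕ) (T : ℝ) (x y : E) : ℝ :=
  (1 - T ^ 2) ^ ((m : ℝ) / 2) * ((1 - T * ⟪x, y⟫) ^ m)⁻¹

lemma v_pos {T : ℝ} (hT : T ∈ Ico (0 : ℝ) 1) {x y : E} (hx : ‖x‖ = 1) (hy : ‖y‖ = 1) :
    0 < 1 - T * ⟪x, y⟫ := one_sub_pos_ab hT (inner_mem hy hx)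

lemma k_pos {T : ℝ} (hT : T ∈ Ico (0 : ℝ) 1) : 0 < 1 - T ^ 2 := by
  nlinarith [hT.1, hT.2]

lemma KT_pos {T : ℝ} (hT : T ∈ Ico (0 : ℝ) 1) {x y : E} (hx : ‖x‖ = 1) (hy : ‖y‖ = 1) :
    0 < KT m T x y :=
  mul_pos (Real.rpow_pos_of_pos (k_pos hT) _) (inv_pos.2 (pow_pos (v_pos hT hx hy) m))

/-- the centre of the tilted integral -/
noncomputable def zc (T : ℝ) (y b : E) : E :=
  (1 + T * ⟪b, y⟫)⁻¹ • ((T + ⟪b, y⟫) • y + √(1 - T ^ 2) • (b - ⟪b, y⟫ • y))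

lemma inner_perp {y b : E} (hy : ‖y‖ = 1) : ⟪b - ⟪b, y⟫ • y, y⟫ = 0 := by
  rw [inner_sub_left, real_inner_smul_left, real_inner_self_eq_norm_sq, hy]
  ring

lemma norm_perp_sq {y b : E} (hy : ‖y‖ = 1) :
    ‖b - ⟪b, y⟫ • y‖ ^ 2 = ‖b‖ ^ 2 - ⟪b, y⟫ ^ 2 := by
  rw [norm_sub_sq_real, real_inner_smul_right, norm_smul, hy, Real.norm_eq_abs, mul_one, sq_abs]
  ring

lemma norm_comb_sq {y w : E} (hy : ‖y‖ = 1) (hw : ⟪w, y⟫ = 0) (α β : ℝ) :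
    ‖α • w + β • y‖ ^ 2 = α ^ 2 * ‖w‖ ^ 2 + β ^ 2 := by
  rw [norm_add_sq_real, norm_smul, norm_smul, real_inner_smul_left, real_inner_smul_right, hw,
    hy, Real.norm_eq_abs, Real.norm_eq_abs, mul_one, sq_abs, mul_pow, sq_abs]
  ring

lemma norm_mob {T : ℝ} (hT : T ∈ Ico (0 : ℝ) 1) {x y : E} (hx : ‖x‖ = 1) (hy : ‖y‖ = 1) :
    ‖mob T y x‖ = 1 := by
  have hv := v_pos hT hx hy
  have h1 : ‖mob T y x‖ ^ 2 = 1 := by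
    unfold mob
    rw [norm_smul, mul_pow, norm_comb_sq hy (inner_perp hy), norm_perp_sq hy, hx,
      Real.sq_sqrt (k_pos hT).le, Real.norm_eq_abs, abs_of_pos (inv_pos.2 hv), inv_pow,
      inv_mul_eq_div, div_eq_one_iff_eq (pow_pos hv 2).ne']
    ring
  nlinarith [norm_nonneg (mob T y x)]

lemma by_lt {b y : E} (hy : ‖y‖ = 1) (hb : ‖b‖ < 1) : |⟪b, y⟫| < 1 := by
  have h := abs_real_inner_le_norm b y
  rw [hy, mul_one] at h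
  exact h.trans_lt hb

lemma u_pos {T : ℝ} (hT : T ∈ Ico (0 : ℝ) 1) {b y : E} (hy : ‖y‖ = 1) (hb : ‖b‖ < 1) :
    0 < 1 + T * ⟪b, y⟫ := by
  have h := abs_lt.1 (by_lt hy hb)
  have : T * ⟪b, y⟫ ≥ T * (-1) := mul_le_mul_of_nonneg_left h.1.le hT.1
  linarith [hT.2]

lemma one_sub_zc {T : ℝ} (hT : T ∈ Ico (0 : ℝ) 1) {y b : E} (hy : ‖y‖ = 1) (hb : ‖b‖ < 1) :
    1 - ‖zc T y b‖ ^ 2 = (1 - T ^ 2) * (1 - ‖b‖ ^ 2) / (1 + T * ⟪b, y⟫) ^ 2 := by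
  have hu := u_pos hT hy hb
  unfold zc
  rw [add_comm ((T + ⟪b, y⟫) • y), norm_smul, mul_pow, norm_comb_sq hy (inner_perp hy),
    norm_perp_sq hy, Real.sq_sqrt (k_pos hT).le, Real.norm_eq_abs, abs_of_pos (inv_pos.2 hu),
    inv_pow, inv_mul_eq_div, eq_div_iff (pow_pos hu 2).ne', sub_mul,
    div_mul_cancel₀ _ (pow_pos hu 2).ne']
  ring

lemma norm_zc_lt {T : ℝ} (hT : T ∈ Ico (0 : ℝ) 1) {y b : E} (hy : ‖y‖ = 1)
    (hb : ‖b‖ < 1) : ‖zc T y b‖ < 1 := by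
  have hu := u_pos hT hy hb
  have h1 := one_sub_zc hT hy hb
  have h2 : 0 < 1 - ‖b‖ ^ 2 := by nlinarith [norm_nonneg b]
  have h3 : 0 < 1 - ‖zc T y b‖ ^ 2 := by
    rw [h1]
    exact div_pos (mul_pos (k_pos hT) h2) (pow_pos hu 2)
  nlinarith [norm_nonneg (zc T y b)]

/-- the tilted kernel is the conformal kernel with centre `zc` -/
lemma tilt {T : ℝ} (hT : T ∈ Ico (0 : ℝ) 1) {x y b : E} (hx : ‖x‖ = 1) (hy : ‖y‖ = 1)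
    (hb : ‖b‖ < 1) :
    (1 - T * ⟪x, y⟫) * (1 - ⟪b, mob T y x⟫) = (1 + T * ⟪b, y⟫) * (1 - ⟪x, zc T y b⟫) := by
  have hv := (v_pos hT hx hy).ne'
  have hu := (u_pos hT hy hb).ne'
  unfold mob zc
  rw [real_inner_smul_right, real_inner_smul_right, mul_sub, mul_sub, mul_inv_cancel_left₀ hv,
    mul_inv_cancel_left₀ hu]
  simp only [inner_add_right, real_inner_smul_right, inner_sub_right]
  rw [real_inner_comm b x]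
  ring

lemma inner_mob_le {T : ℝ} (hT : T ∈ Ico (0 : ℝ) 1) {x y : E} (hx : ‖x‖ = 1) (hy : ‖y‖ = 1)
    (b : E) : |⟪b, mob T y x⟫| ≤ ‖b‖ := by
  have h := abs_real_inner_le_norm b (mob T y x)
  rwa [norm_mob hT hx hy, mul_one] at h

lemma tilt_kernel {T : ℝ} (hT : T ∈ Ico (0 : ℝ) 1) {x y b : E} (hx : ‖x‖ = 1) (hy : ‖y‖ = 1)
    (hb : ‖b‖ < 1) :
    KT m T x y * ((1 - ⟪b, mob T y x⟫) ^ m)⁻¹ =
      ((1 - T ^ 2) ^ ((m : ℝ) / 2) * ((1 + T * ⟪b, y⟫) ^ m)⁻¹)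
        * ((1 - ⟪x, zc T y b⟫) ^ m)⁻¹ := by
  unfold KT
  rw [mul_assoc, mul_assoc, ← mul_inv, ← mul_inv, ← mul_pow, ← mul_pow, tilt hT hx hy hb]

/-- the level `T` moment generating bound -/
theorem MinRow.mgf [Nontrivial E] (h : MinRow μ m p n) {T : ℝ} (hT : T ∈ Ico (0 : ℝ) 1) {y b : E}
    (hy : ‖y‖ = 1) (hb : ‖b‖ < 1) :
    ∫ x, KT m T (p x) y * ((1 - ⟪b, mob T y (p x)⟫) ^ m)⁻¹ ∂μ
      ≤ μ.real univ * (1 - ‖b‖ ^ 2) ^ (-((m : ℝ) / 2)) := by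
  have hu := u_pos hT hy hb
  have h2 : 0 < 1 - ‖b‖ ^ 2 := by nlinarith [norm_nonneg b]
  have hk := k_pos hT
  have h3 : ∀ x, KT m T (p x) y * ((1 - ⟪b, mob T y (p x)⟫) ^ m)⁻¹ =
      ((1 - T ^ 2) ^ ((m : ℝ) / 2) * ((1 + T * ⟪b, y⟫) ^ m)⁻¹)
        * ((1 - ⟪p x, zc T y b⟫) ^ m)⁻¹ := fun x => tilt_kernel hT (h.np x) hy hb
  simp_rw [h3]
  rw [integral_const_mul]
  have h4 := h.cv (norm_zc_lt hT hy hb)
  have h5 : 0 ≤ (1 - T ^ 2) ^ ((m : ℝ) / 2) * ((1 + T * ⟪b, y⟫) ^ m)⁻¹ := by positivity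
  refine (mul_le_mul_of_nonneg_left h4 h5).trans (le_of_eq ?_)
  rw [one_sub_zc hT hy hb, Real.div_rpow (mul_pos hk h2).le (pow_pos hu 2).le,
    Real.mul_rpow hk.le h2.le]
  have h6 : ((1 + T * ⟪b, y⟫) ^ 2) ^ (-((m : ℝ) / 2)) = ((1 + T * ⟪b, y⟫) ^ m)⁻¹ := by
    rw [Real.rpow_neg (pow_pos hu 2).le, ← Real.rpow_natCast _ 2, ← Real.rpow_mul hu.le]
    congr 1
    rw [← Real.rpow_natCast]
    congr 1
    push_cast
    ring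
  have h7 : (1 - T ^ 2) ^ ((m : ℝ) / 2) * (1 - T ^ 2) ^ (-((m : ℝ) / 2)) = 1 := by
    rw [← Real.rpow_add hk]
    simp
  rw [h6]
  have h8 : ((1 + T * ⟪b, y⟫) ^ m)⁻¹ ≠ 0 := (inv_pos.2 (pow_pos hu m)).ne'
  calc (1 - T ^ 2) ^ ((m : ℝ) / 2) * ((1 + T * ⟪b, y⟫) ^ m)⁻¹ *
        (μ.real univ * ((1 - T ^ 2) ^ (-((m : ℝ) / 2)) * (1 - ‖b‖ ^ 2) ^ (-((m : ℝ) / 2)) /
          ((1 + T * ⟪b, y⟫) ^ m)⁻¹))
      = ((1 - T ^ 2) ^ ((m : ℝ) / 2) * (1 - T ^ 2) ^ (-((m : ℝ) / 2))) *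
        (((1 + T * ⟪b, y⟫) ^ m)⁻¹ / ((1 + T * ⟪b, y⟫) ^ m)⁻¹) *
          (μ.real univ * (1 - ‖b‖ ^ 2) ^ (-((m : ℝ) / 2))) := by ring
    _ = _ := by rw [h7, div_self h8]; ring

lemma MinRow.int_mgf [Nontrivial E] (h : MinRow μ m p n) {T : ℝ} (hT : T ∈ Ico (0 : ℝ) 1)
    {y b : E} (hy : ‖y‖ = 1) (hb : ‖b‖ < 1) :
    Integrable (fun x => KT m T (p x) y * ((1 - ⟪b, mob T y (p x)⟫) ^ m)⁻¹) μ := by
  have h3 : ∀ x, KT m T (p x) y * ((1 - ⟪b, mob T y (p x)⟫) ^ m)⁻¹ =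
      ((1 - T ^ 2) ^ ((m : ℝ) / 2) * ((1 + T * ⟪b, y⟫) ^ m)⁻¹)
        * ((1 - ⟪p x, zc T y b⟫) ^ m)⁻¹ := fun x => tilt_kernel hT (h.np x) hy hb
  simp_rw [h3]
  exact (h.int_cv (norm_zc_lt hT hy hb) m).const_mul _

/-- domination by a combination of tilted kernels -/
theorem MinRow.dom [Nontrivial E] (h : MinRow μ m p n) {T : ℝ} (hT : T ∈ Ico (0 : ℝ) 1) {y : E}
    (hy : ‖y‖ = 1) {ι : Type*} (s : Finset ι) (C : ι → ℝ) (b : ι → E) (hC : ∀ i ∈ s, 0 ≤ C i)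
    (hb : ∀ i ∈ s, ‖b i‖ < 1) {G : X → ℝ} (hG0 : ∀ x, 0 ≤ G x)
    (hG : ∀ x, G x ≤ ∑ i ∈ s, C i * ((1 - ⟪b i, mob T y (p x)⟫) ^ m)⁻¹) :
    ∫ x, KT m T (p x) y * G x ∂μ
      ≤ μ.real univ * ∑ i ∈ s, C i * (1 - ‖b i‖ ^ 2) ^ (-((m : ℝ) / 2)) := by
  have h1 : ∀ i ∈ s, Integrable
      (fun x => C i * (KT m T (p x) y * ((1 - ⟪b i, mob T y (p x)⟫) ^ m)⁻¹)) μ :=
    fun i hi => (h.int_mgf hT hy (hb i hi)).const_mul _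
  have h2 : ∫ x, KT m T (p x) y * G x ∂μ ≤
      ∫ x, ∑ i ∈ s, C i * (KT m T (p x) y * ((1 - ⟪b i, mob T y (p x)⟫) ^ m)⁻¹) ∂μ := by
    refine integral_mono_of_nonneg (Filter.Eventually.of_forall fun x => ?_)
      (integrable_finsetSum _ h1) (Filter.Eventually.of_forall fun x => ?_)
    · exact mul_nonneg (KT_pos hT (h.np x) hy).le (hG0 x)
    · refine (mul_le_mul_of_nonneg_left (hG x) (KT_pos hT (h.np x) hy).le).trans (le_of_eq ?_)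
      rw [Finset.mul_sum]
      exact Finset.sum_congr rfl fun i _ => by ring
  refine h2.trans ?_
  rw [integral_finsetSum _ h1, Finset.mul_sum]
  refine Finset.sum_le_sum fun i hi => ?_
  rw [integral_const_mul]
  refine (mul_le_mul_of_nonneg_left (h.mgf hT hy (hb i hi)) (hC i hi)).trans (le_of_eq ?_)
  ring

/-- `⟪w, x⟫` in the coordinates of `mob T y x` -/
lemma inner_affine {T : ℝ} (hT : T ∈ Ico (0 : ℝ) 1) {x y : E} (hx : ‖x‖ = 1) (hy : ‖y‖ = 1)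
    (w : E) :
    √(1 - T ^ 2) * ⟪w, x⟫ / (1 - T * ⟪x, y⟫) =
      ⟪(w - ⟪w, y⟫ • y) + (⟪w, y⟫ / √(1 - T ^ 2)) • y, mob T y x⟫ + T * ⟪w, y⟫ / √(1 - T ^ 2) := by
  have hv := (v_pos hT hx hy).ne'
  have hk := k_pos hT
  have hs : √(1 - T ^ 2) ≠ 0 := (Real.sqrt_pos.2 hk).ne'
  have hs2 : √(1 - T ^ 2) * √(1 - T ^ 2) = 1 - T ^ 2 := Real.mul_self_sqrt hk.le
  have hyy : ⟪y, y⟫ = 1 := by rw [real_inner_self_eq_norm_sq, hy]; norm_num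
  unfold mob
  simp only [inner_add_left, inner_add_right, real_inner_smul_right, real_inner_smul_left,
    inner_sub_left, inner_sub_right, hyy]
  rw [real_inner_comm y x] at hv ⊢
  field_simp
  linear_combination (⟪y, x⟫ * ⟪w, y⟫) * hs2

lemma norm_affine_sq {T : ℝ} (hT : T ∈ Ico (0 : ℝ) 1) {y : E} (hy : ‖y‖ = 1) (w : E) :
    ‖(w - ⟪w, y⟫ • y) + (⟪w, y⟫ / √(1 - T ^ 2)) • y‖ ^ 2 =
      ‖w‖ ^ 2 + T ^ 2 / (1 - T ^ 2) * ⟪w, y⟫ ^ 2 := by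
  have hk := k_pos hT
  have := norm_comb_sq hy (inner_perp (b := w) hy) 1 (⟪w, y⟫ / √(1 - T ^ 2))
  rw [one_smul] at this
  rw [this, norm_perp_sq hy, div_pow, Real.sq_sqrt hk.le]
  field_simp
  ring

end

end Vale.Agent.P224.R2.H869
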