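import Vale.Agent.P224.R2.H869.Mom
import Vale.Agent.P224.R2.H876.TlMom

/-!
The absolute moments of the linear forms at level `T` with Gaussian type constants independent
of the dimension.
-/

namespace Vale.Agent.P224.R2.H869

open MeasureTheory Set Function Module Vale.Agent.P224 Vale.Agent.P224.SM2
  Vale.Agent.P224.R2.H484 Vale.Agent.P224.R2.H876
open scoped RealInnerProductSpace

set_option linter.unusedSectionVars false

/-- the moment constants: `2 (q/e)^(q/2)` for `q ≥ 3` -/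
noncomputable def Mg (q : ℕ) : ℝ :=
  if q = 0 then 1 else if q ≤ 2 then 3 / 2 else 2 * √((q : ℝ) / Real.exp 1) ^ q

lemma Mg_nonneg (q : ℕ) : 0 ≤ Mg q := by
  unfold Mg
  split_ifs <;> positivity

/-- the logarithmic inequality behind the constants -/
lemma log_key {n q : ℝ} (hn : 1 ≤ n) (hq : 1 ≤ q) :
    q * Real.log ((n + 1) / (n + q)) + n * Real.log (n / (n + q))
      ≤ -(2 * q * ((q - 1) / (2 * n + q + 1) + n / (2 * n + q))) := by
  have h1 := Real.le_log_one_add_of_nonneg (x := (q - 1) / (n + 1))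
    (div_nonneg (by linarith) (by linarith))
  have h2 := Real.le_log_one_add_of_nonneg (x := q / n) (div_nonneg (by linarith) (by linarith))
  have e1 : 1 + (q - 1) / (n + 1) = ((n + 1) / (n + q))⁻¹ := by
    field_simp
    ring
  have e2 : 1 + q / n = (n / (n + q))⁻¹ := by
    field_simp
  rw [e1, Real.log_inv] at h1
  rw [e2, Real.log_inv] at h2
  have e3 : 2 * ((q - 1) / (n + 1)) / ((q - 1) / (n + 1) + 2) = 2 * (q - 1) / (2 * n + q + 1) := by
    have a : n + 1 ≠ 0 := by linarith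
    have b : 2 * n + q + 1 ≠ 0 := by linarith
    have c : (q - 1) / (n + 1) + 2 = (2 * n + q + 1) / (n + 1) := by
      field_simp
      ring
    rw [c]
    field_simp
  have e4 : 2 * (q / n) / (q / n + 2) = 2 * q / (2 * n + q) := by
    have a : n ≠ 0 := by linarith
    have b : 2 * n + q ≠ 0 := by linarith
    have c : q / n + 2 = (2 * n + q) / n := by
      field_simp
      ring
    rw [c]
    field_simp
  rw [e3] at h1
  rw [e4] at h2
  have h3 := mul_le_mul_of_nonneg_left h1 (by linarith : (0 : ℝ) ≤ q)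
  have h4 := mul_le_mul_of_nonneg_left h2 (by linarith : (0 : ℝ) ≤ n)
  have e5 : 2 * q * ((q - 1) / (2 * n + q + 1) + n / (2 * n + q))
      = q * (2 * (q - 1) / (2 * n + q + 1)) + n * (2 * q / (2 * n + q)) := by ring
  rw [e5]
  linarith

/-- the constants at a finite dimension -/
lemma ratio_le {n q : ℕ} (hn : 1 ≤ n) (hq : 3 ≤ q) :
    (((n : ℝ) + 1) / (n + q)) ^ q * ((n : ℝ) / (n + q)) ^ n ≤ (Real.exp 1)⁻¹ ^ q := by
  have hn' : (1 : ℝ) ≤ n := by exact_mod_cast hn
  have hq' : (3 : ℝ) ≤ q := by exact_mod_cast hq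
  have p1 : 0 < ((n : ℝ) + 1) / (n + q) := by positivity
  have p2 : 0 < (n : ℝ) / (n + q) := by positivity
  have h1 := log_key (n := n) (q := q) hn' (by linarith)
  have h2 : (q : ℝ) ≤ 2 * q * (((q : ℝ) - 1) / (2 * n + q + 1) + n / (2 * n + q)) := by
    have h3 : (1 : ℝ) / 2 ≤ ((q : ℝ) - 1) / (2 * n + q + 1) + n / (2 * n + q) := by
      rw [div_add_div _ _ (by positivity) (by positivity), div_le_div_iff₀ (by norm_num) (by positivity)]
      nlinarith [mul_nonneg (sub_nonneg.2 hn') (sub_nonneg.2 hq')]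
    nlinarith
  have h4 : Real.log ((((n : ℝ) + 1) / (n + q)) ^ q * ((n : ℝ) / (n + q)) ^ n)
      ≤ Real.log ((Real.exp 1)⁻¹ ^ q) := by
    rw [Real.log_mul (by positivity) (by positivity), Real.log_pow, Real.log_pow, Real.log_pow,
      Real.log_inv, Real.log_exp]
    linarith
  exact (Real.log_le_log_iff (by positivity) (by positivity)).1 h4

lemma ratio_two {n : ℕ} (hn : 4 ≤ n) :
    (((n : ℝ) + 1) / (n + 2)) ^ 2 * ((n : ℝ) / (n + 2)) ^ n ≤ 9 / 64 := by
  have hn' : (4 : ℝ) ≤ n := by exact_mod_cast hn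
  have h1 := log_key (n := n) (q := 2) (by linarith) (by norm_num)
  have h2 : (4908 : ℝ) / 2500 ≤ 2 * 2 * (((2 : ℝ) - 1) / (2 * n + 2 + 1) + n / (2 * n + 2)) := by
    have h3 : (4908 : ℝ) / 10000 ≤ ((2 : ℝ) - 1) / (2 * n + 2 + 1) + n / (2 * n + 2) := by
      rw [div_add_div _ _ (by positivity) (by positivity), div_le_div_iff₀ (by norm_num) (by positivity)]
      nlinarith
    linarith
  have h5 : Real.log ((((n : ℝ) + 1) / (n + 2)) ^ 2 * ((n : ℝ) / (n + 2)) ^ n) ≤ -(4908 / 2500) := by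
    rw [Real.log_mul (by positivity) (by positivity), Real.log_pow, Real.log_pow]
    push_cast
    linarith
  have h6 : (((n : ℝ) + 1) / (n + 2)) ^ 2 * ((n : ℝ) / (n + 2)) ^ n ≤ Real.exp (-(4908 / 2500)) := by
    rw [← Real.log_le_iff_le_exp (by positivity)]
    exact h5
  refine h6.trans ?_
  rw [Real.exp_neg]
  have h7 : (64 : ℝ) / 9 ≤ Real.exp (4908 / 2500) := by
    have e : Real.exp (4908 / 2500) = Real.exp 1 ^ 2 * (Real.exp (-(92 / 2500))) := by
      rw [← Real.exp_nat_mul, ← Real.exp_add]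
      norm_num
    have a1 := Real.exp_one_gt_d9
    have a2 := Real.add_one_le_exp (-(92 / 2500 : ℝ))
    have a3 : (2.718 : ℝ) ^ 2 ≤ Real.exp 1 ^ 2 := pow_le_pow_left₀ (by norm_num) (by linarith) 2
    rw [e]
    have a4 : (0 : ℝ) < Real.exp (-(92 / 2500)) := Real.exp_pos _
    nlinarith
  calc (Real.exp (4908 / 2500))⁻¹ ≤ (64 / 9 : ℝ)⁻¹ := inv_anti₀ (by norm_num) h7
    _ = 9 / 64 := by norm_num

lemma le_of_sq_le_sq'' {a b : ℝ} (hb : 0 ≤ b) (h : a ^ 2 ≤ b ^ 2) : a ≤ b :=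
  (abs_le_of_sq_le_sq' h hb).2

lemma le_of_sq_le_sq' {a : ℝ} (h : a ^ 2 ≤ 9 / 16) : a ≤ 3 / 4 :=
  le_of_sq_le_sq'' (by norm_num) (by linarith)

/-- scaled constants -/
lemma Mo_scaled {n q : ℕ} (hn : 4 ≤ n) (hq : 1 ≤ q) :
    √((n : ℝ) + 1) ^ q * Mo n q ≤ Mg q := by
  have hn0 : (0 : ℝ) < n := by
    have : (4 : ℝ) ≤ n := by exact_mod_cast hn
    linarith
  have hq0 : (0 : ℝ) < q := by exact_mod_cast hq
  set A := ((n : ℝ) + 1) * (q / (n + q)) with hA
  set B := (n : ℝ) / (n + q) with hB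
  have hA0 : 0 ≤ A := by positivity
  have hB0 : 0 ≤ B := by positivity
  have e : √((n : ℝ) + 1) ^ q * Mo n q = 2 * (√A ^ q * √B ^ n) := by
    unfold Mo
    rw [hA, Real.sqrt_mul (by positivity), mul_pow]
    ring
  have sqp : ∀ (x : ℝ), 0 ≤ x → ∀ j : ℕ, (√x ^ j) ^ 2 = x ^ j := fun x hx j => by
    rw [← pow_mul, mul_comm, pow_mul, Real.sq_sqrt hx]
  have e2 : (√A ^ q * √B ^ n) ^ 2 = A ^ q * B ^ n := by
    rw [mul_pow, sqp A hA0, sqp B hB0]
  have e3 : A ^ q * B ^ n = (q : ℝ) ^ q * ((((n : ℝ) + 1) / (n + q)) ^ q * B ^ n) := by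
    rw [hA, ← mul_assoc, ← mul_pow]
    congr 2
    ring
  rw [e]
  unfold Mg
  rw [if_neg (by omega)]
  split_ifs with h2
  · have h3 : √A ^ q * √B ^ n ≤ 3 / 4 := by
      refine le_of_sq_le_sq' ?_
      rw [e2, e3]
      interval_cases q
      · have h4 := one_add_mul_le_pow (a := 1 / (n : ℝ)) (by
          have : 0 < 1 / (n : ℝ) := by positivity
          linarith) n
        have h5 : (n : ℝ) * (1 / n) = 1 := by field_simp
        rw [h5] at h4
        have h6 : B = (1 + 1 / (n : ℝ))⁻¹ := by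
          rw [hB]
          push_cast
          field_simp
        rw [h6, inv_pow]
        have h7 : ((1 + 1 / (n : ℝ)) ^ n)⁻¹ ≤ (2 : ℝ)⁻¹ := inv_anti₀ (by norm_num) (by linarith)
        have h8 : ((n : ℝ) + 1) / (n + (1 : ℕ)) = 1 := by
          push_cast
          exact div_self (by positivity)
        rw [h8]
        norm_num
        norm_num at h7
        linarith
      · have h4 := ratio_two hn
        rw [hB]
        push_cast
        linarith
    linarith
  · have h3 : √A ^ q * √B ^ n ≤ √((q : ℝ) / Real.exp 1) ^ q := by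
      refine le_of_sq_le_sq'' (by positivity) ?_
      have h5 := mul_le_mul_of_nonneg_left (ratio_le (n := n) (q := q) (by omega) (by omega))
        (by positivity : 0 ≤ (q : ℝ) ^ q)
      have h6 : ((q : ℝ) / Real.exp 1) ^ q = (q : ℝ) ^ q * (Real.exp 1)⁻¹ ^ q := by
        rw [div_eq_mul_inv, mul_pow]
      rw [e2, e3, sqp _ (by positivity), h6]
      exact h5
    linarith

variable {X : Type*} [MeasurableSpace X] {E : Type*} [NormedAddCommGroup E]
  [InnerProductSpace ℝ E] [MeasurableSpace E] [BorelSpace E] [SecondCountableTopology E]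
  {μ : Measure X} [IsFiniteMeasure μ] {m : ℕ} {p n : X → E}

/-- the moment hypothesis of the level bound -/
theorem momB_of_cv (h : CV μ (m - 1) p) (hm : 5 ≤ m) : MomB μ m p Mg := by
  obtain ⟨q0, rfl⟩ : ∃ q0, m = q0 + 1 := ⟨m - 1, by omega⟩
  simp only [Nat.add_sub_cancel] at h
  intro T hT y hy b q
  simp only [Nat.add_sub_cancel]
  have hA : 0 ≤ μ.real univ := measureReal_nonneg
  rcases Nat.eq_zero_or_pos q with rfl | hq
  · have h3 := h.mgf hT hy (b := 0) (by simp)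
    simp only [inner_zero_left, sub_zero, one_pow, inv_one, mul_one, norm_zero, ne_eq,
      OfNat.ofNat_ne_zero, not_false_eq_true, zero_pow, Real.sqrt_one] at h3
    simp only [pow_zero, mul_one, Mg, if_true]
    exact h3
  · have h1 := mom_one h (by omega) hT hy b q
    have h2 := mul_le_mul_of_nonneg_left h1 (by positivity : 0 ≤ √((q0 : ℝ) + 1) ^ q)
    have h3 := Mo_scaled (n := q0) (q := q) (by omega) hq
    have e : √(1 - T ^ 2) ^ q0 * ∫ x, ((1 - T * ⟪p x, y⟫) ^ q0)⁻¹ *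
        |√((q0 + 1 : ℕ) : ℝ) * ⟪b, mob T y (p x)⟫| ^ q ∂μ
        = √((q0 : ℝ) + 1) ^ q * (√(1 - T ^ 2) ^ q0 *
          ∫ x, ((1 - T * ⟪p x, y⟫) ^ q0)⁻¹ * |⟪b, mob T y (p x)⟫| ^ q ∂μ) := by
      have e1 : ∫ x, ((1 - T * ⟪p x, y⟫) ^ q0)⁻¹ *
          |√((q0 + 1 : ℕ) : ℝ) * ⟪b, mob T y (p x)⟫| ^ q ∂μ
          = √((q0 : ℝ) + 1) ^ q *
            ∫ x, ((1 - T * ⟪p x, y⟫) ^ q0)⁻¹ * |⟪b, mob T y (p x)⟫| ^ q ∂μ := by
        rw [← integral_const_mul]
        refine integral_congr_ae (Filter.Eventually.of_forall fun x => ?_)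
        simp only
        rw [abs_mul, abs_of_nonneg (Real.sqrt_nonneg _), mul_pow]
        push_cast
        ring
      rw [e1]
      ring
    rw [e]
    refine h2.trans ?_
    have h4 := mul_le_mul_of_nonneg_left h3 (mul_nonneg hA (by positivity : 0 ≤ ‖b‖ ^ q))
    calc √((q0 : ℝ) + 1) ^ q * (μ.real univ * (‖b‖ ^ q * Mo q0 q))
        = μ.real univ * ‖b‖ ^ q * (√((q0 : ℝ) + 1) ^ q * Mo q0 q) := by ring
      _ ≤ μ.real univ * ‖b‖ ^ q * Mg q := h4
      _ = _ := by ring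

theorem momB_of_min [Nontrivial E] (h : MinRow μ m p n) (hm : 5 ≤ m) : MomB μ m p Mg := by
  refine momB_of_cv ?_ hm
  obtain ⟨q0, rfl⟩ : ∃ q0, m = q0 + 1 := ⟨m - 1, by omega⟩
  simp only [Nat.add_sub_cancel]
  exact cv_pred_of_min h

/-- larger constants -/
lemma MomB.mono {M M' : ℕ → ℝ} (h : MomB μ m p M) (hM : ∀ q, M q ≤ M' q) : MomB μ m p M' :=
  fun T hT y hy b q => (h T hT y hy b q).trans
    (mul_le_mul_of_nonneg_left (mul_le_mul_of_nonneg_right (hM q) (by positivity))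
      measureReal_nonneg)

end Vale.Agent.P224.R2.H869
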