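import Vale.Agent.P224.R2.H686.PhiF
import Vale.Agent.P224.R2.H686.PhiA

/-!
The levels of `E φ² ≤ c₁ E a` for `Λ² ≤ κ`, all `m ≥ 36` and `E a ≤ 1/50`: a check by rational
arithmetic.
-/

namespace Vale.Agent.P224.R2.H869

open MeasureTheory Module Function Set Vale.Agent.P224.R2.H470 Vale.Agent.P224.R2.H686
open scoped RealInnerProductSpace Topology ContDiff

/-- `Σ c_i t^i - (t - u)² Σ q_i t^i` has nonnegative coefficients -/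
def plyOK (c0 c1 c2 c3 c4 c5 c6 u q0 q1 q2 q3 q4 : ℚ) : Bool :=
  decide (0 ≤ q0) && decide (0 ≤ q1) && decide (0 ≤ q2) && decide (0 ≤ q3) && decide (0 ≤ q4)
    && decide (u ^ 2 * q0 ≤ c0) && decide (u ^ 2 * q1 - 2 * u * q0 ≤ c1)
    && decide (u ^ 2 * q2 - 2 * u * q1 + q0 ≤ c2)
    && decide (u ^ 2 * q3 - 2 * u * q2 + q1 ≤ c3)
    && decide (u ^ 2 * q4 - 2 * u * q3 + q2 ≤ c4)
    && decide (q3 - 2 * u * q4 ≤ c5) && decide (q4 ≤ c6)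

theorem plyOK_sound {c0 c1 c2 c3 c4 c5 c6 u q0 q1 q2 q3 q4 : ℚ}
    (h : plyOK c0 c1 c2 c3 c4 c5 c6 u q0 q1 q2 q3 q4 = true) {t : ℝ} (ht : 0 ≤ t) :
    0 ≤ (c0 : ℝ) + c1 * t + c2 * t ^ 2 + c3 * t ^ 3 + c4 * t ^ 4 + c5 * t ^ 5 + c6 * t ^ 6 := by
  unfold plyOK at h
  simp only [Bool.and_eq_true, decide_eq_true_eq] at h
  obtain ⟨⟨⟨⟨⟨⟨⟨⟨⟨⟨⟨k0, k1⟩, k2⟩, k3⟩, k4⟩, e0⟩, e1⟩, e2⟩, e3⟩, e4⟩, e5⟩, e6⟩ := h
  have k0' : (0 : ℝ) ≤ q0 := by exact_mod_cast k0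
  have k1' : (0 : ℝ) ≤ q1 := by exact_mod_cast k1
  have k2' : (0 : ℝ) ≤ q2 := by exact_mod_cast k2
  have k3' : (0 : ℝ) ≤ q3 := by exact_mod_cast k3
  have k4' : (0 : ℝ) ≤ q4 := by exact_mod_cast k4
  have e0' : (u : ℝ) ^ 2 * q0 ≤ c0 := by exact_mod_cast e0
  have e1' : (u : ℝ) ^ 2 * q1 - 2 * u * q0 ≤ c1 := by exact_mod_cast e1
  have e2' : (u : ℝ) ^ 2 * q2 - 2 * u * q1 + q0 ≤ c2 := by exact_mod_cast e2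
  have e3' : (u : ℝ) ^ 2 * q3 - 2 * u * q2 + q1 ≤ c3 := by exact_mod_cast e3
  have e4' : (u : ℝ) ^ 2 * q4 - 2 * u * q3 + q2 ≤ c4 := by exact_mod_cast e4
  have e5' : (q3 : ℝ) - 2 * u * q4 ≤ c5 := by exact_mod_cast e5
  have e6' : (q4 : ℝ) ≤ c6 := by exact_mod_cast e6
  have h1 := mul_nonneg (sub_nonneg.2 e1') ht
  have h2 := mul_nonneg (sub_nonneg.2 e2') (pow_nonneg ht 2)
  have h3 := mul_nonneg (sub_nonneg.2 e3') (pow_nonneg ht 3)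
  have h4 := mul_nonneg (sub_nonneg.2 e4') (pow_nonneg ht 4)
  have h5 := mul_nonneg (sub_nonneg.2 e5') (pow_nonneg ht 5)
  have h6 := mul_nonneg (sub_nonneg.2 e6') (pow_nonneg ht 6)
  have h7 : 0 ≤ (t - u) ^ 2 * (q0 + q1 * t + q2 * t ^ 2 + q3 * t ^ 3 + q4 * t ^ 4) := by
    positivity
  linarith

/-- the data of a level -/
structure LevQ where
  κ : ℚ
  A : ℚ
  l : ℚ
  el : ℚ
  s : ℚ
  th : ℚ
  lam : ℚ
  w : ℚ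
  t1 : ℚ
  t2 : ℚ
  t3 : ℚ
  t4 : ℚ
  r1 : ℚ
  e : ℚ
  r3 : ℚ
  r4 : ℚ
  c : ℚ
  u0 : ℚ
  p0 : ℚ
  p1 : ℚ
  p2 : ℚ
  p3 : ℚ
  p4 : ℚ
  z : ℚ
  v0 : ℚ
  q0 : ℚ
  q1 : ℚ
  q2 : ℚ
  q3 : ℚ
  q4 : ℚ

/-- the numerical conditions of the level -/
def LevQ.ok1 (L : LevQ) : Bool :=
  decide (0 ≤ L.th) && decide (0 ≤ L.el) && decide (0 ≤ L.A) && decide (0 ≤ L.κ)
  && decide (L.κ ≤ L.el ^ 2) && decide (L.el ≤ L.s) && decide (L.κ + 1 / 36 ≤ (L.s - L.el) ^ 2)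
  && decide (0 < L.w) && decide (L.w ≤ L.th * (441 / 475)) && decide (0 < L.lam)
  && decide (L.lam < 1) && decide (0 < L.t1) && decide (0 < L.t2) && decide (0 < L.t3)
  && decide (0 < L.t4) && decide (0 ≤ L.e) && decide (0 ≤ L.c)

/-- the numerical conditions of the level -/
def LevQ.ok2 (L : LevQ) : Bool :=
  decide ((1 + L.th / 2) * L.el * (1 / (2 * L.t1)) + (1 + L.th / 2) * L.el * (1 / (2 * L.t2))
        + L.th * L.el * (1 / (2 * L.t1)) + L.th * L.el * (1 / (2 * L.t3))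
        + ((1 + L.th) * L.κ) ^ 2 * (1 / (4 * (L.lam * L.w))) ≤ L.r1)
  && decide ((1 + L.th / 2) * L.el * (2 * L.t2) + L.th * L.el * (L.t3 / 2)
        + (2 * (1 + L.th)) ^ 2 * L.κ * (1 / (4 * ((1 - L.lam) * L.w)))
        + (1 + L.th) * L.el * L.s * (1 / L.t4) + 2 * L.th ≤ 2 + L.e)
  && decide ((1 + L.th / 2) * L.el * (2 * L.t1) + L.th * L.el * (2 * L.t1)
        + (1 + L.th) * L.el * L.s * L.t4 + 2 * L.th * L.κ ≤ L.r3)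
  && decide ((1 + L.th / 2) * L.el * L.t1 + (1 + L.th / 2) * L.el * L.t2 + L.th * L.el * L.t1
        + L.th / 2 ≤ L.r4)
  && decide (2 + L.r3 + L.A * L.r4 + L.e ≤ L.c * (1 - L.r1))
  && decide ((1 + L.th) * ((L.el + L.s) / 2 + 2) + L.th + (1 + L.th) * L.A
        ≤ L.c * (3 - (1 + L.th) * ((L.el + L.s) / 2)))
  && decide ((1 + L.th) * ((L.el + L.s) / 2) ≤ 3) && decide (L.r1 < 1)

/-- the condition for `r² - 1 ≤ A` -/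
def LevQ.ok3 (L : LevQ) : Bool :=
  decide (0 ≤ L.l) && plyOK (L.A - 24 * L.κ * L.l) (-(80 * L.κ * L.l) - 2)
    (L.l * (16 - 90 * L.κ) - 1)
    (L.l * (32 - 42 * L.κ)) (L.l * (24 - 7 * L.κ)) (8 * L.l) L.l L.u0 L.p0 L.p1 L.p2 L.p3 L.p4

/-- the coefficients of `(r² - 1)² - 7 κ (r² - 1) - 6 κ` at `r = z + t` -/
def LevQ.b0 (L : LevQ) : ℚ := (L.z ^ 2 - 1) ^ 2 - 7 * L.κ * (L.z ^ 2 - 1) - 6 * L.κ

/-- the coefficients of `(r² - 1)² - 7 κ (r² - 1) - 6 κ` at `r = z + t` -/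
def LevQ.b1 (L : LevQ) : ℚ := 4 * L.z * (L.z ^ 2 - 1) - 14 * L.κ * L.z

/-- the coefficients of `(r² - 1)² - 7 κ (r² - 1) - 6 κ` at `r = z + t` -/
def LevQ.b2 (L : LevQ) : ℚ := 4 * L.z ^ 2 + 2 * (L.z ^ 2 - 1) - 7 * L.κ

/-- the condition for `A ≤ r² - 1` -/
def LevQ.ok4 (L : LevQ) : Bool :=
  decide (1 ≤ L.z) && decide (L.z ^ 2 ≤ 1 + L.A) && plyOK
    (L.l * ((L.z - 1) ^ 2 * L.b0) - (L.z ^ 2 - 1) + L.A)
    (L.l * (2 * (L.z - 1) * L.b0 + (L.z - 1) ^ 2 * L.b1) - 2 * L.z)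
    (L.l * (L.b0 + 2 * (L.z - 1) * L.b1 + (L.z - 1) ^ 2 * L.b2) - 1)
    (L.l * (L.b1 + 2 * (L.z - 1) * L.b2 + (L.z - 1) ^ 2 * (4 * L.z)))
    (L.l * (L.b2 + 2 * (L.z - 1) * (4 * L.z) + (L.z - 1) ^ 2))
    (L.l * (4 * L.z + 2 * (L.z - 1))) L.l L.v0 L.q0 L.q1 L.q2 L.q3 L.q4

/-- the check -/
def LevQ.ok (L : LevQ) : Bool := L.ok1 && L.ok2 && L.ok3 && L.ok4

theorem LevQ.lev {L : LevQ} (h1 : L.ok1 = true) (h2 : L.ok2 = true) :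
    Lev (L.κ : ℝ) L.A L.el L.s L.th L.lam L.w L.t1 L.t2 L.t3 L.t4 L.r1 L.e L.r3 L.r4 L.c := by
  unfold LevQ.ok1 at h1
  unfold LevQ.ok2 at h2
  simp only [Bool.and_eq_true, decide_eq_true_eq] at h1 h2
  obtain ⟨⟨⟨⟨⟨⟨⟨⟨⟨⟨⟨⟨⟨⟨⟨⟨a1, a2⟩, a3⟩, a4⟩, a5⟩, a6⟩, a7⟩, a8⟩, a9⟩, a10⟩, a11⟩, a12⟩, a13⟩,
    a14⟩, a15⟩, a16⟩, a17⟩ := h1
  obtain ⟨⟨⟨⟨⟨⟨⟨b1, b2⟩, b3⟩, b4⟩, b5⟩, b6⟩, b7⟩, b8⟩ := h2
  have a7' := (Rat.cast_le (K := ℝ)).2 a7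
  have a9' := (Rat.cast_le (K := ℝ)).2 a9
  have b1' := (Rat.cast_le (K := ℝ)).2 b1
  have b2' := (Rat.cast_le (K := ℝ)).2 b2
  have b3' := (Rat.cast_le (K := ℝ)).2 b3
  have b4' := (Rat.cast_le (K := ℝ)).2 b4
  have b5' := (Rat.cast_le (K := ℝ)).2 b5
  have b6' := (Rat.cast_le (K := ℝ)).2 b6
  have b7' := (Rat.cast_le (K := ℝ)).2 b7
  push_cast at a7' a9' b1' b2' b3' b4' b5' b6' b7'
  exact ⟨by exact_mod_cast a1, by exact_mod_cast a2, by exact_mod_cast a3, by exact_mod_cast a4,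
    by exact_mod_cast a5, by exact_mod_cast a6, a7', by exact_mod_cast a8, a9',
    by exact_mod_cast a10, by exact_mod_cast a11, by exact_mod_cast a12, by exact_mod_cast a13,
    by exact_mod_cast a14, by exact_mod_cast a15, by exact_mod_cast a16, by exact_mod_cast a17,
    b1', b2', b3', b4', b5', b6', b7', by exact_mod_cast b8⟩

theorem LevQ.lo {L : LevQ} (h : L.ok3 = true) (r : ℝ) (h1 : 1 ≤ r) :
    r ^ 2 - 1 - L.A ≤ L.l * (r + 1) ^ 2 * ((r ^ 2 - 1) ^ 2 - 7 * L.κ * (r ^ 2 - 1) - 6 * L.κ) := by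
  unfold LevQ.ok3 at h
  simp only [Bool.and_eq_true, decide_eq_true_eq] at h
  have h2 := plyOK_sound h.2 (t := r - 1) (by linarith)
  push_cast at h2
  have h3 : (L.l : ℝ) * (r + 1) ^ 2 * ((r ^ 2 - 1) ^ 2 - 7 * L.κ * (r ^ 2 - 1) - 6 * L.κ)
      - (r ^ 2 - 1 - L.A) = ((L.A : ℝ) - 24 * L.κ * L.l) + (-(80 * L.κ * L.l) - 2) * (r - 1)
        + (L.l * (16 - 90 * L.κ) - 1) * (r - 1) ^ 2 + L.l * (32 - 42 * L.κ) * (r - 1) ^ 3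
        + L.l * (24 - 7 * L.κ) * (r - 1) ^ 4 + 8 * L.l * (r - 1) ^ 5 + L.l * (r - 1) ^ 6 := by
    ring
  linarith

theorem LevQ.hi {L : LevQ} (h : L.ok4 = true) (r : ℝ) (h1 : 1 ≤ r)
    (hr : (L.A : ℝ) ≤ r ^ 2 - 1) :
    r ^ 2 - 1 - L.A ≤ L.l * (r - 1) ^ 2 * ((r ^ 2 - 1) ^ 2 - 7 * L.κ * (r ^ 2 - 1) - 6 * L.κ) := by
  unfold LevQ.ok4 at h
  simp only [Bool.and_eq_true, decide_eq_true_eq] at h
  obtain ⟨⟨z1, z2⟩, h⟩ := h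
  have z1' : (1 : ℝ) ≤ L.z := by exact_mod_cast z1
  have z2' : (L.z : ℝ) ^ 2 ≤ 1 + L.A := by exact_mod_cast z2
  have h0 : (L.z : ℝ) ≤ r := by
    refine (pow_le_pow_iff_left₀ (by linarith) (by linarith) two_ne_zero).1 ?_
    linarith
  have h2 := plyOK_sound h (t := r - L.z) (by linarith)
  unfold LevQ.b0 LevQ.b1 LevQ.b2 at h2
  push_cast at h2
  have h3 : (L.l : ℝ) * (r - 1) ^ 2 * ((r ^ 2 - 1) ^ 2 - 7 * L.κ * (r ^ 2 - 1) - 6 * L.κ)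
      - (r ^ 2 - 1 - L.A) = (L.l * ((L.z - 1) ^ 2 * ((L.z ^ 2 - 1) ^ 2 - 7 * L.κ * (L.z ^ 2 - 1)
          - 6 * L.κ)) - (L.z ^ 2 - 1) + L.A)
        + (L.l * (2 * (L.z - 1) * ((L.z ^ 2 - 1) ^ 2 - 7 * L.κ * (L.z ^ 2 - 1) - 6 * L.κ)
          + (L.z - 1) ^ 2 * (4 * L.z * (L.z ^ 2 - 1) - 14 * L.κ * L.z)) - 2 * L.z) * (r - L.z)
        + (L.l * (((L.z ^ 2 - 1) ^ 2 - 7 * L.κ * (L.z ^ 2 - 1) - 6 * L.κ)
          + 2 * (L.z - 1) * (4 * L.z * (L.z ^ 2 - 1) - 14 * L.κ * L.z)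
          + (L.z - 1) ^ 2 * (4 * L.z ^ 2 + 2 * (L.z ^ 2 - 1) - 7 * L.κ)) - 1) * (r - L.z) ^ 2
        + L.l * ((4 * L.z * (L.z ^ 2 - 1) - 14 * L.κ * L.z)
          + 2 * (L.z - 1) * (4 * L.z ^ 2 + 2 * (L.z ^ 2 - 1) - 7 * L.κ)
          + (L.z - 1) ^ 2 * (4 * L.z)) * (r - L.z) ^ 3
        + L.l * ((4 * L.z ^ 2 + 2 * (L.z ^ 2 - 1) - 7 * L.κ) + 2 * (L.z - 1) * (4 * L.z)
          + (L.z - 1) ^ 2) * (r - L.z) ^ 4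
        + L.l * (4 * L.z + 2 * (L.z - 1)) * (r - L.z) ^ 5 + L.l * (r - L.z) ^ 6 := by
    ring
  linarith

section

variable {X : Type*} {E : Type*} [NormedAddCommGroup E] [InnerProductSpace ℝ E]
  [FiniteDimensional ℝ E] [TopologicalSpace X] [MeasurableSpace X] [CompactSpace X] [BorelSpace X]
  {μ : Measure X} [IsProbabilityMeasure μ] {m : ℕ} {p n : X → E} {J : E →L[ℝ] E} {Λ : ℝ}

/-- **the level**: `E φ² ≤ c E a` for `Λ² ≤ κ` -/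
theorem LevQ.row {L : LevQ} (h : L.ok = true) (d : Dat μ m p n J Λ) (hm : 36 ≤ m)
    (hκ : Λ ^ 2 ≤ L.κ) (hH : ∫ x, aa J p n x ∂μ ≤ 1 / 50) :
    ∫ x, ph m J p x ^ 2 ∂μ ≤ L.c * ∫ x, aa J p n x ∂μ := by
  unfold LevQ.ok at h
  simp only [Bool.and_eq_true] at h
  obtain ⟨⟨⟨h1, h2⟩, h3⟩, h4⟩ := h
  have hL := LevQ.lev h1 h2
  have hA : (0 : ℝ) ≤ L.A := hL.A0
  have hl : (0 : ℝ) ≤ L.l := by
    unfold LevQ.ok3 at h3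
    simp only [Bool.and_eq_true, decide_eq_true_eq] at h3
    exact_mod_cast h3.1
  exact d.P_level hm hκ hL (d.E_aq (l := (L.l : ℝ)) hκ hA hl (fun r hr _ => LevQ.lo h3 r hr)
    (fun r hr hr2 => LevQ.hi h4 r hr hr2)) hH

end

end Vale.Agent.P224.R2.H869
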