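import Vale.Agent.P224.R2.H686.PhiF
import Vale.Agent.P224.R2.H686.PhiA

/-!
More levels of `E φ² ≤ c₁ E a` for `Λ² ≤ κ`, all `m ≥ 36` and `E a ≤ 1/50`.
-/

namespace Vale.Agent.P224.R2.H869

open MeasureTheory Module Function Set Vale.Agent.P224.R2.H470 Vale.Agent.P224.R2.H686
open scoped RealInnerProductSpace Topology ContDiff

lemma nB0103 (r : ℝ) (h1 : 1 ≤ r) (h2 : r ^ 2 - 1 ≤ 7 / 10) :
    r ^ 2 - 1 - 7 / 10 ≤ 227 / 100 * (r + 1) ^ 2 * ((r ^ 2 - 1) ^ 2 - 7 * (103 / 10000) * (r ^ 2 - 1)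
      - 6 * (103 / 10000)) := by
  have h3 : r ≤ 163 / 125 := by nlinarith
  nlinarith [mul_nonneg (sub_nonneg.2 h1) (sub_nonneg.2 h3), sq_nonneg (r - 21 / 20),
    sq_nonneg ((r - 21 / 20) * r), sq_nonneg ((r - 21 / 20) * (r + 1) * r),
    mul_nonneg (sub_nonneg.2 h1) (sq_nonneg (r - 21 / 20)),
    mul_nonneg (sub_nonneg.2 h1) (sq_nonneg ((r - 21 / 20) * r)),
    mul_nonneg (sub_nonneg.2 h3) (sq_nonneg (r - 21 / 20)),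
    mul_nonneg (sub_nonneg.2 h1) (sq_nonneg ((r - 21 / 20) * (r + 1)))]

lemma nC0103 (r : ℝ) (h1 : 1 ≤ r) (h2 : 7 / 10 ≤ r ^ 2 - 1) :
    r ^ 2 - 1 - 7 / 10 ≤ 227 / 100 * (r - 1) ^ 2 * ((r ^ 2 - 1) ^ 2 - 7 * (103 / 10000) * (r ^ 2 - 1)
      - 6 * (103 / 10000)) := by
  have h3 : 1303 / 1000 ≤ r := by nlinarith
  obtain ⟨d, hd, rfl⟩ : ∃ d : ℝ, 0 ≤ d ∧ r = 1303 / 1000 + d := ⟨r - 1303 / 1000, by linarith, by ring⟩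
  nlinarith [mul_nonneg hd hd, mul_nonneg (mul_nonneg hd hd) hd, sq_nonneg (d - 1 / 5),
    mul_nonneg hd (sq_nonneg (d - 1 / 5)), mul_nonneg (mul_nonneg hd hd) (mul_nonneg hd hd),
    mul_nonneg (mul_nonneg (mul_nonneg hd hd) (mul_nonneg hd hd)) hd,
    mul_nonneg (mul_nonneg (mul_nonneg hd hd) (mul_nonneg hd hd)) (mul_nonneg hd hd)]

lemma nB0257 (r : ℝ) (h1 : 1 ≤ r) (h2 : r ^ 2 - 1 ≤ 19 / 20) :
    r ^ 2 - 1 - 19 / 20 ≤ 109 / 100 * (r + 1) ^ 2 * ((r ^ 2 - 1) ^ 2 - 7 * (257 / 10000) * (r ^ 2 - 1)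
      - 6 * (257 / 10000)) := by
  have h3 : r ≤ 1397 / 1000 := by nlinarith
  nlinarith [mul_nonneg (sub_nonneg.2 h1) (sub_nonneg.2 h3), sq_nonneg (r - 111 / 100),
    sq_nonneg ((r - 111 / 100) * r), sq_nonneg ((r - 111 / 100) * (r + 1) * r),
    mul_nonneg (sub_nonneg.2 h1) (sq_nonneg (r - 111 / 100)),
    mul_nonneg (sub_nonneg.2 h1) (sq_nonneg ((r - 111 / 100) * r)),
    mul_nonneg (sub_nonneg.2 h3) (sq_nonneg (r - 111 / 100)),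
    mul_nonneg (sub_nonneg.2 h1) (sq_nonneg ((r - 111 / 100) * (r + 1)))]

lemma nC0257 (r : ℝ) (h1 : 1 ≤ r) (h2 : 19 / 20 ≤ r ^ 2 - 1) :
    r ^ 2 - 1 - 19 / 20 ≤ 109 / 100 * (r - 1) ^ 2 * ((r ^ 2 - 1) ^ 2 - 7 * (257 / 10000) * (r ^ 2 - 1)
      - 6 * (257 / 10000)) := by
  have h3 : 349 / 250 ≤ r := by nlinarith
  obtain ⟨d, hd, rfl⟩ : ∃ d : ℝ, 0 ≤ d ∧ r = 349 / 250 + d := ⟨r - 349 / 250, by linarith, by ring⟩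
  nlinarith [mul_nonneg hd hd, mul_nonneg (mul_nonneg hd hd) hd, sq_nonneg (d - 1 / 5),
    mul_nonneg hd (sq_nonneg (d - 1 / 5)), mul_nonneg (mul_nonneg hd hd) (mul_nonneg hd hd),
    mul_nonneg (mul_nonneg (mul_nonneg hd hd) (mul_nonneg hd hd)) hd,
    mul_nonneg (mul_nonneg (mul_nonneg hd hd) (mul_nonneg hd hd)) (mul_nonneg hd hd)]

lemma nB0463 (r : ℝ) (h1 : 1 ≤ r) (h2 : r ^ 2 - 1 ≤ 6 / 5) :
    r ^ 2 - 1 - 6 / 5 ≤ 13 / 20 * (r + 1) ^ 2 * ((r ^ 2 - 1) ^ 2 - 7 * (463 / 10000) * (r ^ 2 - 1)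
      - 6 * (463 / 10000)) := by
  have h3 : r ≤ 371 / 250 := by nlinarith
  nlinarith [mul_nonneg (sub_nonneg.2 h1) (sub_nonneg.2 h3), sq_nonneg (r - 117 / 100),
    sq_nonneg ((r - 117 / 100) * r), sq_nonneg ((r - 117 / 100) * (r + 1) * r),
    mul_nonneg (sub_nonneg.2 h1) (sq_nonneg (r - 117 / 100)),
    mul_nonneg (sub_nonneg.2 h1) (sq_nonneg ((r - 117 / 100) * r)),
    mul_nonneg (sub_nonneg.2 h3) (sq_nonneg (r - 117 / 100)),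
    mul_nonneg (sub_nonneg.2 h1) (sq_nonneg ((r - 117 / 100) * (r + 1)))]

lemma nC0463 (r : ℝ) (h1 : 1 ≤ r) (h2 : 6 / 5 ≤ r ^ 2 - 1) :
    r ^ 2 - 1 - 6 / 5 ≤ 13 / 20 * (r - 1) ^ 2 * ((r ^ 2 - 1) ^ 2 - 7 * (463 / 10000) * (r ^ 2 - 1)
      - 6 * (463 / 10000)) := by
  have h3 : 1483 / 1000 ≤ r := by nlinarith
  obtain ⟨d, hd, rfl⟩ : ∃ d : ℝ, 0 ≤ d ∧ r = 1483 / 1000 + d := ⟨r - 1483 / 1000, by linarith, by ring⟩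
  nlinarith [mul_nonneg hd hd, mul_nonneg (mul_nonneg hd hd) hd, sq_nonneg (d - 1 / 5),
    mul_nonneg hd (sq_nonneg (d - 1 / 5)), mul_nonneg (mul_nonneg hd hd) (mul_nonneg hd hd),
    mul_nonneg (mul_nonneg (mul_nonneg hd hd) (mul_nonneg hd hd)) hd,
    mul_nonneg (mul_nonneg (mul_nonneg hd hd) (mul_nonneg hd hd)) (mul_nonneg hd hd)]

lemma nB0627 (r : ℝ) (h1 : 1 ≤ r) (h2 : r ^ 2 - 1 ≤ 137 / 100) :
    r ^ 2 - 1 - 137 / 100 ≤ 49 / 100 * (r + 1) ^ 2 * ((r ^ 2 - 1) ^ 2 - 7 * (627 / 10000) * (r ^ 2 - 1)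
      - 6 * (627 / 10000)) := by
  have h3 : r ≤ 77 / 50 := by nlinarith
  nlinarith [mul_nonneg (sub_nonneg.2 h1) (sub_nonneg.2 h3), sq_nonneg (r - 61 / 50),
    sq_nonneg ((r - 61 / 50) * r), sq_nonneg ((r - 61 / 50) * (r + 1) * r),
    mul_nonneg (sub_nonneg.2 h1) (sq_nonneg (r - 61 / 50)),
    mul_nonneg (sub_nonneg.2 h1) (sq_nonneg ((r - 61 / 50) * r)),
    mul_nonneg (sub_nonneg.2 h3) (sq_nonneg (r - 61 / 50)),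
    mul_nonneg (sub_nonneg.2 h1) (sq_nonneg ((r - 61 / 50) * (r + 1)))]

lemma nC0627 (r : ℝ) (h1 : 1 ≤ r) (h2 : 137 / 100 ≤ r ^ 2 - 1) :
    r ^ 2 - 1 - 137 / 100 ≤ 49 / 100 * (r - 1) ^ 2 * ((r ^ 2 - 1) ^ 2 - 7 * (627 / 10000) * (r ^ 2 - 1)
      - 6 * (627 / 10000)) := by
  have h3 : 1539 / 1000 ≤ r := by nlinarith
  obtain ⟨d, hd, rfl⟩ : ∃ d : ℝ, 0 ≤ d ∧ r = 1539 / 1000 + d := ⟨r - 1539 / 1000, by linarith, by ring⟩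
  nlinarith [mul_nonneg hd hd, mul_nonneg (mul_nonneg hd hd) hd, sq_nonneg (d - 1 / 5),
    mul_nonneg hd (sq_nonneg (d - 1 / 5)), mul_nonneg (mul_nonneg hd hd) (mul_nonneg hd hd),
    mul_nonneg (mul_nonneg (mul_nonneg hd hd) (mul_nonneg hd hd)) hd,
    mul_nonneg (mul_nonneg (mul_nonneg hd hd) (mul_nonneg hd hd)) (mul_nonneg hd hd)]

lemma nB0874 (r : ℝ) (h1 : 1 ≤ r) (h2 : r ^ 2 - 1 ≤ 8 / 5) :
    r ^ 2 - 1 - 8 / 5 ≤ 9 / 25 * (r + 1) ^ 2 * ((r ^ 2 - 1) ^ 2 - 7 * (437 / 5000) * (r ^ 2 - 1)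
      - 6 * (437 / 5000)) := by
  have h3 : r ≤ 1613 / 1000 := by nlinarith
  nlinarith [mul_nonneg (sub_nonneg.2 h1) (sub_nonneg.2 h3), sq_nonneg (r - 129 / 100),
    sq_nonneg ((r - 129 / 100) * r), sq_nonneg ((r - 129 / 100) * (r + 1) * r),
    mul_nonneg (sub_nonneg.2 h1) (sq_nonneg (r - 129 / 100)),
    mul_nonneg (sub_nonneg.2 h1) (sq_nonneg ((r - 129 / 100) * r)),
    mul_nonneg (sub_nonneg.2 h3) (sq_nonneg (r - 129 / 100)),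
    mul_nonneg (sub_nonneg.2 h1) (sq_nonneg ((r - 129 / 100) * (r + 1)))]

lemma nC0874 (r : ℝ) (h1 : 1 ≤ r) (h2 : 8 / 5 ≤ r ^ 2 - 1) :
    r ^ 2 - 1 - 8 / 5 ≤ 9 / 25 * (r - 1) ^ 2 * ((r ^ 2 - 1) ^ 2 - 7 * (437 / 5000) * (r ^ 2 - 1)
      - 6 * (437 / 5000)) := by
  have h3 : 403 / 250 ≤ r := by nlinarith
  obtain ⟨d, hd, rfl⟩ : ∃ d : ℝ, 0 ≤ d ∧ r = 403 / 250 + d := ⟨r - 403 / 250, by linarith, by ring⟩
  nlinarith [mul_nonneg hd hd, mul_nonneg (mul_nonneg hd hd) hd, sq_nonneg (d - 1 / 5),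
    mul_nonneg hd (sq_nonneg (d - 1 / 5)), mul_nonneg (mul_nonneg hd hd) (mul_nonneg hd hd),
    mul_nonneg (mul_nonneg (mul_nonneg hd hd) (mul_nonneg hd hd)) hd,
    mul_nonneg (mul_nonneg (mul_nonneg hd hd) (mul_nonneg hd hd)) (mul_nonneg hd hd)]

lemma nB1616 (r : ℝ) (h1 : 1 ≤ r) (h2 : r ^ 2 - 1 ≤ 223 / 100) :
    r ^ 2 - 1 - 223 / 100 ≤ 37 / 200 * (r + 1) ^ 2 * ((r ^ 2 - 1) ^ 2 - 7 * (101 / 625) * (r ^ 2 - 1)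
      - 6 * (101 / 625)) := by
  have h3 : r ≤ 899 / 500 := by nlinarith
  nlinarith [mul_nonneg (sub_nonneg.2 h1) (sub_nonneg.2 h3), sq_nonneg (r - 147 / 100),
    sq_nonneg ((r - 147 / 100) * r), sq_nonneg ((r - 147 / 100) * (r + 1) * r),
    mul_nonneg (sub_nonneg.2 h1) (sq_nonneg (r - 147 / 100)),
    mul_nonneg (sub_nonneg.2 h1) (sq_nonneg ((r - 147 / 100) * r)),
    mul_nonneg (sub_nonneg.2 h3) (sq_nonneg (r - 147 / 100)),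
    mul_nonneg (sub_nonneg.2 h1) (sq_nonneg ((r - 147 / 100) * (r + 1)))]

lemma nC1616 (r : ℝ) (h1 : 1 ≤ r) (h2 : 223 / 100 ≤ r ^ 2 - 1) :
    r ^ 2 - 1 - 223 / 100 ≤ 37 / 200 * (r - 1) ^ 2 * ((r ^ 2 - 1) ^ 2 - 7 * (101 / 625) * (r ^ 2 - 1)
      - 6 * (101 / 625)) := by
  have h3 : 1797 / 1000 ≤ r := by nlinarith
  obtain ⟨d, hd, rfl⟩ : ∃ d : ℝ, 0 ≤ d ∧ r = 1797 / 1000 + d := ⟨r - 1797 / 1000, by linarith, by ring⟩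
  nlinarith [mul_nonneg hd hd, mul_nonneg (mul_nonneg hd hd) hd, sq_nonneg (d - 1 / 5),
    mul_nonneg hd (sq_nonneg (d - 1 / 5)), mul_nonneg (mul_nonneg hd hd) (mul_nonneg hd hd),
    mul_nonneg (mul_nonneg (mul_nonneg hd hd) (mul_nonneg hd hd)) hd,
    mul_nonneg (mul_nonneg (mul_nonneg hd hd) (mul_nonneg hd hd)) (mul_nonneg hd hd)]

section

variable {X : Type*} {E : Type*} [NormedAddCommGroup E] [InnerProductSpace ℝ E]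
  [FiniteDimensional ℝ E] [TopologicalSpace X] [MeasurableSpace X] [CompactSpace X] [BorelSpace X]
  {μ : Measure X} [IsProbabilityMeasure μ] {m : ℕ} {p n : X → E} {J : E →L[ℝ] E} {Λ : ℝ}

/-- `E φ² ≤ 523 / 200 E a` for `Λ² ≤ 103 / 10000` -/
theorem PL0103 (d : Dat μ m p n J Λ) (hm : 36 ≤ m) (hκ : Λ ^ 2 ≤ 103 / 10000)
    (hH : ∫ x, aa J p n x ∂μ ≤ 1 / 50) :
    ∫ x, ph m J p x ^ 2 ∂μ ≤ 523 / 200 * ∫ x, aa J p n x ∂μ :=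
  d.P_level (κ := 103 / 10000) (A := 7 / 10) (ℓ := 203 / 2000) (s := 2967 / 10000) (θ := 169 / 10000) (lam := 49 / 100) (w := 39 / 2500)
    (t1 := 139 / 200) (t2 := 27 / 20) (t3 := 69 / 5) (t4 := 11 / 125) (ρ1 := 233 / 2000) (e := 11 / 1250)
    (ρ3 := 739 / 5000) (ρ4 := 219 / 1000) hm hκ (by constructor <;> norm_num)
    (d.E_aq (l := 227 / 100) hκ (by norm_num) (by norm_num) nB0103 nC0103) hH

/-- `E φ² ≤ 807 / 250 E a` for `Λ² ≤ 257 / 10000` -/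
theorem PL0257 (d : Dat μ m p n J Λ) (hm : 36 ≤ m) (hκ : Λ ^ 2 ≤ 257 / 10000)
    (hH : ∫ x, aa J p n x ∂μ ≤ 1 / 50) :
    ∫ x, ph m J p x ^ 2 ∂μ ≤ 807 / 250 * ∫ x, aa J p n x ∂μ :=
  d.P_level (κ := 257 / 10000) (A := 19 / 20) (ℓ := 401 / 2500) (s := 3917 / 10000) (θ := 427 / 10000) (lam := 2 / 5) (w := 99 / 2500)
    (t1 := 739 / 1000) (t2 := 1243 / 1000) (t3 := 9477 / 1000) (t4 := 109 / 500) (ρ1 := 1931 / 10000) (e := 17 / 10000)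
    (ρ3 := 168 / 625) (ρ4 := 439 / 1250) hm hκ (by constructor <;> norm_num)
    (d.E_aq (l := 109 / 100) hκ (by norm_num) (by norm_num) nB0257 nC0257) hH

/-- `E φ² ≤ 21 / 5 E a` for `Λ² ≤ 463 / 10000` -/
theorem PL0463 (d : Dat μ m p n J Λ) (hm : 36 ≤ m) (hκ : Λ ^ 2 ≤ 463 / 10000)
    (hH : ∫ x, aa J p n x ∂μ ≤ 1 / 50) :
    ∫ x, ph m J p x ^ 2 ∂μ ≤ 21 / 5 * ∫ x, aa J p n x ∂μ :=
  d.P_level (κ := 463 / 10000) (A := 6 / 5) (ℓ := 269 / 1250) (s := 2437 / 5000) (θ := 41 / 500) (lam := 8 / 25) (w := 761 / 10000)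
    (t1 := 81 / 100) (t2 := 283 / 250) (t3 := 1091 / 250) (t4 := 467 / 1000) (ρ1 := 69 / 250) (e := 1 / 5000)
    (ρ3 := 4521 / 10000) (ρ4 := 613 / 1250) hm hκ (by constructor <;> norm_num)
    (d.E_aq (l := 13 / 20) hκ (by norm_num) (by norm_num) nB0463 nC0463) hH

/-- `E φ² ≤ 211 / 40 E a` for `Λ² ≤ 627 / 10000` -/
theorem PL0627 (d : Dat μ m p n J Λ) (hm : 36 ≤ m) (hκ : Λ ^ 2 ≤ 627 / 10000)
    (hH : ∫ x, aa J p n x ∂μ ≤ 1 / 50) :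
    ∫ x, ph m J p x ^ 2 ∂μ ≤ 211 / 40 * ∫ x, aa J p n x ∂μ :=
  d.P_level (κ := 627 / 10000) (A := 137 / 100) (ℓ := 313 / 1250) (s := 689 / 1250) (θ := 233 / 2000) (lam := 269 / 1000) (w := 1081 / 10000)
    (t1 := 177 / 200) (t2 := 1011 / 1000) (t3 := 593 / 200) (t4 := 97 / 125) (ρ1 := 3443 / 10000) (e := 0)
    (ρ3 := 6549 / 10000) (ρ4 := 1173 / 2000) hm hκ (by constructor <;> norm_num)
    (d.E_aq (l := 49 / 100) hκ (by norm_num) (by norm_num) nB0627 nC0627) hH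

/-- `E φ² ≤ 7727 / 1000 E a` for `Λ² ≤ 437 / 5000` -/
theorem PL0874 (d : Dat μ m p n J Λ) (hm : 36 ≤ m) (hκ : Λ ^ 2 ≤ 437 / 5000)
    (hH : ∫ x, aa J p n x ∂μ ≤ 1 / 50) :
    ∫ x, ph m J p x ^ 2 ∂μ ≤ 7727 / 1000 * ∫ x, aa J p n x ∂μ :=
  d.P_level (κ := 437 / 5000) (A := 8 / 5) (ℓ := 2957 / 10000) (s := 6351 / 10000) (θ := 731 / 5000) (lam := 291 / 1000) (w := 1357 / 10000)
    (t1 := 259 / 250) (t2 := 259 / 250) (t3 := 2779 / 1000) (t4 := 1) (ρ1 := 797 / 2000) (e := 4187 / 10000)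
    (ρ3 := 9879 / 10000) (ρ4 := 3877 / 5000) hm hκ (by constructor <;> norm_num)
    (d.E_aq (l := 9 / 25) hκ (by norm_num) (by norm_num) nB0874 nC0874) hH

/-- `E φ² ≤ 18071 / 1000 E a` for `Λ² ≤ 101 / 625` -/
theorem PL1616 (d : Dat μ m p n J Λ) (hm : 36 ≤ m) (hκ : Λ ^ 2 ≤ 101 / 625)
    (hH : ∫ x, aa J p n x ∂μ ≤ 1 / 50) :
    ∫ x, ph m J p x ^ 2 ∂μ ≤ 18071 / 1000 * ∫ x, aa J p n x ∂μ :=
  d.P_level (κ := 101 / 625) (A := 223 / 100) (ℓ := 201 / 500) (s := 2093 / 2500) (θ := 1913 / 10000) (lam := 461 / 1000) (w := 111 / 625)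
    (t1 := 731 / 500) (t2 := 731 / 500) (t3 := 1063 / 250) (t4 := 1) (ρ1 := 2249 / 5000) (e := 6577 / 2500)
    (ρ3 := 4939 / 2500) (ρ4 := 187 / 125) hm hκ (by constructor <;> norm_num)
    (d.E_aq (l := 37 / 200) hκ (by norm_num) (by norm_num) nB1616 nC1616) hH

end

end Vale.Agent.P224.R2.H869
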