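import Vale.Agent.P224.R2.H686.PhiF
import Vale.Agent.P224.R2.H686.PhiA

/-!
More levels of `E φ² ≤ c₁ E a` for `Λ² ≤ κ`, all `m ≥ 36` and `E a ≤ 1/50`.
-/

namespace Vale.Agent.P224.R2.H869

open MeasureTheory Module Function Set Vale.Agent.P224.R2.H470 Vale.Agent.P224.R2.H686
open scoped RealInnerProductSpace Topology ContDiff

lemma nB0478 (r : ℝ) (h1 : 1 ≤ r) (h2 : r ^ 2 - 1 ≤ 121 / 100) :
    r ^ 2 - 1 - 121 / 100 ≤ 16 / 25 * (r + 1) ^ 2 * ((r ^ 2 - 1) ^ 2 - 7 * (239 / 5000) * (r ^ 2 - 1)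
      - 6 * (239 / 5000)) := by
  have h3 : r ≤ 1487 / 1000 := by nlinarith
  nlinarith [mul_nonneg (sub_nonneg.2 h1) (sub_nonneg.2 h3), sq_nonneg (r - 59 / 50),
    sq_nonneg ((r - 59 / 50) * r), sq_nonneg ((r - 59 / 50) * (r + 1) * r),
    mul_nonneg (sub_nonneg.2 h1) (sq_nonneg (r - 59 / 50)),
    mul_nonneg (sub_nonneg.2 h1) (sq_nonneg ((r - 59 / 50) * r)),
    mul_nonneg (sub_nonneg.2 h3) (sq_nonneg (r - 59 / 50)),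
    mul_nonneg (sub_nonneg.2 h1) (sq_nonneg ((r - 59 / 50) * (r + 1)))]

lemma nC0478 (r : ℝ) (h1 : 1 ≤ r) (h2 : 121 / 100 ≤ r ^ 2 - 1) :
    r ^ 2 - 1 - 121 / 100 ≤ 16 / 25 * (r - 1) ^ 2 * ((r ^ 2 - 1) ^ 2 - 7 * (239 / 5000) * (r ^ 2 - 1)
      - 6 * (239 / 5000)) := by
  have h3 : 743 / 500 ≤ r := by nlinarith
  obtain ⟨d, hd, rfl⟩ : ∃ d : ℝ, 0 ≤ d ∧ r = 743 / 500 + d := ⟨r - 743 / 500, by linarith, by ring⟩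
  nlinarith [mul_nonneg hd hd, mul_nonneg (mul_nonneg hd hd) hd, sq_nonneg (d - 1 / 5),
    mul_nonneg hd (sq_nonneg (d - 1 / 5)), mul_nonneg (mul_nonneg hd hd) (mul_nonneg hd hd),
    mul_nonneg (mul_nonneg (mul_nonneg hd hd) (mul_nonneg hd hd)) hd,
    mul_nonneg (mul_nonneg (mul_nonneg hd hd) (mul_nonneg hd hd)) (mul_nonneg hd hd)]

lemma nB0677 (r : ℝ) (h1 : 1 ≤ r) (h2 : r ^ 2 - 1 ≤ 141 / 100) :
    r ^ 2 - 1 - 141 / 100 ≤ 23 / 50 * (r + 1) ^ 2 * ((r ^ 2 - 1) ^ 2 - 7 * (677 / 10000) * (r ^ 2 - 1)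
      - 6 * (677 / 10000)) := by
  have h3 : r ≤ 1553 / 1000 := by nlinarith
  nlinarith [mul_nonneg (sub_nonneg.2 h1) (sub_nonneg.2 h3), sq_nonneg (r - 123 / 100),
    sq_nonneg ((r - 123 / 100) * r), sq_nonneg ((r - 123 / 100) * (r + 1) * r),
    mul_nonneg (sub_nonneg.2 h1) (sq_nonneg (r - 123 / 100)),
    mul_nonneg (sub_nonneg.2 h1) (sq_nonneg ((r - 123 / 100) * r)),
    mul_nonneg (sub_nonneg.2 h3) (sq_nonneg (r - 123 / 100)),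
    mul_nonneg (sub_nonneg.2 h1) (sq_nonneg ((r - 123 / 100) * (r + 1)))]

lemma nC0677 (r : ℝ) (h1 : 1 ≤ r) (h2 : 141 / 100 ≤ r ^ 2 - 1) :
    r ^ 2 - 1 - 141 / 100 ≤ 23 / 50 * (r - 1) ^ 2 * ((r ^ 2 - 1) ^ 2 - 7 * (677 / 10000) * (r ^ 2 - 1)
      - 6 * (677 / 10000)) := by
  have h3 : 194 / 125 ≤ r := by nlinarith
  obtain ⟨d, hd, rfl⟩ : ∃ d : ℝ, 0 ≤ d ∧ r = 194 / 125 + d := ⟨r - 194 / 125, by linarith, by ring⟩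
  nlinarith [mul_nonneg hd hd, mul_nonneg (mul_nonneg hd hd) hd, sq_nonneg (d - 1 / 5),
    mul_nonneg hd (sq_nonneg (d - 1 / 5)), mul_nonneg (mul_nonneg hd hd) (mul_nonneg hd hd),
    mul_nonneg (mul_nonneg (mul_nonneg hd hd) (mul_nonneg hd hd)) hd,
    mul_nonneg (mul_nonneg (mul_nonneg hd hd) (mul_nonneg hd hd)) (mul_nonneg hd hd)]

lemma nB0878 (r : ℝ) (h1 : 1 ≤ r) (h2 : r ^ 2 - 1 ≤ 159 / 100) :
    r ^ 2 - 1 - 159 / 100 ≤ 71 / 200 * (r + 1) ^ 2 * ((r ^ 2 - 1) ^ 2 - 7 * (439 / 5000) * (r ^ 2 - 1)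
      - 6 * (439 / 5000)) := by
  have h3 : r ≤ 161 / 100 := by nlinarith
  nlinarith [mul_nonneg (sub_nonneg.2 h1) (sub_nonneg.2 h3), sq_nonneg (r - 129 / 100),
    sq_nonneg ((r - 129 / 100) * r), sq_nonneg ((r - 129 / 100) * (r + 1) * r),
    mul_nonneg (sub_nonneg.2 h1) (sq_nonneg (r - 129 / 100)),
    mul_nonneg (sub_nonneg.2 h1) (sq_nonneg ((r - 129 / 100) * r)),
    mul_nonneg (sub_nonneg.2 h3) (sq_nonneg (r - 129 / 100)),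
    mul_nonneg (sub_nonneg.2 h1) (sq_nonneg ((r - 129 / 100) * (r + 1)))]

lemma nC0878 (r : ℝ) (h1 : 1 ≤ r) (h2 : 159 / 100 ≤ r ^ 2 - 1) :
    r ^ 2 - 1 - 159 / 100 ≤ 71 / 200 * (r - 1) ^ 2 * ((r ^ 2 - 1) ^ 2 - 7 * (439 / 5000) * (r ^ 2 - 1)
      - 6 * (439 / 5000)) := by
  have h3 : 1609 / 1000 ≤ r := by nlinarith
  obtain ⟨d, hd, rfl⟩ : ∃ d : ℝ, 0 ≤ d ∧ r = 1609 / 1000 + d := ⟨r - 1609 / 1000, by linarith, by ring⟩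
  nlinarith [mul_nonneg hd hd, mul_nonneg (mul_nonneg hd hd) hd, sq_nonneg (d - 1 / 5),
    mul_nonneg hd (sq_nonneg (d - 1 / 5)), mul_nonneg (mul_nonneg hd hd) (mul_nonneg hd hd),
    mul_nonneg (mul_nonneg (mul_nonneg hd hd) (mul_nonneg hd hd)) hd,
    mul_nonneg (mul_nonneg (mul_nonneg hd hd) (mul_nonneg hd hd)) (mul_nonneg hd hd)]

lemma nB1106 (r : ℝ) (h1 : 1 ≤ r) (h2 : r ^ 2 - 1 ≤ 9 / 5) :
    r ^ 2 - 1 - 9 / 5 ≤ 7 / 25 * (r + 1) ^ 2 * ((r ^ 2 - 1) ^ 2 - 7 * (553 / 5000) * (r ^ 2 - 1)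
      - 6 * (553 / 5000)) := by
  have h3 : r ≤ 837 / 500 := by nlinarith
  nlinarith [mul_nonneg (sub_nonneg.2 h1) (sub_nonneg.2 h3), sq_nonneg (r - 27 / 20),
    sq_nonneg ((r - 27 / 20) * r), sq_nonneg ((r - 27 / 20) * (r + 1) * r),
    mul_nonneg (sub_nonneg.2 h1) (sq_nonneg (r - 27 / 20)),
    mul_nonneg (sub_nonneg.2 h1) (sq_nonneg ((r - 27 / 20) * r)),
    mul_nonneg (sub_nonneg.2 h3) (sq_nonneg (r - 27 / 20)),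
    mul_nonneg (sub_nonneg.2 h1) (sq_nonneg ((r - 27 / 20) * (r + 1)))]

lemma nC1106 (r : ℝ) (h1 : 1 ≤ r) (h2 : 9 / 5 ≤ r ^ 2 - 1) :
    r ^ 2 - 1 - 9 / 5 ≤ 7 / 25 * (r - 1) ^ 2 * ((r ^ 2 - 1) ^ 2 - 7 * (553 / 5000) * (r ^ 2 - 1)
      - 6 * (553 / 5000)) := by
  have h3 : 1673 / 1000 ≤ r := by nlinarith
  obtain ⟨d, hd, rfl⟩ : ∃ d : ℝ, 0 ≤ d ∧ r = 1673 / 1000 + d := ⟨r - 1673 / 1000, by linarith, by ring⟩
  nlinarith [mul_nonneg hd hd, mul_nonneg (mul_nonneg hd hd) hd, sq_nonneg (d - 1 / 5),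
    mul_nonneg hd (sq_nonneg (d - 1 / 5)), mul_nonneg (mul_nonneg hd hd) (mul_nonneg hd hd),
    mul_nonneg (mul_nonneg (mul_nonneg hd hd) (mul_nonneg hd hd)) hd,
    mul_nonneg (mul_nonneg (mul_nonneg hd hd) (mul_nonneg hd hd)) (mul_nonneg hd hd)]

lemma nB1407 (r : ℝ) (h1 : 1 ≤ r) (h2 : r ^ 2 - 1 ≤ 41 / 20) :
    r ^ 2 - 1 - 41 / 20 ≤ 43 / 200 * (r + 1) ^ 2 * ((r ^ 2 - 1) ^ 2 - 7 * (1407 / 10000) * (r ^ 2 - 1)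
      - 6 * (1407 / 10000)) := by
  have h3 : r ≤ 1747 / 1000 := by nlinarith
  nlinarith [mul_nonneg (sub_nonneg.2 h1) (sub_nonneg.2 h3), sq_nonneg (r - 71 / 50),
    sq_nonneg ((r - 71 / 50) * r), sq_nonneg ((r - 71 / 50) * (r + 1) * r),
    mul_nonneg (sub_nonneg.2 h1) (sq_nonneg (r - 71 / 50)),
    mul_nonneg (sub_nonneg.2 h1) (sq_nonneg ((r - 71 / 50) * r)),
    mul_nonneg (sub_nonneg.2 h3) (sq_nonneg (r - 71 / 50)),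
    mul_nonneg (sub_nonneg.2 h1) (sq_nonneg ((r - 71 / 50) * (r + 1)))]

lemma nC1407 (r : ℝ) (h1 : 1 ≤ r) (h2 : 41 / 20 ≤ r ^ 2 - 1) :
    r ^ 2 - 1 - 41 / 20 ≤ 43 / 200 * (r - 1) ^ 2 * ((r ^ 2 - 1) ^ 2 - 7 * (1407 / 10000) * (r ^ 2 - 1)
      - 6 * (1407 / 10000)) := by
  have h3 : 873 / 500 ≤ r := by nlinarith
  obtain ⟨d, hd, rfl⟩ : ∃ d : ℝ, 0 ≤ d ∧ r = 873 / 500 + d := ⟨r - 873 / 500, by linarith, by ring⟩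
  nlinarith [mul_nonneg hd hd, mul_nonneg (mul_nonneg hd hd) hd, sq_nonneg (d - 1 / 5),
    mul_nonneg hd (sq_nonneg (d - 1 / 5)), mul_nonneg (mul_nonneg hd hd) (mul_nonneg hd hd),
    mul_nonneg (mul_nonneg (mul_nonneg hd hd) (mul_nonneg hd hd)) hd,
    mul_nonneg (mul_nonneg (mul_nonneg hd hd) (mul_nonneg hd hd)) (mul_nonneg hd hd)]

section

variable {X : Type*} {E : Type*} [NormedAddCommGroup E] [InnerProductSpace ℝ E]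
  [FiniteDimensional ℝ E] [TopologicalSpace X] [MeasurableSpace X] [CompactSpace X] [BorelSpace X]
  {μ : Measure X} [IsProbabilityMeasure μ] {m : ℕ} {p n : X → E} {J : E →L[ℝ] E} {Λ : ℝ}

/-- `E φ² ≤ 107 / 25 E a` for `Λ² ≤ 239 / 5000` -/
theorem PL0478 (d : Dat μ m p n J Λ) (hm : 36 ≤ m) (hκ : Λ ^ 2 ≤ 239 / 5000)
    (hH : ∫ x, aa J p n x ∂μ ≤ 1 / 50) :
    ∫ x, ph m J p x ^ 2 ∂μ ≤ 107 / 25 * ∫ x, aa J p n x ∂μ :=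
  d.P_level (κ := 239 / 5000) (A := 121 / 100) (ℓ := 2187 / 10000) (s := 4937 / 10000) (θ := 849 / 10000) (lam := 157 / 500) (w := 197 / 2500)
    (t1 := 102 / 125) (t2 := 281 / 250) (t3 := 529 / 125) (t4 := 493 / 1000) (ρ1 := 2819 / 10000) (e := 0)
    (ρ3 := 4683 / 10000) (ρ4 := 4999 / 10000) hm hκ (by constructor <;> norm_num)
    (d.E_aq (l := 16 / 25) hκ (by norm_num) (by norm_num) nB0478 nC0478) hH

/-- `E φ² ≤ 5687 / 1000 E a` for `Λ² ≤ 677 / 10000` -/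
theorem PL0677 (d : Dat μ m p n J Λ) (hm : 36 ≤ m) (hκ : Λ ^ 2 ≤ 677 / 10000)
    (hH : ∫ x, aa J p n x ∂μ ≤ 1 / 50) :
    ∫ x, ph m J p x ^ 2 ∂μ ≤ 5687 / 1000 * ∫ x, aa J p n x ∂μ :=
  d.P_level (κ := 677 / 10000) (A := 141 / 100) (ℓ := 1301 / 5000) (s := 1423 / 2500) (θ := 1273 / 10000) (lam := 32 / 125) (w := 1181 / 10000)
    (t1 := 913 / 1000) (t2 := 969 / 1000) (t3 := 2663 / 1000) (t4 := 899 / 1000) (ρ1 := 3669 / 10000) (e := 0)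
    (ρ3 := 1833 / 2500) (ρ4 := 1537 / 2500) hm hκ (by constructor <;> norm_num)
    (d.E_aq (l := 23 / 50) hκ (by norm_num) (by norm_num) nB0677 nC0677) hH

/-- `E φ² ≤ 3877 / 500 E a` for `Λ² ≤ 439 / 5000` -/
theorem PL0878 (d : Dat μ m p n J Λ) (hm : 36 ≤ m) (hκ : Λ ^ 2 ≤ 439 / 5000)
    (hH : ∫ x, aa J p n x ∂μ ≤ 1 / 50) :
    ∫ x, ph m J p x ^ 2 ∂μ ≤ 3877 / 500 * ∫ x, aa J p n x ∂μ :=
  d.P_level (κ := 439 / 5000) (A := 159 / 100) (ℓ := 741 / 2500) (s := 1591 / 2500) (θ := 733 / 5000) (lam := 73 / 250) (w := 1361 / 10000)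
    (t1 := 1039 / 1000) (t2 := 1039 / 1000) (t3 := 348 / 125) (t4 := 1) (ρ1 := 3987 / 10000) (e := 429 / 1000)
    (ρ3 := 4967 / 5000) (ρ4 := 1949 / 2500) hm hκ (by constructor <;> norm_num)
    (d.E_aq (l := 71 / 200) hκ (by norm_num) (by norm_num) nB0878 nC0878) hH

/-- `E φ² ≤ 1309 / 125 E a` for `Λ² ≤ 553 / 5000` -/
theorem PL1106 (d : Dat μ m p n J Λ) (hm : 36 ≤ m) (hκ : Λ ^ 2 ≤ 553 / 5000)
    (hH : ∫ x, aa J p n x ∂μ ≤ 1 / 50) :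
    ∫ x, ph m J p x ^ 2 ∂μ ≤ 1309 / 125 * ∫ x, aa J p n x ∂μ :=
  d.P_level (κ := 553 / 5000) (A := 9 / 5) (ℓ := 1663 / 5000) (s := 3523 / 5000) (θ := 1609 / 10000) (lam := 7 / 20) (w := 1493 / 10000)
    (t1 := 587 / 500) (t2 := 587 / 500) (t3 := 809 / 250) (t4 := 1) (ρ1 := 4161 / 10000) (e := 5301 / 5000)
    (ρ3 := 12771 / 10000) (ρ4 := 9871 / 10000) hm hκ (by constructor <;> norm_num)
    (d.E_aq (l := 7 / 25) hκ (by norm_num) (by norm_num) nB1106 nC1106) hH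

/-- `E φ² ≤ 7329 / 500 E a` for `Λ² ≤ 1407 / 10000` -/
theorem PL1407 (d : Dat μ m p n J Λ) (hm : 36 ≤ m) (hκ : Λ ^ 2 ≤ 1407 / 10000)
    (hH : ∫ x, aa J p n x ∂μ ≤ 1 / 50) :
    ∫ x, ph m J p x ^ 2 ∂μ ≤ 7329 / 500 * ∫ x, aa J p n x ∂μ :=
  d.P_level (κ := 1407 / 10000) (A := 41 / 20) (ℓ := 3751 / 10000) (s := 491 / 625) (θ := 1791 / 10000) (lam := 209 / 500) (w := 831 / 5000)
    (t1 := 269 / 200) (t2 := 269 / 200) (t3 := 3829 / 1000) (t4 := 1) (ρ1 := 4367 / 10000) (e := 489 / 250)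
    (ρ3 := 839 / 500) (ρ4 := 12793 / 10000) hm hκ (by constructor <;> norm_num)
    (d.E_aq (l := 43 / 200) hκ (by norm_num) (by norm_num) nB1407 nC1407) hH

end

end Vale.Agent.P224.R2.H869
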