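import Vale.Agent.P224.R2.H686.PhiF
import Vale.Agent.P224.R2.H686.PhiA

/-!
More levels of `E φ² ≤ c₁ E a` for `Λ² ≤ κ`, all `m ≥ 36` and `E a ≤ 1/50`.
-/

namespace Vale.Agent.P224.R2.H869

open MeasureTheory Module Function Set Vale.Agent.P224.R2.H470 Vale.Agent.P224.R2.H686
open scoped RealInnerProductSpace Topology ContDiff

lemma nB0503 (r : ℝ) (h1 : 1 ≤ r) (h2 : r ^ 2 - 1 ≤ 123 / 100) :
    r ^ 2 - 1 - 123 / 100 ≤ 61 / 100 * (r + 1) ^ 2 * ((r ^ 2 - 1) ^ 2 - 7 * (503 / 10000) * (r ^ 2 - 1)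
      - 6 * (503 / 10000)) := by
  have h3 : r ≤ 747 / 500 := by nlinarith
  nlinarith [mul_nonneg (sub_nonneg.2 h1) (sub_nonneg.2 h3), sq_nonneg (r - 59 / 50),
    sq_nonneg ((r - 59 / 50) * r), sq_nonneg ((r - 59 / 50) * (r + 1) * r),
    mul_nonneg (sub_nonneg.2 h1) (sq_nonneg (r - 59 / 50)),
    mul_nonneg (sub_nonneg.2 h1) (sq_nonneg ((r - 59 / 50) * r)),
    mul_nonneg (sub_nonneg.2 h3) (sq_nonneg (r - 59 / 50)),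
    mul_nonneg (sub_nonneg.2 h1) (sq_nonneg ((r - 59 / 50) * (r + 1)))]

lemma nC0503 (r : ℝ) (h1 : 1 ≤ r) (h2 : 123 / 100 ≤ r ^ 2 - 1) :
    r ^ 2 - 1 - 123 / 100 ≤ 61 / 100 * (r - 1) ^ 2 * ((r ^ 2 - 1) ^ 2 - 7 * (503 / 10000) * (r ^ 2 - 1)
      - 6 * (503 / 10000)) := by
  have h3 : 1493 / 1000 ≤ r := by nlinarith
  obtain ⟨d, hd, rfl⟩ : ∃ d : ℝ, 0 ≤ d ∧ r = 1493 / 1000 + d := ⟨r - 1493 / 1000, by linarith, by ring⟩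
  nlinarith [mul_nonneg hd hd, mul_nonneg (mul_nonneg hd hd) hd, sq_nonneg (d - 1 / 5),
    mul_nonneg hd (sq_nonneg (d - 1 / 5)), mul_nonneg (mul_nonneg hd hd) (mul_nonneg hd hd),
    mul_nonneg (mul_nonneg (mul_nonneg hd hd) (mul_nonneg hd hd)) hd,
    mul_nonneg (mul_nonneg (mul_nonneg hd hd) (mul_nonneg hd hd)) (mul_nonneg hd hd)]

lemma nB0708 (r : ℝ) (h1 : 1 ≤ r) (h2 : r ^ 2 - 1 ≤ 36 / 25) :
    r ^ 2 - 1 - 36 / 25 ≤ 11 / 25 * (r + 1) ^ 2 * ((r ^ 2 - 1) ^ 2 - 7 * (177 / 2500) * (r ^ 2 - 1)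
      - 6 * (177 / 2500)) := by
  have h3 : r ≤ 1563 / 1000 := by nlinarith
  nlinarith [mul_nonneg (sub_nonneg.2 h1) (sub_nonneg.2 h3), sq_nonneg (r - 31 / 25),
    sq_nonneg ((r - 31 / 25) * r), sq_nonneg ((r - 31 / 25) * (r + 1) * r),
    mul_nonneg (sub_nonneg.2 h1) (sq_nonneg (r - 31 / 25)),
    mul_nonneg (sub_nonneg.2 h1) (sq_nonneg ((r - 31 / 25) * r)),
    mul_nonneg (sub_nonneg.2 h3) (sq_nonneg (r - 31 / 25)),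
    mul_nonneg (sub_nonneg.2 h1) (sq_nonneg ((r - 31 / 25) * (r + 1)))]

lemma nC0708 (r : ℝ) (h1 : 1 ≤ r) (h2 : 36 / 25 ≤ r ^ 2 - 1) :
    r ^ 2 - 1 - 36 / 25 ≤ 11 / 25 * (r - 1) ^ 2 * ((r ^ 2 - 1) ^ 2 - 7 * (177 / 2500) * (r ^ 2 - 1)
      - 6 * (177 / 2500)) := by
  have h3 : 781 / 500 ≤ r := by nlinarith
  obtain ⟨d, hd, rfl⟩ : ∃ d : ℝ, 0 ≤ d ∧ r = 781 / 500 + d := ⟨r - 781 / 500, by linarith, by ring⟩
  nlinarith [mul_nonneg hd hd, mul_nonneg (mul_nonneg hd hd) hd, sq_nonneg (d - 1 / 5),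
    mul_nonneg hd (sq_nonneg (d - 1 / 5)), mul_nonneg (mul_nonneg hd hd) (mul_nonneg hd hd),
    mul_nonneg (mul_nonneg (mul_nonneg hd hd) (mul_nonneg hd hd)) hd,
    mul_nonneg (mul_nonneg (mul_nonneg hd hd) (mul_nonneg hd hd)) (mul_nonneg hd hd)]

lemma nB0935 (r : ℝ) (h1 : 1 ≤ r) (h2 : r ^ 2 - 1 ≤ 33 / 20) :
    r ^ 2 - 1 - 33 / 20 ≤ 67 / 200 * (r + 1) ^ 2 * ((r ^ 2 - 1) ^ 2 - 7 * (187 / 2000) * (r ^ 2 - 1)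
      - 6 * (187 / 2000)) := by
  have h3 : r ≤ 407 / 250 := by nlinarith
  nlinarith [mul_nonneg (sub_nonneg.2 h1) (sub_nonneg.2 h3), sq_nonneg (r - 13 / 10),
    sq_nonneg ((r - 13 / 10) * r), sq_nonneg ((r - 13 / 10) * (r + 1) * r),
    mul_nonneg (sub_nonneg.2 h1) (sq_nonneg (r - 13 / 10)),
    mul_nonneg (sub_nonneg.2 h1) (sq_nonneg ((r - 13 / 10) * r)),
    mul_nonneg (sub_nonneg.2 h3) (sq_nonneg (r - 13 / 10)),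
    mul_nonneg (sub_nonneg.2 h1) (sq_nonneg ((r - 13 / 10) * (r + 1)))]

lemma nC0935 (r : ℝ) (h1 : 1 ≤ r) (h2 : 33 / 20 ≤ r ^ 2 - 1) :
    r ^ 2 - 1 - 33 / 20 ≤ 67 / 200 * (r - 1) ^ 2 * ((r ^ 2 - 1) ^ 2 - 7 * (187 / 2000) * (r ^ 2 - 1)
      - 6 * (187 / 2000)) := by
  have h3 : 1627 / 1000 ≤ r := by nlinarith
  obtain ⟨d, hd, rfl⟩ : ∃ d : ℝ, 0 ≤ d ∧ r = 1627 / 1000 + d := ⟨r - 1627 / 1000, by linarith, by ring⟩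
  nlinarith [mul_nonneg hd hd, mul_nonneg (mul_nonneg hd hd) hd, sq_nonneg (d - 1 / 5),
    mul_nonneg hd (sq_nonneg (d - 1 / 5)), mul_nonneg (mul_nonneg hd hd) (mul_nonneg hd hd),
    mul_nonneg (mul_nonneg (mul_nonneg hd hd) (mul_nonneg hd hd)) hd,
    mul_nonneg (mul_nonneg (mul_nonneg hd hd) (mul_nonneg hd hd)) (mul_nonneg hd hd)]

lemma nB1149 (r : ℝ) (h1 : 1 ≤ r) (h2 : r ^ 2 - 1 ≤ 46 / 25) :
    r ^ 2 - 1 - 46 / 25 ≤ 27 / 100 * (r + 1) ^ 2 * ((r ^ 2 - 1) ^ 2 - 7 * (1149 / 10000) * (r ^ 2 - 1)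
      - 6 * (1149 / 10000)) := by
  have h3 : r ≤ 843 / 500 := by nlinarith
  nlinarith [mul_nonneg (sub_nonneg.2 h1) (sub_nonneg.2 h3), sq_nonneg (r - 34 / 25),
    sq_nonneg ((r - 34 / 25) * r), sq_nonneg ((r - 34 / 25) * (r + 1) * r),
    mul_nonneg (sub_nonneg.2 h1) (sq_nonneg (r - 34 / 25)),
    mul_nonneg (sub_nonneg.2 h1) (sq_nonneg ((r - 34 / 25) * r)),
    mul_nonneg (sub_nonneg.2 h3) (sq_nonneg (r - 34 / 25)),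
    mul_nonneg (sub_nonneg.2 h1) (sq_nonneg ((r - 34 / 25) * (r + 1)))]

lemma nC1149 (r : ℝ) (h1 : 1 ≤ r) (h2 : 46 / 25 ≤ r ^ 2 - 1) :
    r ^ 2 - 1 - 46 / 25 ≤ 27 / 100 * (r - 1) ^ 2 * ((r ^ 2 - 1) ^ 2 - 7 * (1149 / 10000) * (r ^ 2 - 1)
      - 6 * (1149 / 10000)) := by
  have h3 : 337 / 200 ≤ r := by nlinarith
  obtain ⟨d, hd, rfl⟩ : ∃ d : ℝ, 0 ≤ d ∧ r = 337 / 200 + d := ⟨r - 337 / 200, by linarith, by ring⟩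
  nlinarith [mul_nonneg hd hd, mul_nonneg (mul_nonneg hd hd) hd, sq_nonneg (d - 1 / 5),
    mul_nonneg hd (sq_nonneg (d - 1 / 5)), mul_nonneg (mul_nonneg hd hd) (mul_nonneg hd hd),
    mul_nonneg (mul_nonneg (mul_nonneg hd hd) (mul_nonneg hd hd)) hd,
    mul_nonneg (mul_nonneg (mul_nonneg hd hd) (mul_nonneg hd hd)) (mul_nonneg hd hd)]

lemma nB1414 (r : ℝ) (h1 : 1 ≤ r) (h2 : r ^ 2 - 1 ≤ 41 / 20) :
    r ^ 2 - 1 - 41 / 20 ≤ 213 / 1000 * (r + 1) ^ 2 * ((r ^ 2 - 1) ^ 2 - 7 * (707 / 5000) * (r ^ 2 - 1)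
      - 6 * (707 / 5000)) := by
  have h3 : r ≤ 1747 / 1000 := by nlinarith
  nlinarith [mul_nonneg (sub_nonneg.2 h1) (sub_nonneg.2 h3), sq_nonneg (r - 71 / 50),
    sq_nonneg ((r - 71 / 50) * r), sq_nonneg ((r - 71 / 50) * (r + 1) * r),
    mul_nonneg (sub_nonneg.2 h1) (sq_nonneg (r - 71 / 50)),
    mul_nonneg (sub_nonneg.2 h1) (sq_nonneg ((r - 71 / 50) * r)),
    mul_nonneg (sub_nonneg.2 h3) (sq_nonneg (r - 71 / 50)),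
    mul_nonneg (sub_nonneg.2 h1) (sq_nonneg ((r - 71 / 50) * (r + 1)))]

lemma nC1414 (r : ℝ) (h1 : 1 ≤ r) (h2 : 41 / 20 ≤ r ^ 2 - 1) :
    r ^ 2 - 1 - 41 / 20 ≤ 213 / 1000 * (r - 1) ^ 2 * ((r ^ 2 - 1) ^ 2 - 7 * (707 / 5000) * (r ^ 2 - 1)
      - 6 * (707 / 5000)) := by
  have h3 : 873 / 500 ≤ r := by nlinarith
  obtain ⟨d, hd, rfl⟩ : ∃ d : ℝ, 0 ≤ d ∧ r = 873 / 500 + d := ⟨r - 873 / 500, by linarith, by ring⟩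
  nlinarith [mul_nonneg hd hd, mul_nonneg (mul_nonneg hd hd) hd, sq_nonneg (d - 1 / 5),
    mul_nonneg hd (sq_nonneg (d - 1 / 5)), mul_nonneg (mul_nonneg hd hd) (mul_nonneg hd hd),
    mul_nonneg (mul_nonneg (mul_nonneg hd hd) (mul_nonneg hd hd)) hd,
    mul_nonneg (mul_nonneg (mul_nonneg hd hd) (mul_nonneg hd hd)) (mul_nonneg hd hd)]

section

variable {X : Type*} {E : Type*} [NormedAddCommGroup E] [InnerProductSpace ℝ E]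
  [FiniteDimensional ℝ E] [TopologicalSpace X] [MeasurableSpace X] [CompactSpace X] [BorelSpace X]
  {μ : Measure X} [IsProbabilityMeasure μ] {m : ℕ} {p n : X → E} {J : E →L[ℝ] E} {Λ : ℝ}

/-- `E φ² ≤ 221 / 50 E a` for `Λ² ≤ 503 / 10000` -/
theorem PL0503 (d : Dat μ m p n J Λ) (hm : 36 ≤ m) (hκ : Λ ^ 2 ≤ 503 / 10000)
    (hH : ∫ x, aa J p n x ∂μ ≤ 1 / 50) :
    ∫ x, ph m J p x ^ 2 ∂μ ≤ 221 / 50 * ∫ x, aa J p n x ∂μ :=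
  d.P_level (κ := 503 / 10000) (A := 123 / 100) (ℓ := 2243 / 10000) (s := 2519 / 5000) (θ := 903 / 10000) (lam := 307 / 1000) (w := 419 / 5000)
    (t1 := 827 / 1000) (t2 := 277 / 250) (t3 := 789 / 200) (t4 := 267 / 500) (ρ1 := 729 / 2500) (e := 1 / 2500)
    (ρ3 := 2481 / 5000) (ρ4 := 1289 / 2500) hm hκ (by constructor <;> norm_num)
    (d.E_aq (l := 61 / 100) hκ (by norm_num) (by norm_num) nB0503 nC0503) hH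

/-- `E φ² ≤ 2989 / 500 E a` for `Λ² ≤ 177 / 2500` -/
theorem PL0708 (d : Dat μ m p n J Λ) (hm : 36 ≤ m) (hκ : Λ ^ 2 ≤ 177 / 2500)
    (hH : ∫ x, aa J p n x ∂μ ≤ 1 / 50) :
    ∫ x, ph m J p x ^ 2 ∂μ ≤ 2989 / 500 * ∫ x, aa J p n x ∂μ :=
  d.P_level (κ := 177 / 2500) (A := 36 / 25) (ℓ := 2661 / 10000) (s := 5801 / 10000) (θ := 1339 / 10000) (lam := 249 / 1000) (w := 1243 / 10000)
    (t1 := 233 / 250) (t2 := 471 / 500) (t3 := 311 / 125) (t4 := 491 / 500) (ρ1 := 1907 / 5000) (e := 1 / 2000)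
    (ρ3 := 1573 / 2000) (ρ4 := 6323 / 10000) hm hκ (by constructor <;> norm_num)
    (d.E_aq (l := 11 / 25) hκ (by norm_num) (by norm_num) nB0708 nC0708) hH

/-- `E φ² ≤ 1681 / 200 E a` for `Λ² ≤ 187 / 2000` -/
theorem PL0935 (d : Dat μ m p n J Λ) (hm : 36 ≤ m) (hκ : Λ ^ 2 ≤ 187 / 2000)
    (hH : ∫ x, aa J p n x ∂μ ≤ 1 / 50) :
    ∫ x, ph m J p x ^ 2 ∂μ ≤ 1681 / 200 * ∫ x, aa J p n x ∂μ :=
  d.P_level (κ := 187 / 2000) (A := 33 / 20) (ℓ := 1529 / 5000) (s := 6541 / 10000) (θ := 751 / 5000) (lam := 307 / 1000) (w := 697 / 5000)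
    (t1 := 1073 / 1000) (t2 := 1073 / 1000) (t3 := 2899 / 1000) (t4 := 1) (ρ1 := 4033 / 10000) (e := 5831 / 10000)
    (ρ3 := 10623 / 10000) (ρ4 := 83 / 100) hm hκ (by constructor <;> norm_num)
    (d.E_aq (l := 67 / 200) hκ (by norm_num) (by norm_num) nB0935 nC0935) hH

/-- `E φ² ≤ 1103 / 100 E a` for `Λ² ≤ 1149 / 10000` -/
theorem PL1149 (d : Dat μ m p n J Λ) (hm : 36 ≤ m) (hκ : Λ ^ 2 ≤ 1149 / 10000)
    (hH : ∫ x, aa J p n x ∂μ ≤ 1 / 50) :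
    ∫ x, ph m J p x ^ 2 ∂μ ≤ 1103 / 100 * ∫ x, aa J p n x ∂μ :=
  d.P_level (κ := 1149 / 10000) (A := 46 / 25) (ℓ := 339 / 1000) (s := 448 / 625) (θ := 327 / 2000) (lam := 9 / 25) (w := 1517 / 10000)
    (t1 := 599 / 500) (t2 := 599 / 500) (t3 := 3321 / 1000) (t4 := 1) (ρ1 := 2097 / 5000) (e := 473 / 400)
    (ρ3 := 6659 / 5000) (ρ4 := 2567 / 2500) hm hκ (by constructor <;> norm_num)
    (d.E_aq (l := 27 / 100) hκ (by norm_num) (by norm_num) nB1149 nC1149) hH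

/-- `E φ² ≤ 2951 / 200 E a` for `Λ² ≤ 707 / 5000` -/
theorem PL1414 (d : Dat μ m p n J Λ) (hm : 36 ≤ m) (hκ : Λ ^ 2 ≤ 707 / 5000)
    (hH : ∫ x, aa J p n x ∂μ ≤ 1 / 50) :
    ∫ x, ph m J p x ^ 2 ∂μ ≤ 2951 / 200 * ∫ x, aa J p n x ∂μ :=
  d.P_level (κ := 707 / 5000) (A := 41 / 20) (ℓ := 3761 / 10000) (s := 63 / 80) (θ := 359 / 2000) (lam := 419 / 1000) (w := 833 / 5000)
    (t1 := 27 / 20) (t2 := 27 / 20) (t3 := 3841 / 1000) (t4 := 1) (ρ1 := 4371 / 10000) (e := 1977 / 1000)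
    (ρ3 := 1689 / 1000) (ρ4 := 103 / 80) hm hκ (by constructor <;> norm_num)
    (d.E_aq (l := 213 / 1000) hκ (by norm_num) (by norm_num) nB1414 nC1414) hH

end

end Vale.Agent.P224.R2.H869
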