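import Vale.Agent.P224.R2.H686.PhiF
import Vale.Agent.P224.R2.H686.PhiA

/-!
More levels of `E φ² ≤ c₁ E a` for `Λ² ≤ κ`, all `m ≥ 36` and `E a ≤ 1/50`.
-/

namespace Vale.Agent.P224.R2.H869

open MeasureTheory Module Function Set Vale.Agent.P224.R2.H470 Vale.Agent.P224.R2.H686
open scoped RealInnerProductSpace Topology ContDiff

lemma nB0304 (r : ℝ) (h1 : 1 ≤ r) (h2 : r ^ 2 - 1 ≤ 1) :
    r ^ 2 - 1 - 1 ≤ 19 / 20 * (r + 1) ^ 2 * ((r ^ 2 - 1) ^ 2 - 7 * (19 / 625) * (r ^ 2 - 1)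
      - 6 * (19 / 625)) := by
  have h3 : r ≤ 283 / 200 := by nlinarith
  nlinarith [mul_nonneg (sub_nonneg.2 h1) (sub_nonneg.2 h3), sq_nonneg (r - 28 / 25),
    sq_nonneg ((r - 28 / 25) * r), sq_nonneg ((r - 28 / 25) * (r + 1) * r),
    mul_nonneg (sub_nonneg.2 h1) (sq_nonneg (r - 28 / 25)),
    mul_nonneg (sub_nonneg.2 h1) (sq_nonneg ((r - 28 / 25) * r)),
    mul_nonneg (sub_nonneg.2 h3) (sq_nonneg (r - 28 / 25)),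
    mul_nonneg (sub_nonneg.2 h1) (sq_nonneg ((r - 28 / 25) * (r + 1)))]

lemma nC0304 (r : ℝ) (h1 : 1 ≤ r) (h2 : 1 ≤ r ^ 2 - 1) :
    r ^ 2 - 1 - 1 ≤ 19 / 20 * (r - 1) ^ 2 * ((r ^ 2 - 1) ^ 2 - 7 * (19 / 625) * (r ^ 2 - 1)
      - 6 * (19 / 625)) := by
  have h3 : 707 / 500 ≤ r := by nlinarith
  obtain ⟨d, hd, rfl⟩ : ∃ d : ℝ, 0 ≤ d ∧ r = 707 / 500 + d := ⟨r - 707 / 500, by linarith, by ring⟩
  nlinarith [mul_nonneg hd hd, mul_nonneg (mul_nonneg hd hd) hd, sq_nonneg (d - 1 / 5),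
    mul_nonneg hd (sq_nonneg (d - 1 / 5)), mul_nonneg (mul_nonneg hd hd) (mul_nonneg hd hd),
    mul_nonneg (mul_nonneg (mul_nonneg hd hd) (mul_nonneg hd hd)) hd,
    mul_nonneg (mul_nonneg (mul_nonneg hd hd) (mul_nonneg hd hd)) (mul_nonneg hd hd)]

lemma nB072 (r : ℝ) (h1 : 1 ≤ r) (h2 : r ^ 2 - 1 ≤ 29 / 20) :
    r ^ 2 - 1 - 29 / 20 ≤ 43 / 100 * (r + 1) ^ 2 * ((r ^ 2 - 1) ^ 2 - 7 * (9 / 125) * (r ^ 2 - 1)
      - 6 * (9 / 125)) := by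
  have h3 : r ≤ 783 / 500 := by nlinarith
  nlinarith [mul_nonneg (sub_nonneg.2 h1) (sub_nonneg.2 h3), sq_nonneg (r - 5 / 4),
    sq_nonneg ((r - 5 / 4) * r), sq_nonneg ((r - 5 / 4) * (r + 1) * r),
    mul_nonneg (sub_nonneg.2 h1) (sq_nonneg (r - 5 / 4)),
    mul_nonneg (sub_nonneg.2 h1) (sq_nonneg ((r - 5 / 4) * r)),
    mul_nonneg (sub_nonneg.2 h3) (sq_nonneg (r - 5 / 4)),
    mul_nonneg (sub_nonneg.2 h1) (sq_nonneg ((r - 5 / 4) * (r + 1)))]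

lemma nC072 (r : ℝ) (h1 : 1 ≤ r) (h2 : 29 / 20 ≤ r ^ 2 - 1) :
    r ^ 2 - 1 - 29 / 20 ≤ 43 / 100 * (r - 1) ^ 2 * ((r ^ 2 - 1) ^ 2 - 7 * (9 / 125) * (r ^ 2 - 1)
      - 6 * (9 / 125)) := by
  have h3 : 313 / 200 ≤ r := by nlinarith
  obtain ⟨d, hd, rfl⟩ : ∃ d : ℝ, 0 ≤ d ∧ r = 313 / 200 + d := ⟨r - 313 / 200, by linarith, by ring⟩
  nlinarith [mul_nonneg hd hd, mul_nonneg (mul_nonneg hd hd) hd, sq_nonneg (d - 1 / 5),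
    mul_nonneg hd (sq_nonneg (d - 1 / 5)), mul_nonneg (mul_nonneg hd hd) (mul_nonneg hd hd),
    mul_nonneg (mul_nonneg (mul_nonneg hd hd) (mul_nonneg hd hd)) hd,
    mul_nonneg (mul_nonneg (mul_nonneg hd hd) (mul_nonneg hd hd)) (mul_nonneg hd hd)]

lemma nB1207 (r : ℝ) (h1 : 1 ≤ r) (h2 : r ^ 2 - 1 ≤ 47 / 25) :
    r ^ 2 - 1 - 47 / 25 ≤ 127 / 500 * (r + 1) ^ 2 * ((r ^ 2 - 1) ^ 2 - 7 * (1207 / 10000) * (r ^ 2 - 1)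
      - 6 * (1207 / 10000)) := by
  have h3 : r ≤ 849 / 500 := by nlinarith
  nlinarith [mul_nonneg (sub_nonneg.2 h1) (sub_nonneg.2 h3), sq_nonneg (r - 137 / 100),
    sq_nonneg ((r - 137 / 100) * r), sq_nonneg ((r - 137 / 100) * (r + 1) * r),
    mul_nonneg (sub_nonneg.2 h1) (sq_nonneg (r - 137 / 100)),
    mul_nonneg (sub_nonneg.2 h1) (sq_nonneg ((r - 137 / 100) * r)),
    mul_nonneg (sub_nonneg.2 h3) (sq_nonneg (r - 137 / 100)),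
    mul_nonneg (sub_nonneg.2 h1) (sq_nonneg ((r - 137 / 100) * (r + 1)))]

lemma nC1207 (r : ℝ) (h1 : 1 ≤ r) (h2 : 47 / 25 ≤ r ^ 2 - 1) :
    r ^ 2 - 1 - 47 / 25 ≤ 127 / 500 * (r - 1) ^ 2 * ((r ^ 2 - 1) ^ 2 - 7 * (1207 / 10000) * (r ^ 2 - 1)
      - 6 * (1207 / 10000)) := by
  have h3 : 1697 / 1000 ≤ r := by nlinarith
  obtain ⟨d, hd, rfl⟩ : ∃ d : ℝ, 0 ≤ d ∧ r = 1697 / 1000 + d := ⟨r - 1697 / 1000, by linarith, by ring⟩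
  nlinarith [mul_nonneg hd hd, mul_nonneg (mul_nonneg hd hd) hd, sq_nonneg (d - 1 / 5),
    mul_nonneg hd (sq_nonneg (d - 1 / 5)), mul_nonneg (mul_nonneg hd hd) (mul_nonneg hd hd),
    mul_nonneg (mul_nonneg (mul_nonneg hd hd) (mul_nonneg hd hd)) hd,
    mul_nonneg (mul_nonneg (mul_nonneg hd hd) (mul_nonneg hd hd)) (mul_nonneg hd hd)]

lemma nB1408 (r : ℝ) (h1 : 1 ≤ r) (h2 : r ^ 2 - 1 ≤ 41 / 20) :
    r ^ 2 - 1 - 41 / 20 ≤ 43 / 200 * (r + 1) ^ 2 * ((r ^ 2 - 1) ^ 2 - 7 * (88 / 625) * (r ^ 2 - 1)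
      - 6 * (88 / 625)) := by
  have h3 : r ≤ 1747 / 1000 := by nlinarith
  nlinarith [mul_nonneg (sub_nonneg.2 h1) (sub_nonneg.2 h3), sq_nonneg (r - 71 / 50),
    sq_nonneg ((r - 71 / 50) * r), sq_nonneg ((r - 71 / 50) * (r + 1) * r),
    mul_nonneg (sub_nonneg.2 h1) (sq_nonneg (r - 71 / 50)),
    mul_nonneg (sub_nonneg.2 h1) (sq_nonneg ((r - 71 / 50) * r)),
    mul_nonneg (sub_nonneg.2 h3) (sq_nonneg (r - 71 / 50)),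
    mul_nonneg (sub_nonneg.2 h1) (sq_nonneg ((r - 71 / 50) * (r + 1)))]

lemma nC1408 (r : ℝ) (h1 : 1 ≤ r) (h2 : 41 / 20 ≤ r ^ 2 - 1) :
    r ^ 2 - 1 - 41 / 20 ≤ 43 / 200 * (r - 1) ^ 2 * ((r ^ 2 - 1) ^ 2 - 7 * (88 / 625) * (r ^ 2 - 1)
      - 6 * (88 / 625)) := by
  have h3 : 873 / 500 ≤ r := by nlinarith
  obtain ⟨d, hd, rfl⟩ : ∃ d : ℝ, 0 ≤ d ∧ r = 873 / 500 + d := ⟨r - 873 / 500, by linarith, by ring⟩
  nlinarith [mul_nonneg hd hd, mul_nonneg (mul_nonneg hd hd) hd, sq_nonneg (d - 1 / 5),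
    mul_nonneg hd (sq_nonneg (d - 1 / 5)), mul_nonneg (mul_nonneg hd hd) (mul_nonneg hd hd),
    mul_nonneg (mul_nonneg (mul_nonneg hd hd) (mul_nonneg hd hd)) hd,
    mul_nonneg (mul_nonneg (mul_nonneg hd hd) (mul_nonneg hd hd)) (mul_nonneg hd hd)]

lemma nB1609 (r : ℝ) (h1 : 1 ≤ r) (h2 : r ^ 2 - 1 ≤ 221 / 100) :
    r ^ 2 - 1 - 221 / 100 ≤ 23 / 125 * (r + 1) ^ 2 * ((r ^ 2 - 1) ^ 2 - 7 * (1609 / 10000) * (r ^ 2 - 1)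
      - 6 * (1609 / 10000)) := by
  have h3 : r ≤ 224 / 125 := by nlinarith
  nlinarith [mul_nonneg (sub_nonneg.2 h1) (sub_nonneg.2 h3), sq_nonneg (r - 73 / 50),
    sq_nonneg ((r - 73 / 50) * r), sq_nonneg ((r - 73 / 50) * (r + 1) * r),
    mul_nonneg (sub_nonneg.2 h1) (sq_nonneg (r - 73 / 50)),
    mul_nonneg (sub_nonneg.2 h1) (sq_nonneg ((r - 73 / 50) * r)),
    mul_nonneg (sub_nonneg.2 h3) (sq_nonneg (r - 73 / 50)),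
    mul_nonneg (sub_nonneg.2 h1) (sq_nonneg ((r - 73 / 50) * (r + 1)))]

lemma nC1609 (r : ℝ) (h1 : 1 ≤ r) (h2 : 221 / 100 ≤ r ^ 2 - 1) :
    r ^ 2 - 1 - 221 / 100 ≤ 23 / 125 * (r - 1) ^ 2 * ((r ^ 2 - 1) ^ 2 - 7 * (1609 / 10000) * (r ^ 2 - 1)
      - 6 * (1609 / 10000)) := by
  have h3 : 1791 / 1000 ≤ r := by nlinarith
  obtain ⟨d, hd, rfl⟩ : ∃ d : ℝ, 0 ≤ d ∧ r = 1791 / 1000 + d := ⟨r - 1791 / 1000, by linarith, by ring⟩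
  nlinarith [mul_nonneg hd hd, mul_nonneg (mul_nonneg hd hd) hd, sq_nonneg (d - 1 / 5),
    mul_nonneg hd (sq_nonneg (d - 1 / 5)), mul_nonneg (mul_nonneg hd hd) (mul_nonneg hd hd),
    mul_nonneg (mul_nonneg (mul_nonneg hd hd) (mul_nonneg hd hd)) hd,
    mul_nonneg (mul_nonneg (mul_nonneg hd hd) (mul_nonneg hd hd)) (mul_nonneg hd hd)]

section

variable {X : Type*} {E : Type*} [NormedAddCommGroup E] [InnerProductSpace ℝ E]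
  [FiniteDimensional ℝ E] [TopologicalSpace X] [MeasurableSpace X] [CompactSpace X] [BorelSpace X]
  {μ : Measure X} [IsProbabilityMeasure μ] {m : ℕ} {p n : X → E} {J : E →L[ℝ] E} {Λ : ℝ}

/-- `E φ² ≤ 171 / 50 E a` for `Λ² ≤ 19 / 625` -/
theorem PL0304 (d : Dat μ m p n J Λ) (hm : 36 ≤ m) (hκ : Λ ^ 2 ≤ 19 / 625)
    (hH : ∫ x, aa J p n x ∂μ ≤ 1 / 50) :
    ∫ x, ph m J p x ^ 2 ∂μ ≤ 171 / 50 * ∫ x, aa J p n x ∂μ :=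
  d.P_level (κ := 19 / 625) (A := 1) (ℓ := 109 / 625) (s := 4157 / 10000) (θ := 511 / 10000) (lam := 19 / 50) (w := 237 / 5000)
    (t1 := 151 / 200) (t2 := 49 / 40) (t3 := 6941 / 1000) (t4 := 267 / 1000) (ρ1 := 1061 / 5000) (e := 0)
    (ρ3 := 307 / 1000) (ρ4 := 773 / 2000) hm hκ (by constructor <;> norm_num)
    (d.E_aq (l := 19 / 20) hκ (by norm_num) (by norm_num) nB0304 nC0304) hH

/-- `E φ² ≤ 3049 / 500 E a` for `Λ² ≤ 9 / 125` -/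
theorem PL072 (d : Dat μ m p n J Λ) (hm : 36 ≤ m) (hκ : Λ ^ 2 ≤ 9 / 125)
    (hH : ∫ x, aa J p n x ∂μ ≤ 1 / 50) :
    ∫ x, ph m J p x ^ 2 ∂μ ≤ 3049 / 500 * ∫ x, aa J p n x ∂μ :=
  d.P_level (κ := 9 / 125) (A := 29 / 20) (ℓ := 671 / 2500) (s := 5843 / 10000) (θ := 1357 / 10000) (lam := 249 / 1000) (w := 1259 / 10000)
    (t1 := 47 / 50) (t2 := 47 / 50) (t3 := 2469 / 1000) (t4 := 1) (ρ1 := 77 / 200) (e := 31 / 2000)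
    (ρ3 := 161 / 200) (ρ4 := 641 / 1000) hm hκ (by constructor <;> norm_num)
    (d.E_aq (l := 43 / 100) hκ (by norm_num) (by norm_num) nB072 nC072) hH

/-- `E φ² ≤ 1473 / 125 E a` for `Λ² ≤ 1207 / 10000` -/
theorem PL1207 (d : Dat μ m p n J Λ) (hm : 36 ≤ m) (hκ : Λ ^ 2 ≤ 1207 / 10000)
    (hH : ∫ x, aa J p n x ∂μ ≤ 1 / 50) :
    ∫ x, ph m J p x ^ 2 ∂μ ≤ 1473 / 125 * ∫ x, aa J p n x ∂μ :=
  d.P_level (κ := 1207 / 10000) (A := 47 / 25) (ℓ := 139 / 400) (s := 7329 / 10000) (θ := 1671 / 10000) (lam := 187 / 500) (w := 1551 / 10000)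
    (t1 := 154 / 125) (t2 := 154 / 125) (t3 := 429 / 125) (t4 := 1) (ρ1 := 529 / 1250) (e := 6761 / 5000)
    (ρ3 := 2817 / 2000) (ρ4 := 10829 / 10000) hm hκ (by constructor <;> norm_num)
    (d.E_aq (l := 127 / 500) hκ (by norm_num) (by norm_num) nB1207 nC1207) hH

/-- `E φ² ≤ 3669 / 250 E a` for `Λ² ≤ 88 / 625` -/
theorem PL1408 (d : Dat μ m p n J Λ) (hm : 36 ≤ m) (hκ : Λ ^ 2 ≤ 88 / 625)
    (hH : ∫ x, aa J p n x ∂μ ≤ 1 / 50) :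
    ∫ x, ph m J p x ^ 2 ∂μ ≤ 3669 / 250 * ∫ x, aa J p n x ∂μ :=
  d.P_level (κ := 88 / 625) (A := 41 / 20) (ℓ := 3753 / 10000) (s := 7859 / 10000) (θ := 1791 / 10000) (lam := 209 / 500) (w := 831 / 5000)
    (t1 := 673 / 500) (t2 := 673 / 500) (t3 := 383 / 100) (t4 := 1) (ρ1 := 273 / 625) (e := 2449 / 1250)
    (ρ3 := 42 / 25) (ρ4 := 12809 / 10000) hm hκ (by constructor <;> norm_num)
    (d.E_aq (l := 43 / 200) hκ (by norm_num) (by norm_num) nB1408 nC1408) hH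

/-- `E φ² ≤ 17917 / 1000 E a` for `Λ² ≤ 1609 / 10000` -/
theorem PL1609 (d : Dat μ m p n J Λ) (hm : 36 ≤ m) (hκ : Λ ^ 2 ≤ 1609 / 10000)
    (hH : ∫ x, aa J p n x ∂μ ≤ 1 / 50) :
    ∫ x, ph m J p x ^ 2 ∂μ ≤ 17917 / 1000 * ∫ x, aa J p n x ∂μ :=
  d.P_level (κ := 1609 / 10000) (A := 221 / 100) (ℓ := 1003 / 2500) (s := 2089 / 2500) (θ := 191 / 1000) (lam := 459 / 1000) (w := 1773 / 10000)
    (t1 := 1459 / 1000) (t2 := 1459 / 1000) (t3 := 4233 / 1000) (t4 := 1) (ρ1 := 2247 / 5000) (e := 13027 / 5000)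
    (ρ3 := 19669 / 10000) (ρ4 := 14899 / 10000) hm hκ (by constructor <;> norm_num)
    (d.E_aq (l := 23 / 125) hκ (by norm_num) (by norm_num) nB1609 nC1609) hH

end

end Vale.Agent.P224.R2.H869
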