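import Vale.Agent.P224.R2.H686.PhiF
import Vale.Agent.P224.R2.H686.PhiA

/-!
More levels of `E φ² ≤ c₁ E a` for `Λ² ≤ κ`, all `m ≥ 36` and `E a ≤ 1/50`.
-/

namespace Vale.Agent.P224.R2.H869

open MeasureTheory Module Function Set Vale.Agent.P224.R2.H470 Vale.Agent.P224.R2.H686
open scoped RealInnerProductSpace Topology ContDiff

lemma nB0678 (r : ℝ) (h1 : 1 ≤ r) (h2 : r ^ 2 - 1 ≤ 141 / 100) :
    r ^ 2 - 1 - 141 / 100 ≤ 23 / 50 * (r + 1) ^ 2 * ((r ^ 2 - 1) ^ 2 - 7 * (339 / 5000) * (r ^ 2 - 1)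
      - 6 * (339 / 5000)) := by
  have h3 : r ≤ 1553 / 1000 := by nlinarith
  nlinarith [mul_nonneg (sub_nonneg.2 h1) (sub_nonneg.2 h3), sq_nonneg (r - 123 / 100),
    sq_nonneg ((r - 123 / 100) * r), sq_nonneg ((r - 123 / 100) * (r + 1) * r),
    mul_nonneg (sub_nonneg.2 h1) (sq_nonneg (r - 123 / 100)),
    mul_nonneg (sub_nonneg.2 h1) (sq_nonneg ((r - 123 / 100) * r)),
    mul_nonneg (sub_nonneg.2 h3) (sq_nonneg (r - 123 / 100)),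
    mul_nonneg (sub_nonneg.2 h1) (sq_nonneg ((r - 123 / 100) * (r + 1)))]

lemma nC0678 (r : ℝ) (h1 : 1 ≤ r) (h2 : 141 / 100 ≤ r ^ 2 - 1) :
    r ^ 2 - 1 - 141 / 100 ≤ 23 / 50 * (r - 1) ^ 2 * ((r ^ 2 - 1) ^ 2 - 7 * (339 / 5000) * (r ^ 2 - 1)
      - 6 * (339 / 5000)) := by
  have h3 : 194 / 125 ≤ r := by nlinarith
  obtain ⟨d, hd, rfl⟩ : ∃ d : ℝ, 0 ≤ d ∧ r = 194 / 125 + d := ⟨r - 194 / 125, by linarith, by ring⟩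
  nlinarith [mul_nonneg hd hd, mul_nonneg (mul_nonneg hd hd) hd, sq_nonneg (d - 1 / 5),
    mul_nonneg hd (sq_nonneg (d - 1 / 5)), mul_nonneg (mul_nonneg hd hd) (mul_nonneg hd hd),
    mul_nonneg (mul_nonneg (mul_nonneg hd hd) (mul_nonneg hd hd)) hd,
    mul_nonneg (mul_nonneg (mul_nonneg hd hd) (mul_nonneg hd hd)) (mul_nonneg hd hd)]

lemma nB086 (r : ℝ) (h1 : 1 ≤ r) (h2 : r ^ 2 - 1 ≤ 79 / 50) :
    r ^ 2 - 1 - 79 / 50 ≤ 9 / 25 * (r + 1) ^ 2 * ((r ^ 2 - 1) ^ 2 - 7 * (43 / 500) * (r ^ 2 - 1)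
      - 6 * (43 / 500)) := by
  have h3 : r ≤ 1607 / 1000 := by nlinarith
  nlinarith [mul_nonneg (sub_nonneg.2 h1) (sub_nonneg.2 h3), sq_nonneg (r - 32 / 25),
    sq_nonneg ((r - 32 / 25) * r), sq_nonneg ((r - 32 / 25) * (r + 1) * r),
    mul_nonneg (sub_nonneg.2 h1) (sq_nonneg (r - 32 / 25)),
    mul_nonneg (sub_nonneg.2 h1) (sq_nonneg ((r - 32 / 25) * r)),
    mul_nonneg (sub_nonneg.2 h3) (sq_nonneg (r - 32 / 25)),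
    mul_nonneg (sub_nonneg.2 h1) (sq_nonneg ((r - 32 / 25) * (r + 1)))]

lemma nC086 (r : ℝ) (h1 : 1 ≤ r) (h2 : 79 / 50 ≤ r ^ 2 - 1) :
    r ^ 2 - 1 - 79 / 50 ≤ 9 / 25 * (r - 1) ^ 2 * ((r ^ 2 - 1) ^ 2 - 7 * (43 / 500) * (r ^ 2 - 1)
      - 6 * (43 / 500)) := by
  have h3 : 803 / 500 ≤ r := by nlinarith
  obtain ⟨d, hd, rfl⟩ : ∃ d : ℝ, 0 ≤ d ∧ r = 803 / 500 + d := ⟨r - 803 / 500, by linarith, by ring⟩
  nlinarith [mul_nonneg hd hd, mul_nonneg (mul_nonneg hd hd) hd, sq_nonneg (d - 1 / 5),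
    mul_nonneg hd (sq_nonneg (d - 1 / 5)), mul_nonneg (mul_nonneg hd hd) (mul_nonneg hd hd),
    mul_nonneg (mul_nonneg (mul_nonneg hd hd) (mul_nonneg hd hd)) hd,
    mul_nonneg (mul_nonneg (mul_nonneg hd hd) (mul_nonneg hd hd)) (mul_nonneg hd hd)]

lemma nB1213 (r : ℝ) (h1 : 1 ≤ r) (h2 : r ^ 2 - 1 ≤ 189 / 100) :
    r ^ 2 - 1 - 189 / 100 ≤ 127 / 500 * (r + 1) ^ 2 * ((r ^ 2 - 1) ^ 2 - 7 * (1213 / 10000) * (r ^ 2 - 1)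
      - 6 * (1213 / 10000)) := by
  have h3 : r ≤ 17 / 10 := by nlinarith
  nlinarith [mul_nonneg (sub_nonneg.2 h1) (sub_nonneg.2 h3), sq_nonneg (r - 137 / 100),
    sq_nonneg ((r - 137 / 100) * r), sq_nonneg ((r - 137 / 100) * (r + 1) * r),
    mul_nonneg (sub_nonneg.2 h1) (sq_nonneg (r - 137 / 100)),
    mul_nonneg (sub_nonneg.2 h1) (sq_nonneg ((r - 137 / 100) * r)),
    mul_nonneg (sub_nonneg.2 h3) (sq_nonneg (r - 137 / 100)),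
    mul_nonneg (sub_nonneg.2 h1) (sq_nonneg ((r - 137 / 100) * (r + 1)))]

lemma nC1213 (r : ℝ) (h1 : 1 ≤ r) (h2 : 189 / 100 ≤ r ^ 2 - 1) :
    r ^ 2 - 1 - 189 / 100 ≤ 127 / 500 * (r - 1) ^ 2 * ((r ^ 2 - 1) ^ 2 - 7 * (1213 / 10000) * (r ^ 2 - 1)
      - 6 * (1213 / 10000)) := by
  have h3 : 17 / 10 ≤ r := by nlinarith
  obtain ⟨d, hd, rfl⟩ : ∃ d : ℝ, 0 ≤ d ∧ r = 17 / 10 + d := ⟨r - 17 / 10, by linarith, by ring⟩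
  nlinarith [mul_nonneg hd hd, mul_nonneg (mul_nonneg hd hd) hd, sq_nonneg (d - 1 / 5),
    mul_nonneg hd (sq_nonneg (d - 1 / 5)), mul_nonneg (mul_nonneg hd hd) (mul_nonneg hd hd),
    mul_nonneg (mul_nonneg (mul_nonneg hd hd) (mul_nonneg hd hd)) hd,
    mul_nonneg (mul_nonneg (mul_nonneg hd hd) (mul_nonneg hd hd)) (mul_nonneg hd hd)]

lemma nB1415 (r : ℝ) (h1 : 1 ≤ r) (h2 : r ^ 2 - 1 ≤ 41 / 20) :
    r ^ 2 - 1 - 41 / 20 ≤ 213 / 1000 * (r + 1) ^ 2 * ((r ^ 2 - 1) ^ 2 - 7 * (283 / 2000) * (r ^ 2 - 1)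
      - 6 * (283 / 2000)) := by
  have h3 : r ≤ 1747 / 1000 := by nlinarith
  nlinarith [mul_nonneg (sub_nonneg.2 h1) (sub_nonneg.2 h3), sq_nonneg (r - 71 / 50),
    sq_nonneg ((r - 71 / 50) * r), sq_nonneg ((r - 71 / 50) * (r + 1) * r),
    mul_nonneg (sub_nonneg.2 h1) (sq_nonneg (r - 71 / 50)),
    mul_nonneg (sub_nonneg.2 h1) (sq_nonneg ((r - 71 / 50) * r)),
    mul_nonneg (sub_nonneg.2 h3) (sq_nonneg (r - 71 / 50)),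
    mul_nonneg (sub_nonneg.2 h1) (sq_nonneg ((r - 71 / 50) * (r + 1)))]

lemma nC1415 (r : ℝ) (h1 : 1 ≤ r) (h2 : 41 / 20 ≤ r ^ 2 - 1) :
    r ^ 2 - 1 - 41 / 20 ≤ 213 / 1000 * (r - 1) ^ 2 * ((r ^ 2 - 1) ^ 2 - 7 * (283 / 2000) * (r ^ 2 - 1)
      - 6 * (283 / 2000)) := by
  have h3 : 873 / 500 ≤ r := by nlinarith
  obtain ⟨d, hd, rfl⟩ : ∃ d : ℝ, 0 ≤ d ∧ r = 873 / 500 + d := ⟨r - 873 / 500, by linarith, by ring⟩
  nlinarith [mul_nonneg hd hd, mul_nonneg (mul_nonneg hd hd) hd, sq_nonneg (d - 1 / 5),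
    mul_nonneg hd (sq_nonneg (d - 1 / 5)), mul_nonneg (mul_nonneg hd hd) (mul_nonneg hd hd),
    mul_nonneg (mul_nonneg (mul_nonneg hd hd) (mul_nonneg hd hd)) hd,
    mul_nonneg (mul_nonneg (mul_nonneg hd hd) (mul_nonneg hd hd)) (mul_nonneg hd hd)]

lemma nB181 (r : ℝ) (h1 : 1 ≤ r) (h2 : r ^ 2 - 1 ≤ 237 / 100) :
    r ^ 2 - 1 - 237 / 100 ≤ 4 / 25 * (r + 1) ^ 2 * ((r ^ 2 - 1) ^ 2 - 7 * (181 / 1000) * (r ^ 2 - 1)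
      - 6 * (181 / 1000)) := by
  have h3 : r ≤ 459 / 250 := by nlinarith
  nlinarith [mul_nonneg (sub_nonneg.2 h1) (sub_nonneg.2 h3), sq_nonneg (r - 151 / 100),
    sq_nonneg ((r - 151 / 100) * r), sq_nonneg ((r - 151 / 100) * (r + 1) * r),
    mul_nonneg (sub_nonneg.2 h1) (sq_nonneg (r - 151 / 100)),
    mul_nonneg (sub_nonneg.2 h1) (sq_nonneg ((r - 151 / 100) * r)),
    mul_nonneg (sub_nonneg.2 h3) (sq_nonneg (r - 151 / 100)),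
    mul_nonneg (sub_nonneg.2 h1) (sq_nonneg ((r - 151 / 100) * (r + 1)))]

lemma nC181 (r : ℝ) (h1 : 1 ≤ r) (h2 : 237 / 100 ≤ r ^ 2 - 1) :
    r ^ 2 - 1 - 237 / 100 ≤ 4 / 25 * (r - 1) ^ 2 * ((r ^ 2 - 1) ^ 2 - 7 * (181 / 1000) * (r ^ 2 - 1)
      - 6 * (181 / 1000)) := by
  have h3 : 367 / 200 ≤ r := by nlinarith
  obtain ⟨d, hd, rfl⟩ : ∃ d : ℝ, 0 ≤ d ∧ r = 367 / 200 + d := ⟨r - 367 / 200, by linarith, by ring⟩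
  nlinarith [mul_nonneg hd hd, mul_nonneg (mul_nonneg hd hd) hd, sq_nonneg (d - 1 / 5),
    mul_nonneg hd (sq_nonneg (d - 1 / 5)), mul_nonneg (mul_nonneg hd hd) (mul_nonneg hd hd),
    mul_nonneg (mul_nonneg (mul_nonneg hd hd) (mul_nonneg hd hd)) hd,
    mul_nonneg (mul_nonneg (mul_nonneg hd hd) (mul_nonneg hd hd)) (mul_nonneg hd hd)]

section

variable {X : Type*} {E : Type*} [NormedAddCommGroup E] [InnerProductSpace ℝ E]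
  [FiniteDimensional ℝ E] [TopologicalSpace X] [MeasurableSpace X] [CompactSpace X] [BorelSpace X]
  {μ : Measure X} [IsProbabilityMeasure μ] {m : ℕ} {p n : X → E} {J : E →L[ℝ] E} {Λ : ℝ}

/-- `E φ² ≤ 712 / 125 E a` for `Λ² ≤ 339 / 5000` -/
theorem PL0678 (d : Dat μ m p n J Λ) (hm : 36 ≤ m) (hκ : Λ ^ 2 ≤ 339 / 5000)
    (hH : ∫ x, aa J p n x ∂μ ≤ 1 / 50) :
    ∫ x, ph m J p x ^ 2 ∂μ ≤ 712 / 125 * ∫ x, aa J p n x ∂μ :=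
  d.P_level (κ := 339 / 5000) (A := 141 / 100) (ℓ := 651 / 2500) (s := 356 / 625) (θ := 51 / 400) (lam := 32 / 125) (w := 1183 / 10000)
    (t1 := 457 / 500) (t2 := 121 / 125) (t3 := 2643 / 1000) (t4 := 903 / 1000) (ρ1 := 3673 / 10000) (e := 0)
    (ρ3 := 3677 / 5000) (ρ4 := 1231 / 2000) hm hκ (by constructor <;> norm_num)
    (d.E_aq (l := 23 / 50) hκ (by norm_num) (by norm_num) nB0678 nC0678) hH

/-- `E φ² ≤ 1513 / 200 E a` for `Λ² ≤ 43 / 500` -/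
theorem PL086 (d : Dat μ m p n J Λ) (hm : 36 ≤ m) (hκ : Λ ^ 2 ≤ 43 / 500)
    (hH : ∫ x, aa J p n x ∂μ ≤ 1 / 50) :
    ∫ x, ph m J p x ^ 2 ∂μ ≤ 1513 / 200 * ∫ x, aa J p n x ∂μ :=
  d.P_level (κ := 43 / 500) (A := 79 / 50) (ℓ := 2933 / 10000) (s := 6307 / 10000) (θ := 1453 / 10000) (lam := 287 / 1000) (w := 337 / 2500)
    (t1 := 257 / 250) (t2 := 257 / 250) (t3 := 11 / 4) (t4 := 1) (ρ1 := 3973 / 10000) (e := 477 / 1250)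
    (ρ3 := 4857 / 5000) (ρ4 := 7633 / 10000) hm hκ (by constructor <;> norm_num)
    (d.E_aq (l := 9 / 25) hκ (by norm_num) (by norm_num) nB086 nC086) hH

/-- `E φ² ≤ 1484 / 125 E a` for `Λ² ≤ 1213 / 10000` -/
theorem PL1213 (d : Dat μ m p n J Λ) (hm : 36 ≤ m) (hκ : Λ ^ 2 ≤ 1213 / 10000)
    (hH : ∫ x, aa J p n x ∂μ ≤ 1 / 50) :
    ∫ x, ph m J p x ^ 2 ∂μ ≤ 1484 / 125 * ∫ x, aa J p n x ∂μ :=
  d.P_level (κ := 1213 / 10000) (A := 189 / 100) (ℓ := 3483 / 10000) (s := 1469 / 2000) (θ := 67 / 400) (lam := 3 / 8) (w := 311 / 2000)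
    (t1 := 247 / 200) (t2 := 247 / 200) (t3 := 1723 / 500) (t4 := 1) (ρ1 := 2119 / 5000) (e := 6839 / 5000)
    (ρ3 := 7079 / 5000) (ρ4 := 5441 / 5000) hm hκ (by constructor <;> norm_num)
    (d.E_aq (l := 127 / 500) hκ (by norm_num) (by norm_num) nB1213 nC1213) hH

/-- `E φ² ≤ 2953 / 200 E a` for `Λ² ≤ 283 / 2000` -/
theorem PL1415 (d : Dat μ m p n J Λ) (hm : 36 ≤ m) (hκ : Λ ^ 2 ≤ 283 / 2000)
    (hH : ∫ x, aa J p n x ∂μ ≤ 1 / 50) :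
    ∫ x, ph m J p x ^ 2 ∂μ ≤ 2953 / 200 * ∫ x, aa J p n x ∂μ :=
  d.P_level (κ := 283 / 2000) (A := 41 / 20) (ℓ := 1881 / 5000) (s := 7877 / 10000) (θ := 449 / 2500) (lam := 21 / 50) (w := 1667 / 10000)
    (t1 := 27 / 20) (t2 := 27 / 20) (t3 := 3843 / 1000) (t4 := 1) (ρ1 := 437 / 1000) (e := 991 / 500)
    (ρ3 := 8449 / 5000) (ρ4 := 161 / 125) hm hκ (by constructor <;> norm_num)
    (d.E_aq (l := 213 / 1000) hκ (by norm_num) (by norm_num) nB1415 nC1415) hH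

/-- `E φ² ≤ 4317 / 200 E a` for `Λ² ≤ 181 / 1000` -/
theorem PL181 (d : Dat μ m p n J Λ) (hm : 36 ≤ m) (hκ : Λ ^ 2 ≤ 181 / 1000)
    (hH : ∫ x, aa J p n x ∂μ ≤ 1 / 50) :
    ∫ x, ph m J p x ^ 2 ∂μ ≤ 4317 / 200 * ∫ x, aa J p n x ∂μ :=
  d.P_level (κ := 181 / 1000) (A := 237 / 100) (ℓ := 851 / 2000) (s := 353 / 400) (θ := 507 / 2500) (lam := 497 / 1000) (w := 941 / 5000)
    (t1 := 1571 / 1000) (t2 := 1571 / 1000) (t3 := 929 / 200) (t4 := 1) (ρ1 := 2309 / 5000) (e := 8241 / 2500)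
    (ρ3 := 22687 / 10000) (ρ4 := 3419 / 2000) hm hκ (by constructor <;> norm_num)
    (d.E_aq (l := 4 / 25) hκ (by norm_num) (by norm_num) nB181 nC181) hH

end

end Vale.Agent.P224.R2.H869
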