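import Vale.Agent.P224.R2.H686.PhiF
import Vale.Agent.P224.R2.H686.PhiA

/-!
More levels of `E φ² ≤ c₁ E a` for `Λ² ≤ κ`, all `m ≥ 36` and `E a ≤ 1/50`.
-/

namespace Vale.Agent.P224.R2.H869

open MeasureTheory Module Function Set Vale.Agent.P224.R2.H470 Vale.Agent.P224.R2.H686
open scoped RealInnerProductSpace Topology ContDiff

lemma nB0129 (r : ℝ) (h1 : 1 ≤ r) (h2 : r ^ 2 - 1 ≤ 3 / 4) :
    r ^ 2 - 1 - 3 / 4 ≤ 19 / 10 * (r + 1) ^ 2 * ((r ^ 2 - 1) ^ 2 - 7 * (129 / 10000) * (r ^ 2 - 1)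
      - 6 * (129 / 10000)) := by
  have h3 : r ≤ 1323 / 1000 := by nlinarith
  nlinarith [mul_nonneg (sub_nonneg.2 h1) (sub_nonneg.2 h3), sq_nonneg (r - 53 / 50),
    sq_nonneg ((r - 53 / 50) * r), sq_nonneg ((r - 53 / 50) * (r + 1) * r),
    mul_nonneg (sub_nonneg.2 h1) (sq_nonneg (r - 53 / 50)),
    mul_nonneg (sub_nonneg.2 h1) (sq_nonneg ((r - 53 / 50) * r)),
    mul_nonneg (sub_nonneg.2 h3) (sq_nonneg (r - 53 / 50)),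
    mul_nonneg (sub_nonneg.2 h1) (sq_nonneg ((r - 53 / 50) * (r + 1)))]

lemma nC0129 (r : ℝ) (h1 : 1 ≤ r) (h2 : 3 / 4 ≤ r ^ 2 - 1) :
    r ^ 2 - 1 - 3 / 4 ≤ 19 / 10 * (r - 1) ^ 2 * ((r ^ 2 - 1) ^ 2 - 7 * (129 / 10000) * (r ^ 2 - 1)
      - 6 * (129 / 10000)) := by
  have h3 : 661 / 500 ≤ r := by nlinarith
  obtain ⟨d, hd, rfl⟩ : ∃ d : ℝ, 0 ≤ d ∧ r = 661 / 500 + d := ⟨r - 661 / 500, by linarith, by ring⟩
  nlinarith [mul_nonneg hd hd, mul_nonneg (mul_nonneg hd hd) hd, sq_nonneg (d - 1 / 5),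
    mul_nonneg hd (sq_nonneg (d - 1 / 5)), mul_nonneg (mul_nonneg hd hd) (mul_nonneg hd hd),
    mul_nonneg (mul_nonneg (mul_nonneg hd hd) (mul_nonneg hd hd)) hd,
    mul_nonneg (mul_nonneg (mul_nonneg hd hd) (mul_nonneg hd hd)) (mul_nonneg hd hd)]

lemma nB0309 (r : ℝ) (h1 : 1 ≤ r) (h2 : r ^ 2 - 1 ≤ 51 / 50) :
    r ^ 2 - 1 - 51 / 50 ≤ 93 / 100 * (r + 1) ^ 2 * ((r ^ 2 - 1) ^ 2 - 7 * (309 / 10000) * (r ^ 2 - 1)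
      - 6 * (309 / 10000)) := by
  have h3 : r ≤ 711 / 500 := by nlinarith
  nlinarith [mul_nonneg (sub_nonneg.2 h1) (sub_nonneg.2 h3), sq_nonneg (r - 28 / 25),
    sq_nonneg ((r - 28 / 25) * r), sq_nonneg ((r - 28 / 25) * (r + 1) * r),
    mul_nonneg (sub_nonneg.2 h1) (sq_nonneg (r - 28 / 25)),
    mul_nonneg (sub_nonneg.2 h1) (sq_nonneg ((r - 28 / 25) * r)),
    mul_nonneg (sub_nonneg.2 h3) (sq_nonneg (r - 28 / 25)),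
    mul_nonneg (sub_nonneg.2 h1) (sq_nonneg ((r - 28 / 25) * (r + 1)))]

lemma nC0309 (r : ℝ) (h1 : 1 ≤ r) (h2 : 51 / 50 ≤ r ^ 2 - 1) :
    r ^ 2 - 1 - 51 / 50 ≤ 93 / 100 * (r - 1) ^ 2 * ((r ^ 2 - 1) ^ 2 - 7 * (309 / 10000) * (r ^ 2 - 1)
      - 6 * (309 / 10000)) := by
  have h3 : 1421 / 1000 ≤ r := by nlinarith
  obtain ⟨d, hd, rfl⟩ : ∃ d : ℝ, 0 ≤ d ∧ r = 1421 / 1000 + d := ⟨r - 1421 / 1000, by linarith, by ring⟩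
  nlinarith [mul_nonneg hd hd, mul_nonneg (mul_nonneg hd hd) hd, sq_nonneg (d - 1 / 5),
    mul_nonneg hd (sq_nonneg (d - 1 / 5)), mul_nonneg (mul_nonneg hd hd) (mul_nonneg hd hd),
    mul_nonneg (mul_nonneg (mul_nonneg hd hd) (mul_nonneg hd hd)) hd,
    mul_nonneg (mul_nonneg (mul_nonneg hd hd) (mul_nonneg hd hd)) (mul_nonneg hd hd)]

lemma nB0484 (r : ℝ) (h1 : 1 ≤ r) (h2 : r ^ 2 - 1 ≤ 61 / 50) :
    r ^ 2 - 1 - 61 / 50 ≤ 63 / 100 * (r + 1) ^ 2 * ((r ^ 2 - 1) ^ 2 - 7 * (121 / 2500) * (r ^ 2 - 1)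
      - 6 * (121 / 2500)) := by
  have h3 : r ≤ 149 / 100 := by nlinarith
  nlinarith [mul_nonneg (sub_nonneg.2 h1) (sub_nonneg.2 h3), sq_nonneg (r - 59 / 50),
    sq_nonneg ((r - 59 / 50) * r), sq_nonneg ((r - 59 / 50) * (r + 1) * r),
    mul_nonneg (sub_nonneg.2 h1) (sq_nonneg (r - 59 / 50)),
    mul_nonneg (sub_nonneg.2 h1) (sq_nonneg ((r - 59 / 50) * r)),
    mul_nonneg (sub_nonneg.2 h3) (sq_nonneg (r - 59 / 50)),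
    mul_nonneg (sub_nonneg.2 h1) (sq_nonneg ((r - 59 / 50) * (r + 1)))]

lemma nC0484 (r : ℝ) (h1 : 1 ≤ r) (h2 : 61 / 50 ≤ r ^ 2 - 1) :
    r ^ 2 - 1 - 61 / 50 ≤ 63 / 100 * (r - 1) ^ 2 * ((r ^ 2 - 1) ^ 2 - 7 * (121 / 2500) * (r ^ 2 - 1)
      - 6 * (121 / 2500)) := by
  have h3 : 1489 / 1000 ≤ r := by nlinarith
  obtain ⟨d, hd, rfl⟩ : ∃ d : ℝ, 0 ≤ d ∧ r = 1489 / 1000 + d := ⟨r - 1489 / 1000, by linarith, by ring⟩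
  nlinarith [mul_nonneg hd hd, mul_nonneg (mul_nonneg hd hd) hd, sq_nonneg (d - 1 / 5),
    mul_nonneg hd (sq_nonneg (d - 1 / 5)), mul_nonneg (mul_nonneg hd hd) (mul_nonneg hd hd),
    mul_nonneg (mul_nonneg (mul_nonneg hd hd) (mul_nonneg hd hd)) hd,
    mul_nonneg (mul_nonneg (mul_nonneg hd hd) (mul_nonneg hd hd)) (mul_nonneg hd hd)]

lemma nB0689 (r : ℝ) (h1 : 1 ≤ r) (h2 : r ^ 2 - 1 ≤ 143 / 100) :
    r ^ 2 - 1 - 143 / 100 ≤ 9 / 20 * (r + 1) ^ 2 * ((r ^ 2 - 1) ^ 2 - 7 * (689 / 10000) * (r ^ 2 - 1)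
      - 6 * (689 / 10000)) := by
  have h3 : r ≤ 1559 / 1000 := by nlinarith
  nlinarith [mul_nonneg (sub_nonneg.2 h1) (sub_nonneg.2 h3), sq_nonneg (r - 31 / 25),
    sq_nonneg ((r - 31 / 25) * r), sq_nonneg ((r - 31 / 25) * (r + 1) * r),
    mul_nonneg (sub_nonneg.2 h1) (sq_nonneg (r - 31 / 25)),
    mul_nonneg (sub_nonneg.2 h1) (sq_nonneg ((r - 31 / 25) * r)),
    mul_nonneg (sub_nonneg.2 h3) (sq_nonneg (r - 31 / 25)),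
    mul_nonneg (sub_nonneg.2 h1) (sq_nonneg ((r - 31 / 25) * (r + 1)))]

lemma nC0689 (r : ℝ) (h1 : 1 ≤ r) (h2 : 143 / 100 ≤ r ^ 2 - 1) :
    r ^ 2 - 1 - 143 / 100 ≤ 9 / 20 * (r - 1) ^ 2 * ((r ^ 2 - 1) ^ 2 - 7 * (689 / 10000) * (r ^ 2 - 1)
      - 6 * (689 / 10000)) := by
  have h3 : 779 / 500 ≤ r := by nlinarith
  obtain ⟨d, hd, rfl⟩ : ∃ d : ℝ, 0 ≤ d ∧ r = 779 / 500 + d := ⟨r - 779 / 500, by linarith, by ring⟩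
  nlinarith [mul_nonneg hd hd, mul_nonneg (mul_nonneg hd hd) hd, sq_nonneg (d - 1 / 5),
    mul_nonneg hd (sq_nonneg (d - 1 / 5)), mul_nonneg (mul_nonneg hd hd) (mul_nonneg hd hd),
    mul_nonneg (mul_nonneg (mul_nonneg hd hd) (mul_nonneg hd hd)) hd,
    mul_nonneg (mul_nonneg (mul_nonneg hd hd) (mul_nonneg hd hd)) (mul_nonneg hd hd)]

lemma nB1029 (r : ℝ) (h1 : 1 ≤ r) (h2 : r ^ 2 - 1 ≤ 87 / 50) :
    r ^ 2 - 1 - 87 / 50 ≤ 3 / 10 * (r + 1) ^ 2 * ((r ^ 2 - 1) ^ 2 - 7 * (1029 / 10000) * (r ^ 2 - 1)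
      - 6 * (1029 / 10000)) := by
  have h3 : r ≤ 207 / 125 := by nlinarith
  nlinarith [mul_nonneg (sub_nonneg.2 h1) (sub_nonneg.2 h3), sq_nonneg (r - 133 / 100),
    sq_nonneg ((r - 133 / 100) * r), sq_nonneg ((r - 133 / 100) * (r + 1) * r),
    mul_nonneg (sub_nonneg.2 h1) (sq_nonneg (r - 133 / 100)),
    mul_nonneg (sub_nonneg.2 h1) (sq_nonneg ((r - 133 / 100) * r)),
    mul_nonneg (sub_nonneg.2 h3) (sq_nonneg (r - 133 / 100)),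
    mul_nonneg (sub_nonneg.2 h1) (sq_nonneg ((r - 133 / 100) * (r + 1)))]

lemma nC1029 (r : ℝ) (h1 : 1 ≤ r) (h2 : 87 / 50 ≤ r ^ 2 - 1) :
    r ^ 2 - 1 - 87 / 50 ≤ 3 / 10 * (r - 1) ^ 2 * ((r ^ 2 - 1) ^ 2 - 7 * (1029 / 10000) * (r ^ 2 - 1)
      - 6 * (1029 / 10000)) := by
  have h3 : 331 / 200 ≤ r := by nlinarith
  obtain ⟨d, hd, rfl⟩ : ∃ d : ℝ, 0 ≤ d ∧ r = 331 / 200 + d := ⟨r - 331 / 200, by linarith, by ring⟩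
  nlinarith [mul_nonneg hd hd, mul_nonneg (mul_nonneg hd hd) hd, sq_nonneg (d - 1 / 5),
    mul_nonneg hd (sq_nonneg (d - 1 / 5)), mul_nonneg (mul_nonneg hd hd) (mul_nonneg hd hd),
    mul_nonneg (mul_nonneg (mul_nonneg hd hd) (mul_nonneg hd hd)) hd,
    mul_nonneg (mul_nonneg (mul_nonneg hd hd) (mul_nonneg hd hd)) (mul_nonneg hd hd)]

lemma nB185 (r : ℝ) (h1 : 1 ≤ r) (h2 : r ^ 2 - 1 ≤ 121 / 50) :
    r ^ 2 - 1 - 121 / 50 ≤ 79 / 500 * (r + 1) ^ 2 * ((r ^ 2 - 1) ^ 2 - 7 * (37 / 200) * (r ^ 2 - 1)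
      - 6 * (37 / 200)) := by
  have h3 : r ≤ 37 / 20 := by nlinarith
  nlinarith [mul_nonneg (sub_nonneg.2 h1) (sub_nonneg.2 h3), sq_nonneg (r - 38 / 25),
    sq_nonneg ((r - 38 / 25) * r), sq_nonneg ((r - 38 / 25) * (r + 1) * r),
    mul_nonneg (sub_nonneg.2 h1) (sq_nonneg (r - 38 / 25)),
    mul_nonneg (sub_nonneg.2 h1) (sq_nonneg ((r - 38 / 25) * r)),
    mul_nonneg (sub_nonneg.2 h3) (sq_nonneg (r - 38 / 25)),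
    mul_nonneg (sub_nonneg.2 h1) (sq_nonneg ((r - 38 / 25) * (r + 1)))]

lemma nC185 (r : ℝ) (h1 : 1 ≤ r) (h2 : 121 / 50 ≤ r ^ 2 - 1) :
    r ^ 2 - 1 - 121 / 50 ≤ 79 / 500 * (r - 1) ^ 2 * ((r ^ 2 - 1) ^ 2 - 7 * (37 / 200) * (r ^ 2 - 1)
      - 6 * (37 / 200)) := by
  have h3 : 1849 / 1000 ≤ r := by nlinarith
  obtain ⟨d, hd, rfl⟩ : ∃ d : ℝ, 0 ≤ d ∧ r = 1849 / 1000 + d := ⟨r - 1849 / 1000, by linarith, by ring⟩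
  nlinarith [mul_nonneg hd hd, mul_nonneg (mul_nonneg hd hd) hd, sq_nonneg (d - 1 / 5),
    mul_nonneg hd (sq_nonneg (d - 1 / 5)), mul_nonneg (mul_nonneg hd hd) (mul_nonneg hd hd),
    mul_nonneg (mul_nonneg (mul_nonneg hd hd) (mul_nonneg hd hd)) hd,
    mul_nonneg (mul_nonneg (mul_nonneg hd hd) (mul_nonneg hd hd)) (mul_nonneg hd hd)]

section

variable {X : Type*} {E : Type*} [NormedAddCommGroup E] [InnerProductSpace ℝ E]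
  [FiniteDimensional ℝ E] [TopologicalSpace X] [MeasurableSpace X] [CompactSpace X] [BorelSpace X]
  {μ : Measure X} [IsProbabilityMeasure μ] {m : ℕ} {p n : X → E} {J : E →L[ℝ] E} {Λ : ℝ}

/-- `E φ² ≤ 679 / 250 E a` for `Λ² ≤ 129 / 10000` -/
theorem PL0129 (d : Dat μ m p n J Λ) (hm : 36 ≤ m) (hκ : Λ ^ 2 ≤ 129 / 10000)
    (hH : ∫ x, aa J p n x ∂μ ≤ 1 / 50) :
    ∫ x, ph m J p x ^ 2 ∂μ ≤ 679 / 250 * ∫ x, aa J p n x ∂μ :=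
  d.P_level (κ := 129 / 10000) (A := 3 / 4) (ℓ := 71 / 625) (s := 3153 / 10000) (θ := 211 / 10000) (lam := 473 / 1000) (w := 39 / 2000)
    (t1 := 351 / 500) (t2 := 53 / 40) (t3 := 11961 / 1000) (t4 := 109 / 1000) (ρ1 := 329 / 2500) (e := 13 / 2500)
    (ρ3 := 1691 / 10000) (ρ4 := 49 / 200) hm hκ (by constructor <;> norm_num)
    (d.E_aq (l := 19 / 10) hκ (by norm_num) (by norm_num) nB0129 nC0129) hH

/-- `E φ² ≤ 69 / 20 E a` for `Λ² ≤ 309 / 10000` -/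
theorem PL0309 (d : Dat μ m p n J Λ) (hm : 36 ≤ m) (hκ : Λ ^ 2 ≤ 309 / 10000)
    (hH : ∫ x, aa J p n x ∂μ ≤ 1 / 50) :
    ∫ x, ph m J p x ^ 2 ∂μ ≤ 69 / 20 * ∫ x, aa J p n x ∂μ :=
  d.P_level (κ := 309 / 10000) (A := 51 / 50) (ℓ := 879 / 5000) (s := 4181 / 10000) (θ := 13 / 250) (lam := 189 / 500) (w := 241 / 5000)
    (t1 := 151 / 200) (t2 := 1217 / 1000) (t3 := 1663 / 250) (t4 := 269 / 1000) (ρ1 := 537 / 2500) (e := 1 / 625)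
    (ρ3 := 1551 / 5000) (ρ4 := 1943 / 5000) hm hκ (by constructor <;> norm_num)
    (d.E_aq (l := 93 / 100) hκ (by norm_num) (by norm_num) nB0309 nC0309) hH

/-- `E φ² ≤ 1079 / 250 E a` for `Λ² ≤ 121 / 2500` -/
theorem PL0484 (d : Dat μ m p n J Λ) (hm : 36 ≤ m) (hκ : Λ ^ 2 ≤ 121 / 2500)
    (hH : ∫ x, aa J p n x ∂μ ≤ 1 / 50) :
    ∫ x, ph m J p x ^ 2 ∂μ ≤ 1079 / 250 * ∫ x, aa J p n x ∂μ :=
  d.P_level (κ := 121 / 2500) (A := 61 / 50) (ℓ := 11 / 50) (s := 4961 / 10000) (θ := 54 / 625) (lam := 39 / 125) (w := 401 / 5000)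
    (t1 := 819 / 1000) (t2 := 559 / 500) (t3 := 1087 / 250) (t4 := 501 / 1000) (ρ1 := 1421 / 5000) (e := 0)
    (ρ3 := 4749 / 10000) (ρ4 := 2517 / 5000) hm hκ (by constructor <;> norm_num)
    (d.E_aq (l := 63 / 100) hκ (by norm_num) (by norm_num) nB0484 nC0484) hH

/-- `E φ² ≤ 1161 / 200 E a` for `Λ² ≤ 689 / 10000` -/
theorem PL0689 (d : Dat μ m p n J Λ) (hm : 36 ≤ m) (hκ : Λ ^ 2 ≤ 689 / 10000)
    (hH : ∫ x, aa J p n x ∂μ ≤ 1 / 50) :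
    ∫ x, ph m J p x ^ 2 ∂μ ≤ 1161 / 200 * ∫ x, aa J p n x ∂μ :=
  d.P_level (κ := 689 / 10000) (A := 143 / 100) (ℓ := 21 / 80) (s := 1147 / 2000) (θ := 649 / 5000) (lam := 127 / 500) (w := 241 / 2000)
    (t1 := 23 / 25) (t2 := 479 / 500) (t3 := 1291 / 500) (t4 := 93 / 100) (ρ1 := 149 / 400) (e := 1 / 2000)
    (ρ3 := 1883 / 2500) (ρ4 := 6213 / 10000) hm hκ (by constructor <;> norm_num)
    (d.E_aq (l := 9 / 20) hκ (by norm_num) (by norm_num) nB0689 nC0689) hH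

/-- `E φ² ≤ 9523 / 1000 E a` for `Λ² ≤ 1029 / 10000` -/
theorem PL1029 (d : Dat μ m p n J Λ) (hm : 36 ≤ m) (hκ : Λ ^ 2 ≤ 1029 / 10000)
    (hH : ∫ x, aa J p n x ∂μ ≤ 1 / 50) :
    ∫ x, ph m J p x ^ 2 ∂μ ≤ 9523 / 1000 * ∫ x, aa J p n x ∂μ :=
  d.P_level (κ := 1029 / 10000) (A := 87 / 50) (ℓ := 401 / 1250) (s := 6823 / 10000) (θ := 1561 / 10000) (lam := 331 / 1000) (w := 1449 / 10000)
    (t1 := 141 / 125) (t2 := 141 / 125) (t3 := 1543 / 500) (t4 := 1) (ρ1 := 4107 / 10000) (e := 1683 / 2000)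
    (ρ3 := 1473 / 1250) (ρ4 := 2287 / 2500) hm hκ (by constructor <;> norm_num)
    (d.E_aq (l := 3 / 10) hκ (by norm_num) (by norm_num) nB1029 nC1029) hH

/-- `E φ² ≤ 2803 / 125 E a` for `Λ² ≤ 37 / 200` -/
theorem PL185 (d : Dat μ m p n J Λ) (hm : 36 ≤ m) (hκ : Λ ^ 2 ≤ 37 / 200)
    (hH : ∫ x, aa J p n x ∂μ ≤ 1 / 50) :
    ∫ x, ph m J p x ^ 2 ∂μ ≤ 2803 / 125 * ∫ x, aa J p n x ∂μ :=
  d.P_level (κ := 37 / 200) (A := 121 / 50) (ℓ := 2151 / 5000) (s := 1783 / 2000) (θ := 2051 / 10000) (lam := 101 / 200) (w := 119 / 625)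
    (t1 := 1593 / 1000) (t2 := 1593 / 1000) (t3 := 947 / 200) (t4 := 1) (ρ1 := 58 / 125) (e := 2152 / 625)
    (ρ3 := 2913 / 1250) (ρ4 := 17543 / 10000) hm hκ (by constructor <;> norm_num)
    (d.E_aq (l := 79 / 500) hκ (by norm_num) (by norm_num) nB185 nC185) hH

end

end Vale.Agent.P224.R2.H869
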