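import Vale.Agent.P224.R2.H686.PhiF
import Vale.Agent.P224.R2.H686.PhiA

/-!
More levels of `E φ² ≤ c₁ E a` for `Λ² ≤ κ`, all `m ≥ 36` and `E a ≤ 1/50`.
-/

namespace Vale.Agent.P224.R2.H869

open MeasureTheory Module Function Set Vale.Agent.P224.R2.H470 Vale.Agent.P224.R2.H686
open scoped RealInnerProductSpace Topology ContDiff

lemma nB0155 (r : ℝ) (h1 : 1 ≤ r) (h2 : r ^ 2 - 1 ≤ 4 / 5) :
    r ^ 2 - 1 - 4 / 5 ≤ 41 / 25 * (r + 1) ^ 2 * ((r ^ 2 - 1) ^ 2 - 7 * (31 / 2000) * (r ^ 2 - 1)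
      - 6 * (31 / 2000)) := by
  have h3 : r ≤ 671 / 500 := by nlinarith
  nlinarith [mul_nonneg (sub_nonneg.2 h1) (sub_nonneg.2 h3), sq_nonneg (r - 107 / 100),
    sq_nonneg ((r - 107 / 100) * r), sq_nonneg ((r - 107 / 100) * (r + 1) * r),
    mul_nonneg (sub_nonneg.2 h1) (sq_nonneg (r - 107 / 100)),
    mul_nonneg (sub_nonneg.2 h1) (sq_nonneg ((r - 107 / 100) * r)),
    mul_nonneg (sub_nonneg.2 h3) (sq_nonneg (r - 107 / 100)),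
    mul_nonneg (sub_nonneg.2 h1) (sq_nonneg ((r - 107 / 100) * (r + 1)))]

lemma nC0155 (r : ℝ) (h1 : 1 ≤ r) (h2 : 4 / 5 ≤ r ^ 2 - 1) :
    r ^ 2 - 1 - 4 / 5 ≤ 41 / 25 * (r - 1) ^ 2 * ((r ^ 2 - 1) ^ 2 - 7 * (31 / 2000) * (r ^ 2 - 1)
      - 6 * (31 / 2000)) := by
  have h3 : 1341 / 1000 ≤ r := by nlinarith
  obtain ⟨d, hd, rfl⟩ : ∃ d : ℝ, 0 ≤ d ∧ r = 1341 / 1000 + d := ⟨r - 1341 / 1000, by linarith, by ring⟩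
  nlinarith [mul_nonneg hd hd, mul_nonneg (mul_nonneg hd hd) hd, sq_nonneg (d - 1 / 5),
    mul_nonneg hd (sq_nonneg (d - 1 / 5)), mul_nonneg (mul_nonneg hd hd) (mul_nonneg hd hd),
    mul_nonneg (mul_nonneg (mul_nonneg hd hd) (mul_nonneg hd hd)) hd,
    mul_nonneg (mul_nonneg (mul_nonneg hd hd) (mul_nonneg hd hd)) (mul_nonneg hd hd)]

lemma nB036 (r : ℝ) (h1 : 1 ≤ r) (h2 : r ^ 2 - 1 ≤ 27 / 25) :
    r ^ 2 - 1 - 27 / 25 ≤ 41 / 50 * (r + 1) ^ 2 * ((r ^ 2 - 1) ^ 2 - 7 * (9 / 250) * (r ^ 2 - 1)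
      - 6 * (9 / 250)) := by
  have h3 : r ≤ 1443 / 1000 := by nlinarith
  nlinarith [mul_nonneg (sub_nonneg.2 h1) (sub_nonneg.2 h3), sq_nonneg (r - 57 / 50),
    sq_nonneg ((r - 57 / 50) * r), sq_nonneg ((r - 57 / 50) * (r + 1) * r),
    mul_nonneg (sub_nonneg.2 h1) (sq_nonneg (r - 57 / 50)),
    mul_nonneg (sub_nonneg.2 h1) (sq_nonneg ((r - 57 / 50) * r)),
    mul_nonneg (sub_nonneg.2 h3) (sq_nonneg (r - 57 / 50)),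
    mul_nonneg (sub_nonneg.2 h1) (sq_nonneg ((r - 57 / 50) * (r + 1)))]

lemma nC036 (r : ℝ) (h1 : 1 ≤ r) (h2 : 27 / 25 ≤ r ^ 2 - 1) :
    r ^ 2 - 1 - 27 / 25 ≤ 41 / 50 * (r - 1) ^ 2 * ((r ^ 2 - 1) ^ 2 - 7 * (9 / 250) * (r ^ 2 - 1)
      - 6 * (9 / 250)) := by
  have h3 : 721 / 500 ≤ r := by nlinarith
  obtain ⟨d, hd, rfl⟩ : ∃ d : ℝ, 0 ≤ d ∧ r = 721 / 500 + d := ⟨r - 721 / 500, by linarith, by ring⟩
  nlinarith [mul_nonneg hd hd, mul_nonneg (mul_nonneg hd hd) hd, sq_nonneg (d - 1 / 5),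
    mul_nonneg hd (sq_nonneg (d - 1 / 5)), mul_nonneg (mul_nonneg hd hd) (mul_nonneg hd hd),
    mul_nonneg (mul_nonneg (mul_nonneg hd hd) (mul_nonneg hd hd)) hd,
    mul_nonneg (mul_nonneg (mul_nonneg hd hd) (mul_nonneg hd hd)) (mul_nonneg hd hd)]

lemma nB0514 (r : ℝ) (h1 : 1 ≤ r) (h2 : r ^ 2 - 1 ≤ 5 / 4) :
    r ^ 2 - 1 - 5 / 4 ≤ 59 / 100 * (r + 1) ^ 2 * ((r ^ 2 - 1) ^ 2 - 7 * (257 / 5000) * (r ^ 2 - 1)
      - 6 * (257 / 5000)) := by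
  have h3 : r ≤ 3 / 2 := by nlinarith
  nlinarith [mul_nonneg (sub_nonneg.2 h1) (sub_nonneg.2 h3), sq_nonneg (r - 119 / 100),
    sq_nonneg ((r - 119 / 100) * r), sq_nonneg ((r - 119 / 100) * (r + 1) * r),
    mul_nonneg (sub_nonneg.2 h1) (sq_nonneg (r - 119 / 100)),
    mul_nonneg (sub_nonneg.2 h1) (sq_nonneg ((r - 119 / 100) * r)),
    mul_nonneg (sub_nonneg.2 h3) (sq_nonneg (r - 119 / 100)),
    mul_nonneg (sub_nonneg.2 h1) (sq_nonneg ((r - 119 / 100) * (r + 1)))]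

lemma nC0514 (r : ℝ) (h1 : 1 ≤ r) (h2 : 5 / 4 ≤ r ^ 2 - 1) :
    r ^ 2 - 1 - 5 / 4 ≤ 59 / 100 * (r - 1) ^ 2 * ((r ^ 2 - 1) ^ 2 - 7 * (257 / 5000) * (r ^ 2 - 1)
      - 6 * (257 / 5000)) := by
  have h3 : 3 / 2 ≤ r := by nlinarith
  obtain ⟨d, hd, rfl⟩ : ∃ d : ℝ, 0 ≤ d ∧ r = 3 / 2 + d := ⟨r - 3 / 2, by linarith, by ring⟩
  nlinarith [mul_nonneg hd hd, mul_nonneg (mul_nonneg hd hd) hd, sq_nonneg (d - 1 / 5),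
    mul_nonneg hd (sq_nonneg (d - 1 / 5)), mul_nonneg (mul_nonneg hd hd) (mul_nonneg hd hd),
    mul_nonneg (mul_nonneg (mul_nonneg hd hd) (mul_nonneg hd hd)) hd,
    mul_nonneg (mul_nonneg (mul_nonneg hd hd) (mul_nonneg hd hd)) (mul_nonneg hd hd)]

lemma nB07195 (r : ℝ) (h1 : 1 ≤ r) (h2 : r ^ 2 - 1 ≤ 29 / 20) :
    r ^ 2 - 1 - 29 / 20 ≤ 43 / 100 * (r + 1) ^ 2 * ((r ^ 2 - 1) ^ 2 - 7 * (1439 / 20000) * (r ^ 2 - 1)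
      - 6 * (1439 / 20000)) := by
  have h3 : r ≤ 783 / 500 := by nlinarith
  nlinarith [mul_nonneg (sub_nonneg.2 h1) (sub_nonneg.2 h3), sq_nonneg (r - 5 / 4),
    sq_nonneg ((r - 5 / 4) * r), sq_nonneg ((r - 5 / 4) * (r + 1) * r),
    mul_nonneg (sub_nonneg.2 h1) (sq_nonneg (r - 5 / 4)),
    mul_nonneg (sub_nonneg.2 h1) (sq_nonneg ((r - 5 / 4) * r)),
    mul_nonneg (sub_nonneg.2 h3) (sq_nonneg (r - 5 / 4)),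
    mul_nonneg (sub_nonneg.2 h1) (sq_nonneg ((r - 5 / 4) * (r + 1)))]

lemma nC07195 (r : ℝ) (h1 : 1 ≤ r) (h2 : 29 / 20 ≤ r ^ 2 - 1) :
    r ^ 2 - 1 - 29 / 20 ≤ 43 / 100 * (r - 1) ^ 2 * ((r ^ 2 - 1) ^ 2 - 7 * (1439 / 20000) * (r ^ 2 - 1)
      - 6 * (1439 / 20000)) := by
  have h3 : 313 / 200 ≤ r := by nlinarith
  obtain ⟨d, hd, rfl⟩ : ∃ d : ℝ, 0 ≤ d ∧ r = 313 / 200 + d := ⟨r - 313 / 200, by linarith, by ring⟩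
  nlinarith [mul_nonneg hd hd, mul_nonneg (mul_nonneg hd hd) hd, sq_nonneg (d - 1 / 5),
    mul_nonneg hd (sq_nonneg (d - 1 / 5)), mul_nonneg (mul_nonneg hd hd) (mul_nonneg hd hd),
    mul_nonneg (mul_nonneg (mul_nonneg hd hd) (mul_nonneg hd hd)) hd,
    mul_nonneg (mul_nonneg (mul_nonneg hd hd) (mul_nonneg hd hd)) (mul_nonneg hd hd)]

lemma nB1112 (r : ℝ) (h1 : 1 ≤ r) (h2 : r ^ 2 - 1 ≤ 91 / 50) :
    r ^ 2 - 1 - 91 / 50 ≤ 7 / 25 * (r + 1) ^ 2 * ((r ^ 2 - 1) ^ 2 - 7 * (139 / 1250) * (r ^ 2 - 1)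
      - 6 * (139 / 1250)) := by
  have h3 : r ≤ 42 / 25 := by nlinarith
  nlinarith [mul_nonneg (sub_nonneg.2 h1) (sub_nonneg.2 h3), sq_nonneg (r - 27 / 20),
    sq_nonneg ((r - 27 / 20) * r), sq_nonneg ((r - 27 / 20) * (r + 1) * r),
    mul_nonneg (sub_nonneg.2 h1) (sq_nonneg (r - 27 / 20)),
    mul_nonneg (sub_nonneg.2 h1) (sq_nonneg ((r - 27 / 20) * r)),
    mul_nonneg (sub_nonneg.2 h3) (sq_nonneg (r - 27 / 20)),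
    mul_nonneg (sub_nonneg.2 h1) (sq_nonneg ((r - 27 / 20) * (r + 1)))]

lemma nC1112 (r : ℝ) (h1 : 1 ≤ r) (h2 : 91 / 50 ≤ r ^ 2 - 1) :
    r ^ 2 - 1 - 91 / 50 ≤ 7 / 25 * (r - 1) ^ 2 * ((r ^ 2 - 1) ^ 2 - 7 * (139 / 1250) * (r ^ 2 - 1)
      - 6 * (139 / 1250)) := by
  have h3 : 1679 / 1000 ≤ r := by nlinarith
  obtain ⟨d, hd, rfl⟩ : ∃ d : ℝ, 0 ≤ d ∧ r = 1679 / 1000 + d := ⟨r - 1679 / 1000, by linarith, by ring⟩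
  nlinarith [mul_nonneg hd hd, mul_nonneg (mul_nonneg hd hd) hd, sq_nonneg (d - 1 / 5),
    mul_nonneg hd (sq_nonneg (d - 1 / 5)), mul_nonneg (mul_nonneg hd hd) (mul_nonneg hd hd),
    mul_nonneg (mul_nonneg (mul_nonneg hd hd) (mul_nonneg hd hd)) hd,
    mul_nonneg (mul_nonneg (mul_nonneg hd hd) (mul_nonneg hd hd)) (mul_nonneg hd hd)]

lemma nB1919 (r : ℝ) (h1 : 1 ≤ r) (h2 : r ^ 2 - 1 ≤ 247 / 100) :
    r ^ 2 - 1 - 247 / 100 ≤ 3 / 20 * (r + 1) ^ 2 * ((r ^ 2 - 1) ^ 2 - 7 * (1919 / 10000) * (r ^ 2 - 1)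
      - 6 * (1919 / 10000)) := by
  have h3 : r ≤ 1863 / 1000 := by nlinarith
  nlinarith [mul_nonneg (sub_nonneg.2 h1) (sub_nonneg.2 h3), sq_nonneg (r - 153 / 100),
    sq_nonneg ((r - 153 / 100) * r), sq_nonneg ((r - 153 / 100) * (r + 1) * r),
    mul_nonneg (sub_nonneg.2 h1) (sq_nonneg (r - 153 / 100)),
    mul_nonneg (sub_nonneg.2 h1) (sq_nonneg ((r - 153 / 100) * r)),
    mul_nonneg (sub_nonneg.2 h3) (sq_nonneg (r - 153 / 100)),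
    mul_nonneg (sub_nonneg.2 h1) (sq_nonneg ((r - 153 / 100) * (r + 1)))]

lemma nC1919 (r : ℝ) (h1 : 1 ≤ r) (h2 : 247 / 100 ≤ r ^ 2 - 1) :
    r ^ 2 - 1 - 247 / 100 ≤ 3 / 20 * (r - 1) ^ 2 * ((r ^ 2 - 1) ^ 2 - 7 * (1919 / 10000) * (r ^ 2 - 1)
      - 6 * (1919 / 10000)) := by
  have h3 : 931 / 500 ≤ r := by nlinarith
  obtain ⟨d, hd, rfl⟩ : ∃ d : ℝ, 0 ≤ d ∧ r = 931 / 500 + d := ⟨r - 931 / 500, by linarith, by ring⟩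
  nlinarith [mul_nonneg hd hd, mul_nonneg (mul_nonneg hd hd) hd, sq_nonneg (d - 1 / 5),
    mul_nonneg hd (sq_nonneg (d - 1 / 5)), mul_nonneg (mul_nonneg hd hd) (mul_nonneg hd hd),
    mul_nonneg (mul_nonneg (mul_nonneg hd hd) (mul_nonneg hd hd)) hd,
    mul_nonneg (mul_nonneg (mul_nonneg hd hd) (mul_nonneg hd hd)) (mul_nonneg hd hd)]

section

variable {X : Type*} {E : Type*} [NormedAddCommGroup E] [InnerProductSpace ℝ E]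
  [FiniteDimensional ℝ E] [TopologicalSpace X] [MeasurableSpace X] [CompactSpace X] [BorelSpace X]
  {μ : Measure X} [IsProbabilityMeasure μ] {m : ℕ} {p n : X → E} {J : E →L[ℝ] E} {Λ : ℝ}

/-- `E φ² ≤ 2817 / 1000 E a` for `Λ² ≤ 31 / 2000` -/
theorem PL0155 (d : Dat μ m p n J Λ) (hm : 36 ≤ m) (hκ : Λ ^ 2 ≤ 31 / 2000)
    (hH : ∫ x, aa J p n x ∂μ ≤ 1 / 50) :
    ∫ x, ph m J p x ^ 2 ∂μ ≤ 2817 / 1000 * ∫ x, aa J p n x ∂μ :=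
  d.P_level (κ := 31 / 2000) (A := 4 / 5) (ℓ := 249 / 2000) (s := 1663 / 5000) (θ := 253 / 10000) (lam := 91 / 200) (w := 117 / 5000)
    (t1 := 709 / 1000) (t2 := 1301 / 1000) (t3 := 10537 / 1000) (t4 := 129 / 1000) (ρ1 := 1457 / 10000) (e := 21 / 10000)
    (ρ3 := 237 / 1250) (ρ4 := 2683 / 10000) hm hκ (by constructor <;> norm_num)
    (d.E_aq (l := 41 / 25) hκ (by norm_num) (by norm_num) nB0155 nC0155) hH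

/-- `E φ² ≤ 92 / 25 E a` for `Λ² ≤ 9 / 250` -/
theorem PL036 (d : Dat μ m p n J Λ) (hm : 36 ≤ m) (hκ : Λ ^ 2 ≤ 9 / 250)
    (hH : ∫ x, aa J p n x ∂μ ≤ 1 / 50) :
    ∫ x, ph m J p x ^ 2 ∂μ ≤ 92 / 25 * ∫ x, aa J p n x ∂μ :=
  d.P_level (κ := 9 / 250) (A := 27 / 25) (ℓ := 949 / 5000) (s := 553 / 1250) (θ := 123 / 2000) (lam := 179 / 500) (w := 57 / 1000)
    (t1 := 773 / 1000) (t2 := 149 / 125) (t3 := 1467 / 250) (t4 := 331 / 1000) (ρ1 := 2351 / 10000) (e := 3 / 2000)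
    (ρ3 := 709 / 2000) (ρ4 := 2121 / 5000) hm hκ (by constructor <;> norm_num)
    (d.E_aq (l := 41 / 50) hκ (by norm_num) (by norm_num) nB036 nC036) hH

/-- `E φ² ≤ 2247 / 500 E a` for `Λ² ≤ 257 / 5000` -/
theorem PL0514 (d : Dat μ m p n J Λ) (hm : 36 ≤ m) (hκ : Λ ^ 2 ≤ 257 / 5000)
    (hH : ∫ x, aa J p n x ∂μ ≤ 1 / 50) :
    ∫ x, ph m J p x ^ 2 ∂μ ≤ 2247 / 500 * ∫ x, aa J p n x ∂μ :=
  d.P_level (κ := 257 / 5000) (A := 5 / 4) (ℓ := 567 / 2500) (s := 2541 / 5000) (θ := 463 / 5000) (lam := 303 / 1000) (w := 859 / 10000)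
    (t1 := 831 / 1000) (t2 := 549 / 500) (t3 := 1967 / 500) (t4 := 551 / 1000) (ρ1 := 593 / 2000) (e := 11 / 10000)
    (ρ3 := 5083 / 10000) (ρ4 := 326 / 625) hm hκ (by constructor <;> norm_num)
    (d.E_aq (l := 59 / 100) hκ (by norm_num) (by norm_num) nB0514 nC0514) hH

/-- `E φ² ≤ 6093 / 1000 E a` for `Λ² ≤ 1439 / 20000` -/
theorem PL07195 (d : Dat μ m p n J Λ) (hm : 36 ≤ m) (hκ : Λ ^ 2 ≤ 1439 / 20000)
    (hH : ∫ x, aa J p n x ∂μ ≤ 1 / 50) :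
    ∫ x, ph m J p x ^ 2 ∂μ ≤ 6093 / 1000 * ∫ x, aa J p n x ∂μ :=
  d.P_level (κ := 1439 / 20000) (A := 29 / 20) (ℓ := 2683 / 10000) (s := 5841 / 10000) (θ := 1357 / 10000) (lam := 249 / 1000) (w := 1259 / 10000)
    (t1 := 47 / 50) (t2 := 47 / 50) (t3 := 617 / 250) (t4 := 1) (ρ1 := 481 / 1250) (e := 29 / 2000)
    (ρ3 := 4023 / 5000) (ρ4 := 801 / 1250) hm hκ (by constructor <;> norm_num)
    (d.E_aq (l := 43 / 100) hκ (by norm_num) (by norm_num) nB07195 nC07195) hH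

/-- `E φ² ≤ 10573 / 1000 E a` for `Λ² ≤ 139 / 1250` -/
theorem PL1112 (d : Dat μ m p n J Λ) (hm : 36 ≤ m) (hκ : Λ ^ 2 ≤ 139 / 1250)
    (hH : ∫ x, aa J p n x ∂μ ≤ 1 / 50) :
    ∫ x, ph m J p x ^ 2 ∂μ ≤ 10573 / 1000 * ∫ x, aa J p n x ∂μ :=
  d.P_level (κ := 139 / 1250) (A := 91 / 50) (ℓ := 667 / 2000) (s := 7063 / 10000) (θ := 403 / 2500) (lam := 44 / 125) (w := 187 / 1250)
    (t1 := 147 / 125) (t2 := 147 / 125) (t3 := 3251 / 1000) (t4 := 1) (ρ1 := 521 / 1250) (e := 10777 / 10000)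
    (ρ3 := 2567 / 2000) (ρ4 := 1983 / 2000) hm hκ (by constructor <;> norm_num)
    (d.E_aq (l := 7 / 25) hκ (by norm_num) (by norm_num) nB1112 nC1112) hH

/-- `E φ² ≤ 11903 / 500 E a` for `Λ² ≤ 1919 / 10000` -/
theorem PL1919 (d : Dat μ m p n J Λ) (hm : 36 ≤ m) (hκ : Λ ^ 2 ≤ 1919 / 10000)
    (hH : ∫ x, aa J p n x ∂μ ≤ 1 / 50) :
    ∫ x, ph m J p x ^ 2 ∂μ ≤ 11903 / 500 * ∫ x, aa J p n x ∂μ :=
  d.P_level (κ := 1919 / 10000) (A := 247 / 100) (ℓ := 4381 / 10000) (s := 2267 / 2500) (θ := 523 / 2500) (lam := 517 / 1000) (w := 971 / 5000)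
    (t1 := 204 / 125) (t2 := 204 / 125) (t3 := 4879 / 1000) (t4 := 1) (ρ1 := 4681 / 10000) (e := 36933 / 10000)
    (ρ3 := 12197 / 5000) (ρ4 := 9169 / 5000) hm hκ (by constructor <;> norm_num)
    (d.E_aq (l := 3 / 20) hκ (by norm_num) (by norm_num) nB1919 nC1919) hH

end

end Vale.Agent.P224.R2.H869
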