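import Vale.Agent.P224.R2.H686.PhiF
import Vale.Agent.P224.R2.H686.PhiA

/-!
More levels of `E φ² ≤ c₁ E a` for `Λ² ≤ κ`, all `m ≥ 36` and `E a ≤ 1/50`.
-/

namespace Vale.Agent.P224.R2.H869

open MeasureTheory Module Function Set Vale.Agent.P224.R2.H470 Vale.Agent.P224.R2.H686
open scoped RealInnerProductSpace Topology ContDiff

lemma nB0206 (r : ℝ) (h1 : 1 ≤ r) (h2 : r ^ 2 - 1 ≤ 22 / 25) :
    r ^ 2 - 1 - 22 / 25 ≤ 131 / 100 * (r + 1) ^ 2 * ((r ^ 2 - 1) ^ 2 - 7 * (103 / 5000) * (r ^ 2 - 1)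
      - 6 * (103 / 5000)) := by
  have h3 : r ≤ 343 / 250 := by nlinarith
  nlinarith [mul_nonneg (sub_nonneg.2 h1) (sub_nonneg.2 h3), sq_nonneg (r - 109 / 100),
    sq_nonneg ((r - 109 / 100) * r), sq_nonneg ((r - 109 / 100) * (r + 1) * r),
    mul_nonneg (sub_nonneg.2 h1) (sq_nonneg (r - 109 / 100)),
    mul_nonneg (sub_nonneg.2 h1) (sq_nonneg ((r - 109 / 100) * r)),
    mul_nonneg (sub_nonneg.2 h3) (sq_nonneg (r - 109 / 100)),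
    mul_nonneg (sub_nonneg.2 h1) (sq_nonneg ((r - 109 / 100) * (r + 1)))]

lemma nC0206 (r : ℝ) (h1 : 1 ≤ r) (h2 : 22 / 25 ≤ r ^ 2 - 1) :
    r ^ 2 - 1 - 22 / 25 ≤ 131 / 100 * (r - 1) ^ 2 * ((r ^ 2 - 1) ^ 2 - 7 * (103 / 5000) * (r ^ 2 - 1)
      - 6 * (103 / 5000)) := by
  have h3 : 1371 / 1000 ≤ r := by nlinarith
  obtain ⟨d, hd, rfl⟩ : ∃ d : ℝ, 0 ≤ d ∧ r = 1371 / 1000 + d := ⟨r - 1371 / 1000, by linarith, by ring⟩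
  nlinarith [mul_nonneg hd hd, mul_nonneg (mul_nonneg hd hd) hd, sq_nonneg (d - 1 / 5),
    mul_nonneg hd (sq_nonneg (d - 1 / 5)), mul_nonneg (mul_nonneg hd hd) (mul_nonneg hd hd),
    mul_nonneg (mul_nonneg (mul_nonneg hd hd) (mul_nonneg hd hd)) hd,
    mul_nonneg (mul_nonneg (mul_nonneg hd hd) (mul_nonneg hd hd)) (mul_nonneg hd hd)]

lemma nB0377 (r : ℝ) (h1 : 1 ≤ r) (h2 : r ^ 2 - 1 ≤ 11 / 10) :
    r ^ 2 - 1 - 11 / 10 ≤ 39 / 50 * (r + 1) ^ 2 * ((r ^ 2 - 1) ^ 2 - 7 * (377 / 10000) * (r ^ 2 - 1)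
      - 6 * (377 / 10000)) := by
  have h3 : r ≤ 29 / 20 := by nlinarith
  nlinarith [mul_nonneg (sub_nonneg.2 h1) (sub_nonneg.2 h3), sq_nonneg (r - 23 / 20),
    sq_nonneg ((r - 23 / 20) * r), sq_nonneg ((r - 23 / 20) * (r + 1) * r),
    mul_nonneg (sub_nonneg.2 h1) (sq_nonneg (r - 23 / 20)),
    mul_nonneg (sub_nonneg.2 h1) (sq_nonneg ((r - 23 / 20) * r)),
    mul_nonneg (sub_nonneg.2 h3) (sq_nonneg (r - 23 / 20)),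
    mul_nonneg (sub_nonneg.2 h1) (sq_nonneg ((r - 23 / 20) * (r + 1)))]

lemma nC0377 (r : ℝ) (h1 : 1 ≤ r) (h2 : 11 / 10 ≤ r ^ 2 - 1) :
    r ^ 2 - 1 - 11 / 10 ≤ 39 / 50 * (r - 1) ^ 2 * ((r ^ 2 - 1) ^ 2 - 7 * (377 / 10000) * (r ^ 2 - 1)
      - 6 * (377 / 10000)) := by
  have h3 : 1449 / 1000 ≤ r := by nlinarith
  obtain ⟨d, hd, rfl⟩ : ∃ d : ℝ, 0 ≤ d ∧ r = 1449 / 1000 + d := ⟨r - 1449 / 1000, by linarith, by ring⟩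
  nlinarith [mul_nonneg hd hd, mul_nonneg (mul_nonneg hd hd) hd, sq_nonneg (d - 1 / 5),
    mul_nonneg hd (sq_nonneg (d - 1 / 5)), mul_nonneg (mul_nonneg hd hd) (mul_nonneg hd hd),
    mul_nonneg (mul_nonneg (mul_nonneg hd hd) (mul_nonneg hd hd)) hd,
    mul_nonneg (mul_nonneg (mul_nonneg hd hd) (mul_nonneg hd hd)) (mul_nonneg hd hd)]

lemma nB0566 (r : ℝ) (h1 : 1 ≤ r) (h2 : r ^ 2 - 1 ≤ 131 / 100) :
    r ^ 2 - 1 - 131 / 100 ≤ 27 / 50 * (r + 1) ^ 2 * ((r ^ 2 - 1) ^ 2 - 7 * (283 / 5000) * (r ^ 2 - 1)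
      - 6 * (283 / 5000)) := by
  have h3 : r ≤ 38 / 25 := by nlinarith
  nlinarith [mul_nonneg (sub_nonneg.2 h1) (sub_nonneg.2 h3), sq_nonneg (r - 6 / 5),
    sq_nonneg ((r - 6 / 5) * r), sq_nonneg ((r - 6 / 5) * (r + 1) * r),
    mul_nonneg (sub_nonneg.2 h1) (sq_nonneg (r - 6 / 5)),
    mul_nonneg (sub_nonneg.2 h1) (sq_nonneg ((r - 6 / 5) * r)),
    mul_nonneg (sub_nonneg.2 h3) (sq_nonneg (r - 6 / 5)),
    mul_nonneg (sub_nonneg.2 h1) (sq_nonneg ((r - 6 / 5) * (r + 1)))]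

lemma nC0566 (r : ℝ) (h1 : 1 ≤ r) (h2 : 131 / 100 ≤ r ^ 2 - 1) :
    r ^ 2 - 1 - 131 / 100 ≤ 27 / 50 * (r - 1) ^ 2 * ((r ^ 2 - 1) ^ 2 - 7 * (283 / 5000) * (r ^ 2 - 1)
      - 6 * (283 / 5000)) := by
  have h3 : 1519 / 1000 ≤ r := by nlinarith
  obtain ⟨d, hd, rfl⟩ : ∃ d : ℝ, 0 ≤ d ∧ r = 1519 / 1000 + d := ⟨r - 1519 / 1000, by linarith, by ring⟩
  nlinarith [mul_nonneg hd hd, mul_nonneg (mul_nonneg hd hd) hd, sq_nonneg (d - 1 / 5),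
    mul_nonneg hd (sq_nonneg (d - 1 / 5)), mul_nonneg (mul_nonneg hd hd) (mul_nonneg hd hd),
    mul_nonneg (mul_nonneg (mul_nonneg hd hd) (mul_nonneg hd hd)) hd,
    mul_nonneg (mul_nonneg (mul_nonneg hd hd) (mul_nonneg hd hd)) (mul_nonneg hd hd)]

lemma nB0765 (r : ℝ) (h1 : 1 ≤ r) (h2 : r ^ 2 - 1 ≤ 3 / 2) :
    r ^ 2 - 1 - 3 / 2 ≤ 41 / 100 * (r + 1) ^ 2 * ((r ^ 2 - 1) ^ 2 - 7 * (153 / 2000) * (r ^ 2 - 1)
      - 6 * (153 / 2000)) := by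
  have h3 : r ≤ 791 / 500 := by nlinarith
  nlinarith [mul_nonneg (sub_nonneg.2 h1) (sub_nonneg.2 h3), sq_nonneg (r - 63 / 50),
    sq_nonneg ((r - 63 / 50) * r), sq_nonneg ((r - 63 / 50) * (r + 1) * r),
    mul_nonneg (sub_nonneg.2 h1) (sq_nonneg (r - 63 / 50)),
    mul_nonneg (sub_nonneg.2 h1) (sq_nonneg ((r - 63 / 50) * r)),
    mul_nonneg (sub_nonneg.2 h3) (sq_nonneg (r - 63 / 50)),
    mul_nonneg (sub_nonneg.2 h1) (sq_nonneg ((r - 63 / 50) * (r + 1)))]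

lemma nC0765 (r : ℝ) (h1 : 1 ≤ r) (h2 : 3 / 2 ≤ r ^ 2 - 1) :
    r ^ 2 - 1 - 3 / 2 ≤ 41 / 100 * (r - 1) ^ 2 * ((r ^ 2 - 1) ^ 2 - 7 * (153 / 2000) * (r ^ 2 - 1)
      - 6 * (153 / 2000)) := by
  have h3 : 1581 / 1000 ≤ r := by nlinarith
  obtain ⟨d, hd, rfl⟩ : ∃ d : ℝ, 0 ≤ d ∧ r = 1581 / 1000 + d := ⟨r - 1581 / 1000, by linarith, by ring⟩
  nlinarith [mul_nonneg hd hd, mul_nonneg (mul_nonneg hd hd) hd, sq_nonneg (d - 1 / 5),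
    mul_nonneg hd (sq_nonneg (d - 1 / 5)), mul_nonneg (mul_nonneg hd hd) (mul_nonneg hd hd),
    mul_nonneg (mul_nonneg (mul_nonneg hd hd) (mul_nonneg hd hd)) hd,
    mul_nonneg (mul_nonneg (mul_nonneg hd hd) (mul_nonneg hd hd)) (mul_nonneg hd hd)]

lemma nB1234 (r : ℝ) (h1 : 1 ≤ r) (h2 : r ^ 2 - 1 ≤ 48 / 25) :
    r ^ 2 - 1 - 48 / 25 ≤ 1 / 4 * (r + 1) ^ 2 * ((r ^ 2 - 1) ^ 2 - 7 * (617 / 5000) * (r ^ 2 - 1)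
      - 6 * (617 / 5000)) := by
  have h3 : r ≤ 1709 / 1000 := by nlinarith
  nlinarith [mul_nonneg (sub_nonneg.2 h1) (sub_nonneg.2 h3), sq_nonneg (r - 69 / 50),
    sq_nonneg ((r - 69 / 50) * r), sq_nonneg ((r - 69 / 50) * (r + 1) * r),
    mul_nonneg (sub_nonneg.2 h1) (sq_nonneg (r - 69 / 50)),
    mul_nonneg (sub_nonneg.2 h1) (sq_nonneg ((r - 69 / 50) * r)),
    mul_nonneg (sub_nonneg.2 h3) (sq_nonneg (r - 69 / 50)),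
    mul_nonneg (sub_nonneg.2 h1) (sq_nonneg ((r - 69 / 50) * (r + 1)))]

lemma nC1234 (r : ℝ) (h1 : 1 ≤ r) (h2 : 48 / 25 ≤ r ^ 2 - 1) :
    r ^ 2 - 1 - 48 / 25 ≤ 1 / 4 * (r - 1) ^ 2 * ((r ^ 2 - 1) ^ 2 - 7 * (617 / 5000) * (r ^ 2 - 1)
      - 6 * (617 / 5000)) := by
  have h3 : 427 / 250 ≤ r := by nlinarith
  obtain ⟨d, hd, rfl⟩ : ∃ d : ℝ, 0 ≤ d ∧ r = 427 / 250 + d := ⟨r - 427 / 250, by linarith, by ring⟩
  nlinarith [mul_nonneg hd hd, mul_nonneg (mul_nonneg hd hd) hd, sq_nonneg (d - 1 / 5),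
    mul_nonneg hd (sq_nonneg (d - 1 / 5)), mul_nonneg (mul_nonneg hd hd) (mul_nonneg hd hd),
    mul_nonneg (mul_nonneg (mul_nonneg hd hd) (mul_nonneg hd hd)) hd,
    mul_nonneg (mul_nonneg (mul_nonneg hd hd) (mul_nonneg hd hd)) (mul_nonneg hd hd)]

lemma nB206 (r : ℝ) (h1 : 1 ≤ r) (h2 : r ^ 2 - 1 ≤ 13 / 5) :
    r ^ 2 - 1 - 13 / 5 ≤ 7 / 50 * (r + 1) ^ 2 * ((r ^ 2 - 1) ^ 2 - 7 * (103 / 500) * (r ^ 2 - 1)
      - 6 * (103 / 500)) := by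
  have h3 : r ≤ 949 / 500 := by nlinarith
  nlinarith [mul_nonneg (sub_nonneg.2 h1) (sub_nonneg.2 h3), sq_nonneg (r - 39 / 25),
    sq_nonneg ((r - 39 / 25) * r), sq_nonneg ((r - 39 / 25) * (r + 1) * r),
    mul_nonneg (sub_nonneg.2 h1) (sq_nonneg (r - 39 / 25)),
    mul_nonneg (sub_nonneg.2 h1) (sq_nonneg ((r - 39 / 25) * r)),
    mul_nonneg (sub_nonneg.2 h3) (sq_nonneg (r - 39 / 25)),
    mul_nonneg (sub_nonneg.2 h1) (sq_nonneg ((r - 39 / 25) * (r + 1)))]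

lemma nC206 (r : ℝ) (h1 : 1 ≤ r) (h2 : 13 / 5 ≤ r ^ 2 - 1) :
    r ^ 2 - 1 - 13 / 5 ≤ 7 / 50 * (r - 1) ^ 2 * ((r ^ 2 - 1) ^ 2 - 7 * (103 / 500) * (r ^ 2 - 1)
      - 6 * (103 / 500)) := by
  have h3 : 1897 / 1000 ≤ r := by nlinarith
  obtain ⟨d, hd, rfl⟩ : ∃ d : ℝ, 0 ≤ d ∧ r = 1897 / 1000 + d := ⟨r - 1897 / 1000, by linarith, by ring⟩
  nlinarith [mul_nonneg hd hd, mul_nonneg (mul_nonneg hd hd) hd, sq_nonneg (d - 1 / 5),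
    mul_nonneg hd (sq_nonneg (d - 1 / 5)), mul_nonneg (mul_nonneg hd hd) (mul_nonneg hd hd),
    mul_nonneg (mul_nonneg (mul_nonneg hd hd) (mul_nonneg hd hd)) hd,
    mul_nonneg (mul_nonneg (mul_nonneg hd hd) (mul_nonneg hd hd)) (mul_nonneg hd hd)]

section

variable {X : Type*} {E : Type*} [NormedAddCommGroup E] [InnerProductSpace ℝ E]
  [FiniteDimensional ℝ E] [TopologicalSpace X] [MeasurableSpace X] [CompactSpace X] [BorelSpace X]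
  {μ : Measure X} [IsProbabilityMeasure μ] {m : ℕ} {p n : X → E} {J : E →L[ℝ] E} {Λ : ℝ}

/-- `E φ² ≤ 3021 / 1000 E a` for `Λ² ≤ 103 / 5000` -/
theorem PL0206 (d : Dat μ m p n J Λ) (hm : 36 ≤ m) (hκ : Λ ^ 2 ≤ 103 / 5000)
    (hH : ∫ x, aa J p n x ∂μ ≤ 1 / 50) :
    ∫ x, ph m J p x ^ 2 ∂μ ≤ 3021 / 1000 * ∫ x, aa J p n x ∂μ :=
  d.P_level (κ := 103 / 5000) (A := 22 / 25) (ℓ := 359 / 2500) (s := 909 / 2500) (θ := 339 / 10000) (lam := 213 / 500) (w := 157 / 5000)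
    (t1 := 181 / 250) (t2 := 1269 / 1000) (t3 := 10643 / 1000) (t4 := 171 / 1000) (ρ1 := 341 / 2000) (e := 9 / 5000)
    (ρ3 := 573 / 2500) (ρ4 := 779 / 2500) hm hκ (by constructor <;> norm_num)
    (d.E_aq (l := 131 / 100) hκ (by norm_num) (by norm_num) nB0206 nC0206) hH

/-- `E φ² ≤ 3761 / 1000 E a` for `Λ² ≤ 377 / 10000` -/
theorem PL0377 (d : Dat μ m p n J Λ) (hm : 36 ≤ m) (hκ : Λ ^ 2 ≤ 377 / 10000)
    (hH : ∫ x, aa J p n x ∂μ ≤ 1 / 50) :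
    ∫ x, ph m J p x ^ 2 ∂μ ≤ 3761 / 1000 * ∫ x, aa J p n x ∂μ :=
  d.P_level (κ := 377 / 10000) (A := 11 / 10) (ℓ := 971 / 5000) (s := 4501 / 10000) (θ := 81 / 1250) (lam := 351 / 1000) (w := 601 / 10000)
    (t1 := 389 / 500) (t2 := 1183 / 1000) (t3 := 5579 / 1000) (t4 := 87 / 250) (ρ1 := 121 / 500) (e := 3 / 1250)
    (ρ3 := 3689 / 10000) (ρ4 := 2177 / 5000) hm hκ (by constructor <;> norm_num)
    (d.E_aq (l := 39 / 50) hκ (by norm_num) (by norm_num) nB0377 nC0377) hH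

/-- `E φ² ≤ 4833 / 1000 E a` for `Λ² ≤ 283 / 5000` -/
theorem PL0566 (d : Dat μ m p n J Λ) (hm : 36 ≤ m) (hκ : Λ ^ 2 ≤ 283 / 5000)
    (hH : ∫ x, aa J p n x ∂μ ≤ 1 / 50) :
    ∫ x, ph m J p x ^ 2 ∂μ ≤ 4833 / 1000 * ∫ x, aa J p n x ∂μ :=
  d.P_level (κ := 283 / 5000) (A := 131 / 100) (ℓ := 119 / 500) (s := 1057 / 2000) (θ := 517 / 5000) (lam := 36 / 125) (w := 959 / 10000)
    (t1 := 427 / 500) (t2 := 1059 / 1000) (t3 := 3273 / 1000) (t4 := 323 / 500) (ρ1 := 1591 / 5000) (e := 13 / 10000)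
    (ρ3 := 571 / 1000) (ρ4 := 1379 / 2500) hm hκ (by constructor <;> norm_num)
    (d.E_aq (l := 27 / 50) hκ (by norm_num) (by norm_num) nB0566 nC0566) hH

/-- `E φ² ≤ 6563 / 1000 E a` for `Λ² ≤ 153 / 2000` -/
theorem PL0765 (d : Dat μ m p n J Λ) (hm : 36 ≤ m) (hκ : Λ ^ 2 ≤ 153 / 2000)
    (hH : ∫ x, aa J p n x ∂μ ≤ 1 / 50) :
    ∫ x, ph m J p x ^ 2 ∂μ ≤ 6563 / 1000 * ∫ x, aa J p n x ∂μ :=
  d.P_level (κ := 153 / 2000) (A := 3 / 2) (ℓ := 1383 / 5000) (s := 1499 / 2500) (θ := 347 / 2500) (lam := 131 / 500) (w := 161 / 1250)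
    (t1 := 121 / 125) (t2 := 121 / 125) (t3 := 1281 / 500) (t4 := 1) (ρ1 := 973 / 2500) (e := 1321 / 10000)
    (ρ3 := 8571 / 10000) (ρ4 := 6793 / 10000) hm hκ (by constructor <;> norm_num)
    (d.E_aq (l := 41 / 100) hκ (by norm_num) (by norm_num) nB0765 nC0765) hH

/-- `E φ² ≤ 12183 / 1000 E a` for `Λ² ≤ 617 / 5000` -/
theorem PL1234 (d : Dat μ m p n J Λ) (hm : 36 ≤ m) (hκ : Λ ^ 2 ≤ 617 / 5000)
    (hH : ∫ x, aa J p n x ∂μ ≤ 1 / 50) :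
    ∫ x, ph m J p x ^ 2 ∂μ ≤ 12183 / 1000 * ∫ x, aa J p n x ∂μ :=
  d.P_level (κ := 617 / 5000) (A := 48 / 25) (ℓ := 3513 / 10000) (s := 3701 / 5000) (θ := 843 / 5000) (lam := 19 / 50) (w := 313 / 2000)
    (t1 := 1247 / 1000) (t2 := 1247 / 1000) (t3 := 349 / 100) (t4 := 1) (ρ1 := 1063 / 2500) (e := 1789 / 1250)
    (ρ3 := 14433 / 10000) (ρ4 := 5541 / 5000) hm hκ (by constructor <;> norm_num)
    (d.E_aq (l := 1 / 4) hκ (by norm_num) (by norm_num) nB1234 nC1234) hH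

/-- `E φ² ≤ 26923 / 1000 E a` for `Λ² ≤ 103 / 500` -/
theorem PL206 (d : Dat μ m p n J Λ) (hm : 36 ≤ m) (hκ : Λ ^ 2 ≤ 103 / 500)
    (hH : ∫ x, aa J p n x ∂μ ≤ 1 / 50) :
    ∫ x, ph m J p x ^ 2 ∂μ ≤ 26923 / 1000 * ∫ x, aa J p n x ∂μ :=
  d.P_level (κ := 103 / 500) (A := 13 / 5) (ℓ := 4539 / 10000) (s := 15 / 16) (θ := 1087 / 5000) (lam := 541 / 1000) (w := 1009 / 5000)
    (t1 := 1711 / 1000) (t2 := 1711 / 1000) (t3 := 5189 / 1000) (t4 := 1) (ρ1 := 953 / 2000) (e := 42271 / 10000)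
    (ρ3 := 13337 / 5000) (ρ4 := 19997 / 10000) hm hκ (by constructor <;> norm_num)
    (d.E_aq (l := 7 / 50) hκ (by norm_num) (by norm_num) nB206 nC206) hH

end

end Vale.Agent.P224.R2.H869
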