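import Vale.Agent.P224.R2.H686.PhiF
import Vale.Agent.P224.R2.H686.PhiA

/-!
More levels of `E φ² ≤ c₁ E a` for `Λ² ≤ κ`, all `m ≥ 36` and `E a ≤ 1/50`.
-/

namespace Vale.Agent.P224.R2.H869

open MeasureTheory Module Function Set Vale.Agent.P224.R2.H470 Vale.Agent.P224.R2.H686
open scoped RealInnerProductSpace Topology ContDiff

lemma nB0223 (r : ℝ) (h1 : 1 ≤ r) (h2 : r ^ 2 - 1 ≤ 91 / 100) :
    r ^ 2 - 1 - 91 / 100 ≤ 61 / 50 * (r + 1) ^ 2 * ((r ^ 2 - 1) ^ 2 - 7 * (223 / 10000) * (r ^ 2 - 1)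
      - 6 * (223 / 10000)) := by
  have h3 : r ≤ 1383 / 1000 := by nlinarith
  nlinarith [mul_nonneg (sub_nonneg.2 h1) (sub_nonneg.2 h3), sq_nonneg (r - 11 / 10),
    sq_nonneg ((r - 11 / 10) * r), sq_nonneg ((r - 11 / 10) * (r + 1) * r),
    mul_nonneg (sub_nonneg.2 h1) (sq_nonneg (r - 11 / 10)),
    mul_nonneg (sub_nonneg.2 h1) (sq_nonneg ((r - 11 / 10) * r)),
    mul_nonneg (sub_nonneg.2 h3) (sq_nonneg (r - 11 / 10)),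
    mul_nonneg (sub_nonneg.2 h1) (sq_nonneg ((r - 11 / 10) * (r + 1)))]

lemma nC0223 (r : ℝ) (h1 : 1 ≤ r) (h2 : 91 / 100 ≤ r ^ 2 - 1) :
    r ^ 2 - 1 - 91 / 100 ≤ 61 / 50 * (r - 1) ^ 2 * ((r ^ 2 - 1) ^ 2 - 7 * (223 / 10000) * (r ^ 2 - 1)
      - 6 * (223 / 10000)) := by
  have h3 : 691 / 500 ≤ r := by nlinarith
  obtain ⟨d, hd, rfl⟩ : ∃ d : ℝ, 0 ≤ d ∧ r = 691 / 500 + d := ⟨r - 691 / 500, by linarith, by ring⟩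
  nlinarith [mul_nonneg hd hd, mul_nonneg (mul_nonneg hd hd) hd, sq_nonneg (d - 1 / 5),
    mul_nonneg hd (sq_nonneg (d - 1 / 5)), mul_nonneg (mul_nonneg hd hd) (mul_nonneg hd hd),
    mul_nonneg (mul_nonneg (mul_nonneg hd hd) (mul_nonneg hd hd)) hd,
    mul_nonneg (mul_nonneg (mul_nonneg hd hd) (mul_nonneg hd hd)) (mul_nonneg hd hd)]

lemma nB0412 (r : ℝ) (h1 : 1 ≤ r) (h2 : r ^ 2 - 1 ≤ 57 / 50) :
    r ^ 2 - 1 - 57 / 50 ≤ 18 / 25 * (r + 1) ^ 2 * ((r ^ 2 - 1) ^ 2 - 7 * (103 / 2500) * (r ^ 2 - 1)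
      - 6 * (103 / 2500)) := by
  have h3 : r ≤ 1463 / 1000 := by nlinarith
  nlinarith [mul_nonneg (sub_nonneg.2 h1) (sub_nonneg.2 h3), sq_nonneg (r - 29 / 25),
    sq_nonneg ((r - 29 / 25) * r), sq_nonneg ((r - 29 / 25) * (r + 1) * r),
    mul_nonneg (sub_nonneg.2 h1) (sq_nonneg (r - 29 / 25)),
    mul_nonneg (sub_nonneg.2 h1) (sq_nonneg ((r - 29 / 25) * r)),
    mul_nonneg (sub_nonneg.2 h3) (sq_nonneg (r - 29 / 25)),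
    mul_nonneg (sub_nonneg.2 h1) (sq_nonneg ((r - 29 / 25) * (r + 1)))]

lemma nC0412 (r : ℝ) (h1 : 1 ≤ r) (h2 : 57 / 50 ≤ r ^ 2 - 1) :
    r ^ 2 - 1 - 57 / 50 ≤ 18 / 25 * (r - 1) ^ 2 * ((r ^ 2 - 1) ^ 2 - 7 * (103 / 2500) * (r ^ 2 - 1)
      - 6 * (103 / 2500)) := by
  have h3 : 731 / 500 ≤ r := by nlinarith
  obtain ⟨d, hd, rfl⟩ : ∃ d : ℝ, 0 ≤ d ∧ r = 731 / 500 + d := ⟨r - 731 / 500, by linarith, by ring⟩
  nlinarith [mul_nonneg hd hd, mul_nonneg (mul_nonneg hd hd) hd, sq_nonneg (d - 1 / 5),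
    mul_nonneg hd (sq_nonneg (d - 1 / 5)), mul_nonneg (mul_nonneg hd hd) (mul_nonneg hd hd),
    mul_nonneg (mul_nonneg (mul_nonneg hd hd) (mul_nonneg hd hd)) hd,
    mul_nonneg (mul_nonneg (mul_nonneg hd hd) (mul_nonneg hd hd)) (mul_nonneg hd hd)]

lemma nB0618 (r : ℝ) (h1 : 1 ≤ r) (h2 : r ^ 2 - 1 ≤ 34 / 25) :
    r ^ 2 - 1 - 34 / 25 ≤ 1 / 2 * (r + 1) ^ 2 * ((r ^ 2 - 1) ^ 2 - 7 * (309 / 5000) * (r ^ 2 - 1)
      - 6 * (309 / 5000)) := by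
  have h3 : r ≤ 1537 / 1000 := by nlinarith
  nlinarith [mul_nonneg (sub_nonneg.2 h1) (sub_nonneg.2 h3), sq_nonneg (r - 61 / 50),
    sq_nonneg ((r - 61 / 50) * r), sq_nonneg ((r - 61 / 50) * (r + 1) * r),
    mul_nonneg (sub_nonneg.2 h1) (sq_nonneg (r - 61 / 50)),
    mul_nonneg (sub_nonneg.2 h1) (sq_nonneg ((r - 61 / 50) * r)),
    mul_nonneg (sub_nonneg.2 h3) (sq_nonneg (r - 61 / 50)),
    mul_nonneg (sub_nonneg.2 h1) (sq_nonneg ((r - 61 / 50) * (r + 1)))]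

lemma nC0618 (r : ℝ) (h1 : 1 ≤ r) (h2 : 34 / 25 ≤ r ^ 2 - 1) :
    r ^ 2 - 1 - 34 / 25 ≤ 1 / 2 * (r - 1) ^ 2 * ((r ^ 2 - 1) ^ 2 - 7 * (309 / 5000) * (r ^ 2 - 1)
      - 6 * (309 / 5000)) := by
  have h3 : 192 / 125 ≤ r := by nlinarith
  obtain ⟨d, hd, rfl⟩ : ∃ d : ℝ, 0 ≤ d ∧ r = 192 / 125 + d := ⟨r - 192 / 125, by linarith, by ring⟩
  nlinarith [mul_nonneg hd hd, mul_nonneg (mul_nonneg hd hd) hd, sq_nonneg (d - 1 / 5),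
    mul_nonneg hd (sq_nonneg (d - 1 / 5)), mul_nonneg (mul_nonneg hd hd) (mul_nonneg hd hd),
    mul_nonneg (mul_nonneg (mul_nonneg hd hd) (mul_nonneg hd hd)) hd,
    mul_nonneg (mul_nonneg (mul_nonneg hd hd) (mul_nonneg hd hd)) (mul_nonneg hd hd)]

lemma nB0865 (r : ℝ) (h1 : 1 ≤ r) (h2 : r ^ 2 - 1 ≤ 8 / 5) :
    r ^ 2 - 1 - 8 / 5 ≤ 9 / 25 * (r + 1) ^ 2 * ((r ^ 2 - 1) ^ 2 - 7 * (173 / 2000) * (r ^ 2 - 1)
      - 6 * (173 / 2000)) := by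
  have h3 : r ≤ 1613 / 1000 := by nlinarith
  nlinarith [mul_nonneg (sub_nonneg.2 h1) (sub_nonneg.2 h3), sq_nonneg (r - 129 / 100),
    sq_nonneg ((r - 129 / 100) * r), sq_nonneg ((r - 129 / 100) * (r + 1) * r),
    mul_nonneg (sub_nonneg.2 h1) (sq_nonneg (r - 129 / 100)),
    mul_nonneg (sub_nonneg.2 h1) (sq_nonneg ((r - 129 / 100) * r)),
    mul_nonneg (sub_nonneg.2 h3) (sq_nonneg (r - 129 / 100)),
    mul_nonneg (sub_nonneg.2 h1) (sq_nonneg ((r - 129 / 100) * (r + 1)))]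

lemma nC0865 (r : ℝ) (h1 : 1 ≤ r) (h2 : 8 / 5 ≤ r ^ 2 - 1) :
    r ^ 2 - 1 - 8 / 5 ≤ 9 / 25 * (r - 1) ^ 2 * ((r ^ 2 - 1) ^ 2 - 7 * (173 / 2000) * (r ^ 2 - 1)
      - 6 * (173 / 2000)) := by
  have h3 : 403 / 250 ≤ r := by nlinarith
  obtain ⟨d, hd, rfl⟩ : ∃ d : ℝ, 0 ≤ d ∧ r = 403 / 250 + d := ⟨r - 403 / 250, by linarith, by ring⟩
  nlinarith [mul_nonneg hd hd, mul_nonneg (mul_nonneg hd hd) hd, sq_nonneg (d - 1 / 5),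
    mul_nonneg hd (sq_nonneg (d - 1 / 5)), mul_nonneg (mul_nonneg hd hd) (mul_nonneg hd hd),
    mul_nonneg (mul_nonneg (mul_nonneg hd hd) (mul_nonneg hd hd)) hd,
    mul_nonneg (mul_nonneg (mul_nonneg hd hd) (mul_nonneg hd hd)) (mul_nonneg hd hd)]

lemma nB144 (r : ℝ) (h1 : 1 ≤ r) (h2 : r ^ 2 - 1 ≤ 209 / 100) :
    r ^ 2 - 1 - 209 / 100 ≤ 21 / 100 * (r + 1) ^ 2 * ((r ^ 2 - 1) ^ 2 - 7 * (18 / 125) * (r ^ 2 - 1)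
      - 6 * (18 / 125)) := by
  have h3 : r ≤ 879 / 500 := by nlinarith
  nlinarith [mul_nonneg (sub_nonneg.2 h1) (sub_nonneg.2 h3), sq_nonneg (r - 71 / 50),
    sq_nonneg ((r - 71 / 50) * r), sq_nonneg ((r - 71 / 50) * (r + 1) * r),
    mul_nonneg (sub_nonneg.2 h1) (sq_nonneg (r - 71 / 50)),
    mul_nonneg (sub_nonneg.2 h1) (sq_nonneg ((r - 71 / 50) * r)),
    mul_nonneg (sub_nonneg.2 h3) (sq_nonneg (r - 71 / 50)),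
    mul_nonneg (sub_nonneg.2 h1) (sq_nonneg ((r - 71 / 50) * (r + 1)))]

lemma nC144 (r : ℝ) (h1 : 1 ≤ r) (h2 : 209 / 100 ≤ r ^ 2 - 1) :
    r ^ 2 - 1 - 209 / 100 ≤ 21 / 100 * (r - 1) ^ 2 * ((r ^ 2 - 1) ^ 2 - 7 * (18 / 125) * (r ^ 2 - 1)
      - 6 * (18 / 125)) := by
  have h3 : 1757 / 1000 ≤ r := by nlinarith
  obtain ⟨d, hd, rfl⟩ : ∃ d : ℝ, 0 ≤ d ∧ r = 1757 / 1000 + d := ⟨r - 1757 / 1000, by linarith, by ring⟩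
  nlinarith [mul_nonneg hd hd, mul_nonneg (mul_nonneg hd hd) hd, sq_nonneg (d - 1 / 5),
    mul_nonneg hd (sq_nonneg (d - 1 / 5)), mul_nonneg (mul_nonneg hd hd) (mul_nonneg hd hd),
    mul_nonneg (mul_nonneg (mul_nonneg hd hd) (mul_nonneg hd hd)) hd,
    mul_nonneg (mul_nonneg (mul_nonneg hd hd) (mul_nonneg hd hd)) (mul_nonneg hd hd)]

section

variable {X : Type*} {E : Type*} [NormedAddCommGroup E] [InnerProductSpace ℝ E]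
  [FiniteDimensional ℝ E] [TopologicalSpace X] [MeasurableSpace X] [CompactSpace X] [BorelSpace X]
  {μ : Measure X} [IsProbabilityMeasure μ] {m : ℕ} {p n : X → E} {J : E →L[ℝ] E} {Λ : ℝ}

/-- `E φ² ≤ 3093 / 1000 E a` for `Λ² ≤ 223 / 10000` -/
theorem PL0223 (d : Dat μ m p n J Λ) (hm : 36 ≤ m) (hκ : Λ ^ 2 ≤ 223 / 10000)
    (hH : ∫ x, aa J p n x ∂μ ≤ 1 / 50) :
    ∫ x, ph m J p x ^ 2 ∂μ ≤ 3093 / 1000 * ∫ x, aa J p n x ∂μ :=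
  d.P_level (κ := 223 / 10000) (A := 91 / 100) (ℓ := 747 / 5000) (s := 933 / 2500) (θ := 367 / 10000) (lam := 417 / 1000) (w := 17 / 500)
    (t1 := 91 / 125) (t2 := 1257 / 1000) (t3 := 4107 / 500) (t4 := 183 / 1000) (ρ1 := 893 / 5000) (e := 17 / 5000)
    (ρ3 := 1209 / 5000) (ρ4 := 811 / 2500) hm hκ (by constructor <;> norm_num)
    (d.E_aq (l := 61 / 50) hκ (by norm_num) (by norm_num) nB0223 nC0223) hH

/-- `E φ² ≤ 393 / 100 E a` for `Λ² ≤ 103 / 2500` -/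
theorem PL0412 (d : Dat μ m p n J Λ) (hm : 36 ≤ m) (hκ : Λ ^ 2 ≤ 103 / 2500)
    (hH : ∫ x, aa J p n x ∂μ ≤ 1 / 50) :
    ∫ x, ph m J p x ^ 2 ∂μ ≤ 393 / 100 * ∫ x, aa J p n x ∂μ :=
  d.P_level (κ := 103 / 2500) (A := 57 / 50) (ℓ := 203 / 1000) (s := 4657 / 10000) (θ := 359 / 5000) (lam := 169 / 500) (w := 333 / 5000)
    (t1 := 791 / 1000) (t2 := 1163 / 1000) (t3 := 4981 / 1000) (t4 := 49 / 125) (ρ1 := 2557 / 10000) (e := 1 / 1000)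
    (ρ3 := 2007 / 5000) (ρ4 := 573 / 1250) hm hκ (by constructor <;> norm_num)
    (d.E_aq (l := 18 / 25) hκ (by norm_num) (by norm_num) nB0412 nC0412) hH

/-- `E φ² ≤ 1301 / 250 E a` for `Λ² ≤ 309 / 5000` -/
theorem PL0618 (d : Dat μ m p n J Λ) (hm : 36 ≤ m) (hκ : Λ ^ 2 ≤ 309 / 5000)
    (hH : ∫ x, aa J p n x ∂μ ≤ 1 / 50) :
    ∫ x, ph m J p x ^ 2 ∂μ ≤ 1301 / 250 * ∫ x, aa J p n x ∂μ :=
  d.P_level (κ := 309 / 5000) (A := 34 / 25) (ℓ := 1243 / 5000) (s := 5479 / 10000) (θ := 229 / 2000) (lam := 273 / 1000) (w := 1063 / 10000)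
    (t1 := 22 / 25) (t2 := 509 / 500) (t3 := 3021 / 1000) (t4 := 759 / 1000) (ρ1 := 1701 / 5000) (e := 1 / 2000)
    (ρ3 := 6421 / 10000) (ρ4 := 1453 / 2500) hm hκ (by constructor <;> norm_num)
    (d.E_aq (l := 1 / 2) hκ (by norm_num) (by norm_num) nB0618 nC0618) hH

/-- `E φ² ≤ 191 / 25 E a` for `Λ² ≤ 173 / 2000` -/
theorem PL0865 (d : Dat μ m p n J Λ) (hm : 36 ≤ m) (hκ : Λ ^ 2 ≤ 173 / 2000)
    (hH : ∫ x, aa J p n x ∂μ ≤ 1 / 50) :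
    ∫ x, ph m J p x ^ 2 ∂μ ≤ 191 / 25 * ∫ x, aa J p n x ∂μ :=
  d.P_level (κ := 173 / 2000) (A := 8 / 5) (ℓ := 1471 / 5000) (s := 6323 / 10000) (θ := 291 / 2000) (lam := 289 / 1000) (w := 27 / 200)
    (t1 := 103 / 100) (t2 := 103 / 100) (t3 := 2763 / 1000) (t4 := 1) (ρ1 := 3979 / 10000) (e := 3959 / 10000)
    (ρ3 := 4883 / 5000) (ρ4 := 767 / 1000) hm hκ (by constructor <;> norm_num)
    (d.E_aq (l := 9 / 25) hκ (by norm_num) (by norm_num) nB0865 nC0865) hH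

/-- `E φ² ≤ 15197 / 1000 E a` for `Λ² ≤ 18 / 125` -/
theorem PL144 (d : Dat μ m p n J Λ) (hm : 36 ≤ m) (hκ : Λ ^ 2 ≤ 18 / 125)
    (hH : ∫ x, aa J p n x ∂μ ≤ 1 / 50) :
    ∫ x, ph m J p x ^ 2 ∂μ ≤ 15197 / 1000 * ∫ x, aa J p n x ∂μ :=
  d.P_level (κ := 18 / 125) (A := 209 / 100) (ℓ := 759 / 2000) (s := 397 / 500) (θ := 1809 / 10000) (lam := 17 / 40) (w := 1679 / 10000)
    (t1 := 1363 / 1000) (t2 := 1363 / 1000) (t3 := 1949 / 500) (t4 := 1) (ρ1 := 439 / 1000) (e := 5149 / 2500)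
    (ρ3 := 1077 / 625) (ρ4 := 6561 / 5000) hm hκ (by constructor <;> norm_num)
    (d.E_aq (l := 21 / 100) hκ (by norm_num) (by norm_num) nB144 nC144) hH

end

end Vale.Agent.P224.R2.H869
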