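import Vale.Agent.P224.R2.H686.PhiF
import Vale.Agent.P224.R2.H686.PhiA

/-!
More levels of `E φ² ≤ c₁ E a` for `Λ² ≤ κ`, all `m ≥ 36` and `E a ≤ 1/50`.
-/

namespace Vale.Agent.P224.R2.H869

open MeasureTheory Module Function Set Vale.Agent.P224.R2.H470 Vale.Agent.P224.R2.H686
open scoped RealInnerProductSpace Topology ContDiff

lemma nB0303 (r : ℝ) (h1 : 1 ≤ r) (h2 : r ^ 2 - 1 ≤ 1) :
    r ^ 2 - 1 - 1 ≤ 24 / 25 * (r + 1) ^ 2 * ((r ^ 2 - 1) ^ 2 - 7 * (303 / 10000) * (r ^ 2 - 1)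
      - 6 * (303 / 10000)) := by
  have h3 : r ≤ 283 / 200 := by nlinarith
  nlinarith [mul_nonneg (sub_nonneg.2 h1) (sub_nonneg.2 h3), sq_nonneg (r - 28 / 25),
    sq_nonneg ((r - 28 / 25) * r), sq_nonneg ((r - 28 / 25) * (r + 1) * r),
    mul_nonneg (sub_nonneg.2 h1) (sq_nonneg (r - 28 / 25)),
    mul_nonneg (sub_nonneg.2 h1) (sq_nonneg ((r - 28 / 25) * r)),
    mul_nonneg (sub_nonneg.2 h3) (sq_nonneg (r - 28 / 25)),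
    mul_nonneg (sub_nonneg.2 h1) (sq_nonneg ((r - 28 / 25) * (r + 1)))]

lemma nC0303 (r : ℝ) (h1 : 1 ≤ r) (h2 : 1 ≤ r ^ 2 - 1) :
    r ^ 2 - 1 - 1 ≤ 24 / 25 * (r - 1) ^ 2 * ((r ^ 2 - 1) ^ 2 - 7 * (303 / 10000) * (r ^ 2 - 1)
      - 6 * (303 / 10000)) := by
  have h3 : 707 / 500 ≤ r := by nlinarith
  obtain ⟨d, hd, rfl⟩ : ∃ d : ℝ, 0 ≤ d ∧ r = 707 / 500 + d := ⟨r - 707 / 500, by linarith, by ring⟩
  nlinarith [mul_nonneg hd hd, mul_nonneg (mul_nonneg hd hd) hd, sq_nonneg (d - 1 / 5),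
    mul_nonneg hd (sq_nonneg (d - 1 / 5)), mul_nonneg (mul_nonneg hd hd) (mul_nonneg hd hd),
    mul_nonneg (mul_nonneg (mul_nonneg hd hd) (mul_nonneg hd hd)) hd,
    mul_nonneg (mul_nonneg (mul_nonneg hd hd) (mul_nonneg hd hd)) (mul_nonneg hd hd)]

lemma nB0507 (r : ℝ) (h1 : 1 ≤ r) (h2 : r ^ 2 - 1 ≤ 31 / 25) :
    r ^ 2 - 1 - 31 / 25 ≤ 3 / 5 * (r + 1) ^ 2 * ((r ^ 2 - 1) ^ 2 - 7 * (507 / 10000) * (r ^ 2 - 1)
      - 6 * (507 / 10000)) := by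
  have h3 : r ≤ 1497 / 1000 := by nlinarith
  nlinarith [mul_nonneg (sub_nonneg.2 h1) (sub_nonneg.2 h3), sq_nonneg (r - 119 / 100),
    sq_nonneg ((r - 119 / 100) * r), sq_nonneg ((r - 119 / 100) * (r + 1) * r),
    mul_nonneg (sub_nonneg.2 h1) (sq_nonneg (r - 119 / 100)),
    mul_nonneg (sub_nonneg.2 h1) (sq_nonneg ((r - 119 / 100) * r)),
    mul_nonneg (sub_nonneg.2 h3) (sq_nonneg (r - 119 / 100)),
    mul_nonneg (sub_nonneg.2 h1) (sq_nonneg ((r - 119 / 100) * (r + 1)))]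

lemma nC0507 (r : ℝ) (h1 : 1 ≤ r) (h2 : 31 / 25 ≤ r ^ 2 - 1) :
    r ^ 2 - 1 - 31 / 25 ≤ 3 / 5 * (r - 1) ^ 2 * ((r ^ 2 - 1) ^ 2 - 7 * (507 / 10000) * (r ^ 2 - 1)
      - 6 * (507 / 10000)) := by
  have h3 : 187 / 125 ≤ r := by nlinarith
  obtain ⟨d, hd, rfl⟩ : ∃ d : ℝ, 0 ≤ d ∧ r = 187 / 125 + d := ⟨r - 187 / 125, by linarith, by ring⟩
  nlinarith [mul_nonneg hd hd, mul_nonneg (mul_nonneg hd hd) hd, sq_nonneg (d - 1 / 5),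
    mul_nonneg hd (sq_nonneg (d - 1 / 5)), mul_nonneg (mul_nonneg hd hd) (mul_nonneg hd hd),
    mul_nonneg (mul_nonneg (mul_nonneg hd hd) (mul_nonneg hd hd)) hd,
    mul_nonneg (mul_nonneg (mul_nonneg hd hd) (mul_nonneg hd hd)) (mul_nonneg hd hd)]

lemma nB0758 (r : ℝ) (h1 : 1 ≤ r) (h2 : r ^ 2 - 1 ≤ 149 / 100) :
    r ^ 2 - 1 - 149 / 100 ≤ 41 / 100 * (r + 1) ^ 2 * ((r ^ 2 - 1) ^ 2 - 7 * (379 / 5000) * (r ^ 2 - 1)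
      - 6 * (379 / 5000)) := by
  have h3 : r ≤ 789 / 500 := by nlinarith
  nlinarith [mul_nonneg (sub_nonneg.2 h1) (sub_nonneg.2 h3), sq_nonneg (r - 63 / 50),
    sq_nonneg ((r - 63 / 50) * r), sq_nonneg ((r - 63 / 50) * (r + 1) * r),
    mul_nonneg (sub_nonneg.2 h1) (sq_nonneg (r - 63 / 50)),
    mul_nonneg (sub_nonneg.2 h1) (sq_nonneg ((r - 63 / 50) * r)),
    mul_nonneg (sub_nonneg.2 h3) (sq_nonneg (r - 63 / 50)),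
    mul_nonneg (sub_nonneg.2 h1) (sq_nonneg ((r - 63 / 50) * (r + 1)))]

lemma nC0758 (r : ℝ) (h1 : 1 ≤ r) (h2 : 149 / 100 ≤ r ^ 2 - 1) :
    r ^ 2 - 1 - 149 / 100 ≤ 41 / 100 * (r - 1) ^ 2 * ((r ^ 2 - 1) ^ 2 - 7 * (379 / 5000) * (r ^ 2 - 1)
      - 6 * (379 / 5000)) := by
  have h3 : 1577 / 1000 ≤ r := by nlinarith
  obtain ⟨d, hd, rfl⟩ : ∃ d : ℝ, 0 ≤ d ∧ r = 1577 / 1000 + d := ⟨r - 1577 / 1000, by linarith, by ring⟩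
  nlinarith [mul_nonneg hd hd, mul_nonneg (mul_nonneg hd hd) hd, sq_nonneg (d - 1 / 5),
    mul_nonneg hd (sq_nonneg (d - 1 / 5)), mul_nonneg (mul_nonneg hd hd) (mul_nonneg hd hd),
    mul_nonneg (mul_nonneg (mul_nonneg hd hd) (mul_nonneg hd hd)) hd,
    mul_nonneg (mul_nonneg (mul_nonneg hd hd) (mul_nonneg hd hd)) (mul_nonneg hd hd)]

lemma nB1006 (r : ℝ) (h1 : 1 ≤ r) (h2 : r ^ 2 - 1 ≤ 171 / 100) :
    r ^ 2 - 1 - 171 / 100 ≤ 31 / 100 * (r + 1) ^ 2 * ((r ^ 2 - 1) ^ 2 - 7 * (503 / 5000) * (r ^ 2 - 1)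
      - 6 * (503 / 5000)) := by
  have h3 : r ≤ 1647 / 1000 := by nlinarith
  nlinarith [mul_nonneg (sub_nonneg.2 h1) (sub_nonneg.2 h3), sq_nonneg (r - 33 / 25),
    sq_nonneg ((r - 33 / 25) * r), sq_nonneg ((r - 33 / 25) * (r + 1) * r),
    mul_nonneg (sub_nonneg.2 h1) (sq_nonneg (r - 33 / 25)),
    mul_nonneg (sub_nonneg.2 h1) (sq_nonneg ((r - 33 / 25) * r)),
    mul_nonneg (sub_nonneg.2 h3) (sq_nonneg (r - 33 / 25)),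
    mul_nonneg (sub_nonneg.2 h1) (sq_nonneg ((r - 33 / 25) * (r + 1)))]

lemma nC1006 (r : ℝ) (h1 : 1 ≤ r) (h2 : 171 / 100 ≤ r ^ 2 - 1) :
    r ^ 2 - 1 - 171 / 100 ≤ 31 / 100 * (r - 1) ^ 2 * ((r ^ 2 - 1) ^ 2 - 7 * (503 / 5000) * (r ^ 2 - 1)
      - 6 * (503 / 5000)) := by
  have h3 : 823 / 500 ≤ r := by nlinarith
  obtain ⟨d, hd, rfl⟩ : ∃ d : ℝ, 0 ≤ d ∧ r = 823 / 500 + d := ⟨r - 823 / 500, by linarith, by ring⟩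
  nlinarith [mul_nonneg hd hd, mul_nonneg (mul_nonneg hd hd) hd, sq_nonneg (d - 1 / 5),
    mul_nonneg hd (sq_nonneg (d - 1 / 5)), mul_nonneg (mul_nonneg hd hd) (mul_nonneg hd hd),
    mul_nonneg (mul_nonneg (mul_nonneg hd hd) (mul_nonneg hd hd)) hd,
    mul_nonneg (mul_nonneg (mul_nonneg hd hd) (mul_nonneg hd hd)) (mul_nonneg hd hd)]

lemma nB1206 (r : ℝ) (h1 : 1 ≤ r) (h2 : r ^ 2 - 1 ≤ 47 / 25) :
    r ^ 2 - 1 - 47 / 25 ≤ 51 / 200 * (r + 1) ^ 2 * ((r ^ 2 - 1) ^ 2 - 7 * (603 / 5000) * (r ^ 2 - 1)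
      - 6 * (603 / 5000)) := by
  have h3 : r ≤ 849 / 500 := by nlinarith
  nlinarith [mul_nonneg (sub_nonneg.2 h1) (sub_nonneg.2 h3), sq_nonneg (r - 137 / 100),
    sq_nonneg ((r - 137 / 100) * r), sq_nonneg ((r - 137 / 100) * (r + 1) * r),
    mul_nonneg (sub_nonneg.2 h1) (sq_nonneg (r - 137 / 100)),
    mul_nonneg (sub_nonneg.2 h1) (sq_nonneg ((r - 137 / 100) * r)),
    mul_nonneg (sub_nonneg.2 h3) (sq_nonneg (r - 137 / 100)),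
    mul_nonneg (sub_nonneg.2 h1) (sq_nonneg ((r - 137 / 100) * (r + 1)))]

lemma nC1206 (r : ℝ) (h1 : 1 ≤ r) (h2 : 47 / 25 ≤ r ^ 2 - 1) :
    r ^ 2 - 1 - 47 / 25 ≤ 51 / 200 * (r - 1) ^ 2 * ((r ^ 2 - 1) ^ 2 - 7 * (603 / 5000) * (r ^ 2 - 1)
      - 6 * (603 / 5000)) := by
  have h3 : 1697 / 1000 ≤ r := by nlinarith
  obtain ⟨d, hd, rfl⟩ : ∃ d : ℝ, 0 ≤ d ∧ r = 1697 / 1000 + d := ⟨r - 1697 / 1000, by linarith, by ring⟩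
  nlinarith [mul_nonneg hd hd, mul_nonneg (mul_nonneg hd hd) hd, sq_nonneg (d - 1 / 5),
    mul_nonneg hd (sq_nonneg (d - 1 / 5)), mul_nonneg (mul_nonneg hd hd) (mul_nonneg hd hd),
    mul_nonneg (mul_nonneg (mul_nonneg hd hd) (mul_nonneg hd hd)) hd,
    mul_nonneg (mul_nonneg (mul_nonneg hd hd) (mul_nonneg hd hd)) (mul_nonneg hd hd)]

lemma nB1608 (r : ℝ) (h1 : 1 ≤ r) (h2 : r ^ 2 - 1 ≤ 221 / 100) :
    r ^ 2 - 1 - 221 / 100 ≤ 23 / 125 * (r + 1) ^ 2 * ((r ^ 2 - 1) ^ 2 - 7 * (201 / 1250) * (r ^ 2 - 1)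
      - 6 * (201 / 1250)) := by
  have h3 : r ≤ 224 / 125 := by nlinarith
  nlinarith [mul_nonneg (sub_nonneg.2 h1) (sub_nonneg.2 h3), sq_nonneg (r - 73 / 50),
    sq_nonneg ((r - 73 / 50) * r), sq_nonneg ((r - 73 / 50) * (r + 1) * r),
    mul_nonneg (sub_nonneg.2 h1) (sq_nonneg (r - 73 / 50)),
    mul_nonneg (sub_nonneg.2 h1) (sq_nonneg ((r - 73 / 50) * r)),
    mul_nonneg (sub_nonneg.2 h3) (sq_nonneg (r - 73 / 50)),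
    mul_nonneg (sub_nonneg.2 h1) (sq_nonneg ((r - 73 / 50) * (r + 1)))]

lemma nC1608 (r : ℝ) (h1 : 1 ≤ r) (h2 : 221 / 100 ≤ r ^ 2 - 1) :
    r ^ 2 - 1 - 221 / 100 ≤ 23 / 125 * (r - 1) ^ 2 * ((r ^ 2 - 1) ^ 2 - 7 * (201 / 1250) * (r ^ 2 - 1)
      - 6 * (201 / 1250)) := by
  have h3 : 1791 / 1000 ≤ r := by nlinarith
  obtain ⟨d, hd, rfl⟩ : ∃ d : ℝ, 0 ≤ d ∧ r = 1791 / 1000 + d := ⟨r - 1791 / 1000, by linarith, by ring⟩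
  nlinarith [mul_nonneg hd hd, mul_nonneg (mul_nonneg hd hd) hd, sq_nonneg (d - 1 / 5),
    mul_nonneg hd (sq_nonneg (d - 1 / 5)), mul_nonneg (mul_nonneg hd hd) (mul_nonneg hd hd),
    mul_nonneg (mul_nonneg (mul_nonneg hd hd) (mul_nonneg hd hd)) hd,
    mul_nonneg (mul_nonneg (mul_nonneg hd hd) (mul_nonneg hd hd)) (mul_nonneg hd hd)]

section

variable {X : Type*} {E : Type*} [NormedAddCommGroup E] [InnerProductSpace ℝ E]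
  [FiniteDimensional ℝ E] [TopologicalSpace X] [MeasurableSpace X] [CompactSpace X] [BorelSpace X]
  {μ : Measure X} [IsProbabilityMeasure μ] {m : ℕ} {p n : X → E} {J : E →L[ℝ] E} {Λ : ℝ}

/-- `E φ² ≤ 1709 / 500 E a` for `Λ² ≤ 303 / 10000` -/
theorem PL0303 (d : Dat μ m p n J Λ) (hm : 36 ≤ m) (hκ : Λ ^ 2 ≤ 303 / 10000)
    (hH : ∫ x, aa J p n x ∂μ ≤ 1 / 50) :
    ∫ x, ph m J p x ^ 2 ∂μ ≤ 1709 / 500 * ∫ x, aa J p n x ∂μ :=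
  d.P_level (κ := 303 / 10000) (A := 1) (ℓ := 1741 / 10000) (s := 4151 / 10000) (θ := 51 / 1000) (lam := 381 / 1000) (w := 473 / 10000)
    (t1 := 151 / 200) (t2 := 49 / 40) (t3 := 6801 / 1000) (t4 := 263 / 1000) (ρ1 := 1059 / 5000) (e := 1 / 625)
    (ρ3 := 3061 / 10000) (ρ4 := 1929 / 5000) hm hκ (by constructor <;> norm_num)
    (d.E_aq (l := 24 / 25) hκ (by norm_num) (by norm_num) nB0303 nC0303) hH

/-- `E φ² ≤ 89 / 20 E a` for `Λ² ≤ 507 / 10000` -/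
theorem PL0507 (d : Dat μ m p n J Λ) (hm : 36 ≤ m) (hκ : Λ ^ 2 ≤ 507 / 10000)
    (hH : ∫ x, aa J p n x ∂μ ≤ 1 / 50) :
    ∫ x, ph m J p x ^ 2 ∂μ ≤ 89 / 20 * ∫ x, aa J p n x ∂μ :=
  d.P_level (κ := 507 / 10000) (A := 31 / 25) (ℓ := 563 / 2500) (s := 2527 / 5000) (θ := 91 / 1000) (lam := 61 / 200) (w := 211 / 2500)
    (t1 := 207 / 250) (t2 := 138 / 125) (t3 := 1969 / 500) (t4 := 27 / 50) (ρ1 := 367 / 1250) (e := 1 / 1000)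
    (ρ3 := 2501 / 5000) (ρ4 := 2587 / 5000) hm hκ (by constructor <;> norm_num)
    (d.E_aq (l := 3 / 5) hκ (by norm_num) (by norm_num) nB0507 nC0507) hH

/-- `E φ² ≤ 6489 / 1000 E a` for `Λ² ≤ 379 / 5000` -/
theorem PL0758 (d : Dat μ m p n J Λ) (hm : 36 ≤ m) (hκ : Λ ^ 2 ≤ 379 / 5000)
    (hH : ∫ x, aa J p n x ∂μ ≤ 1 / 50) :
    ∫ x, ph m J p x ^ 2 ∂μ ≤ 6489 / 1000 * ∫ x, aa J p n x ∂μ :=
  d.P_level (κ := 379 / 5000) (A := 149 / 100) (ℓ := 1377 / 5000) (s := 5973 / 10000) (θ := 173 / 1250) (lam := 13 / 50) (w := 321 / 2500)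
    (t1 := 241 / 250) (t2 := 241 / 250) (t3 := 2547 / 1000) (t4 := 1) (ρ1 := 777 / 2000) (e := 571 / 5000)
    (ρ3 := 1699 / 2000) (ρ4 := 6737 / 10000) hm hκ (by constructor <;> norm_num)
    (d.E_aq (l := 41 / 100) hκ (by norm_num) (by norm_num) nB0758 nC0758) hH

/-- `E φ² ≤ 1154 / 125 E a` for `Λ² ≤ 503 / 5000` -/
theorem PL1006 (d : Dat μ m p n J Λ) (hm : 36 ≤ m) (hκ : Λ ^ 2 ≤ 503 / 5000)
    (hH : ∫ x, aa J p n x ∂μ ≤ 1 / 50) :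
    ∫ x, ph m J p x ^ 2 ∂μ ≤ 1154 / 125 * ∫ x, aa J p n x ∂μ :=
  d.P_level (κ := 503 / 5000) (A := 171 / 100) (ℓ := 793 / 2500) (s := 1351 / 2000) (θ := 1547 / 10000) (lam := 13 / 40) (w := 359 / 2500)
    (t1 := 223 / 200) (t2 := 223 / 200) (t3 := 1519 / 500) (t4 := 1) (ρ1 := 4089 / 10000) (e := 7773 / 10000)
    (ρ3 := 11501 / 10000) (ρ4 := 4471 / 5000) hm hκ (by constructor <;> norm_num)
    (d.E_aq (l := 31 / 100) hκ (by norm_num) (by norm_num) nB1006 nC1006) hH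

/-- `E φ² ≤ 11769 / 1000 E a` for `Λ² ≤ 603 / 5000` -/
theorem PL1206 (d : Dat μ m p n J Λ) (hm : 36 ≤ m) (hκ : Λ ^ 2 ≤ 603 / 5000)
    (hH : ∫ x, aa J p n x ∂μ ≤ 1 / 50) :
    ∫ x, ph m J p x ^ 2 ∂μ ≤ 11769 / 1000 * ∫ x, aa J p n x ∂μ :=
  d.P_level (κ := 603 / 5000) (A := 47 / 25) (ℓ := 3473 / 10000) (s := 293 / 400) (θ := 1671 / 10000) (lam := 373 / 1000) (w := 1551 / 10000)
    (t1 := 154 / 125) (t2 := 154 / 125) (t3 := 3431 / 1000) (t4 := 1) (ρ1 := 4231 / 10000) (e := 842 / 625)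
    (ρ3 := 563 / 400) (ρ4 := 10823 / 10000) hm hκ (by constructor <;> norm_num)
    (d.E_aq (l := 51 / 200) hκ (by norm_num) (by norm_num) nB1206 nC1206) hH

/-- `E φ² ≤ 179 / 10 E a` for `Λ² ≤ 201 / 1250` -/
theorem PL1608 (d : Dat μ m p n J Λ) (hm : 36 ≤ m) (hκ : Λ ^ 2 ≤ 201 / 1250)
    (hH : ∫ x, aa J p n x ∂μ ≤ 1 / 50) :
    ∫ x, ph m J p x ^ 2 ∂μ ≤ 179 / 10 * ∫ x, aa J p n x ∂μ :=
  d.P_level (κ := 201 / 1250) (A := 221 / 100) (ℓ := 401 / 1000) (s := 8353 / 10000) (θ := 1909 / 10000) (lam := 459 / 1000) (w := 443 / 2500)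
    (t1 := 729 / 500) (t2 := 729 / 500) (t3 := 4231 / 1000) (t4 := 1) (ρ1 := 2247 / 5000) (e := 1041 / 400)
    (ρ3 := 3929 / 2000) (ρ4 := 186 / 125) hm hκ (by constructor <;> norm_num)
    (d.E_aq (l := 23 / 125) hκ (by norm_num) (by norm_num) nB1608 nC1608) hH

end

end Vale.Agent.P224.R2.H869
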