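import Vale.Agent.P224.R2.H686.PhiF
import Vale.Agent.P224.R2.H686.PhiA

/-!
More levels of `E φ² ≤ c₁ E a` for `Λ² ≤ κ`, all `m ≥ 36` and `E a ≤ 1/50`.
-/

namespace Vale.Agent.P224.R2.H869

open MeasureTheory Module Function Set Vale.Agent.P224.R2.H470 Vale.Agent.P224.R2.H686
open scoped RealInnerProductSpace Topology ContDiff

lemma nB0366 (r : ℝ) (h1 : 1 ≤ r) (h2 : r ^ 2 - 1 ≤ 27 / 25) :
    r ^ 2 - 1 - 27 / 25 ≤ 81 / 100 * (r + 1) ^ 2 * ((r ^ 2 - 1) ^ 2 - 7 * (183 / 5000) * (r ^ 2 - 1)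
      - 6 * (183 / 5000)) := by
  have h3 : r ≤ 1443 / 1000 := by nlinarith
  nlinarith [mul_nonneg (sub_nonneg.2 h1) (sub_nonneg.2 h3), sq_nonneg (r - 57 / 50),
    sq_nonneg ((r - 57 / 50) * r), sq_nonneg ((r - 57 / 50) * (r + 1) * r),
    mul_nonneg (sub_nonneg.2 h1) (sq_nonneg (r - 57 / 50)),
    mul_nonneg (sub_nonneg.2 h1) (sq_nonneg ((r - 57 / 50) * r)),
    mul_nonneg (sub_nonneg.2 h3) (sq_nonneg (r - 57 / 50)),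
    mul_nonneg (sub_nonneg.2 h1) (sq_nonneg ((r - 57 / 50) * (r + 1)))]

lemma nC0366 (r : ℝ) (h1 : 1 ≤ r) (h2 : 27 / 25 ≤ r ^ 2 - 1) :
    r ^ 2 - 1 - 27 / 25 ≤ 81 / 100 * (r - 1) ^ 2 * ((r ^ 2 - 1) ^ 2 - 7 * (183 / 5000) * (r ^ 2 - 1)
      - 6 * (183 / 5000)) := by
  have h3 : 721 / 500 ≤ r := by nlinarith
  obtain ⟨d, hd, rfl⟩ : ∃ d : ℝ, 0 ≤ d ∧ r = 721 / 500 + d := ⟨r - 721 / 500, by linarith, by ring⟩
  nlinarith [mul_nonneg hd hd, mul_nonneg (mul_nonneg hd hd) hd, sq_nonneg (d - 1 / 5),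
    mul_nonneg hd (sq_nonneg (d - 1 / 5)), mul_nonneg (mul_nonneg hd hd) (mul_nonneg hd hd),
    mul_nonneg (mul_nonneg (mul_nonneg hd hd) (mul_nonneg hd hd)) hd,
    mul_nonneg (mul_nonneg (mul_nonneg hd hd) (mul_nonneg hd hd)) (mul_nonneg hd hd)]

lemma nB0558 (r : ℝ) (h1 : 1 ≤ r) (h2 : r ^ 2 - 1 ≤ 129 / 100) :
    r ^ 2 - 1 - 129 / 100 ≤ 11 / 20 * (r + 1) ^ 2 * ((r ^ 2 - 1) ^ 2 - 7 * (279 / 5000) * (r ^ 2 - 1)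
      - 6 * (279 / 5000)) := by
  have h3 : r ≤ 757 / 500 := by nlinarith
  nlinarith [mul_nonneg (sub_nonneg.2 h1) (sub_nonneg.2 h3), sq_nonneg (r - 6 / 5),
    sq_nonneg ((r - 6 / 5) * r), sq_nonneg ((r - 6 / 5) * (r + 1) * r),
    mul_nonneg (sub_nonneg.2 h1) (sq_nonneg (r - 6 / 5)),
    mul_nonneg (sub_nonneg.2 h1) (sq_nonneg ((r - 6 / 5) * r)),
    mul_nonneg (sub_nonneg.2 h3) (sq_nonneg (r - 6 / 5)),
    mul_nonneg (sub_nonneg.2 h1) (sq_nonneg ((r - 6 / 5) * (r + 1)))]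

lemma nC0558 (r : ℝ) (h1 : 1 ≤ r) (h2 : 129 / 100 ≤ r ^ 2 - 1) :
    r ^ 2 - 1 - 129 / 100 ≤ 11 / 20 * (r - 1) ^ 2 * ((r ^ 2 - 1) ^ 2 - 7 * (279 / 5000) * (r ^ 2 - 1)
      - 6 * (279 / 5000)) := by
  have h3 : 1513 / 1000 ≤ r := by nlinarith
  obtain ⟨d, hd, rfl⟩ : ∃ d : ℝ, 0 ≤ d ∧ r = 1513 / 1000 + d := ⟨r - 1513 / 1000, by linarith, by ring⟩
  nlinarith [mul_nonneg hd hd, mul_nonneg (mul_nonneg hd hd) hd, sq_nonneg (d - 1 / 5),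
    mul_nonneg hd (sq_nonneg (d - 1 / 5)), mul_nonneg (mul_nonneg hd hd) (mul_nonneg hd hd),
    mul_nonneg (mul_nonneg (mul_nonneg hd hd) (mul_nonneg hd hd)) hd,
    mul_nonneg (mul_nonneg (mul_nonneg hd hd) (mul_nonneg hd hd)) (mul_nonneg hd hd)]

lemma nB0818 (r : ℝ) (h1 : 1 ≤ r) (h2 : r ^ 2 - 1 ≤ 77 / 50) :
    r ^ 2 - 1 - 77 / 50 ≤ 19 / 50 * (r + 1) ^ 2 * ((r ^ 2 - 1) ^ 2 - 7 * (409 / 5000) * (r ^ 2 - 1)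
      - 6 * (409 / 5000)) := by
  have h3 : r ≤ 797 / 500 := by nlinarith
  nlinarith [mul_nonneg (sub_nonneg.2 h1) (sub_nonneg.2 h3), sq_nonneg (r - 127 / 100),
    sq_nonneg ((r - 127 / 100) * r), sq_nonneg ((r - 127 / 100) * (r + 1) * r),
    mul_nonneg (sub_nonneg.2 h1) (sq_nonneg (r - 127 / 100)),
    mul_nonneg (sub_nonneg.2 h1) (sq_nonneg ((r - 127 / 100) * r)),
    mul_nonneg (sub_nonneg.2 h3) (sq_nonneg (r - 127 / 100)),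
    mul_nonneg (sub_nonneg.2 h1) (sq_nonneg ((r - 127 / 100) * (r + 1)))]

lemma nC0818 (r : ℝ) (h1 : 1 ≤ r) (h2 : 77 / 50 ≤ r ^ 2 - 1) :
    r ^ 2 - 1 - 77 / 50 ≤ 19 / 50 * (r - 1) ^ 2 * ((r ^ 2 - 1) ^ 2 - 7 * (409 / 5000) * (r ^ 2 - 1)
      - 6 * (409 / 5000)) := by
  have h3 : 1593 / 1000 ≤ r := by nlinarith
  obtain ⟨d, hd, rfl⟩ : ∃ d : ℝ, 0 ≤ d ∧ r = 1593 / 1000 + d := ⟨r - 1593 / 1000, by linarith, by ring⟩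
  nlinarith [mul_nonneg hd hd, mul_nonneg (mul_nonneg hd hd) hd, sq_nonneg (d - 1 / 5),
    mul_nonneg hd (sq_nonneg (d - 1 / 5)), mul_nonneg (mul_nonneg hd hd) (mul_nonneg hd hd),
    mul_nonneg (mul_nonneg (mul_nonneg hd hd) (mul_nonneg hd hd)) hd,
    mul_nonneg (mul_nonneg (mul_nonneg hd hd) (mul_nonneg hd hd)) (mul_nonneg hd hd)]

lemma nB1011 (r : ℝ) (h1 : 1 ≤ r) (h2 : r ^ 2 - 1 ≤ 43 / 25) :
    r ^ 2 - 1 - 43 / 25 ≤ 31 / 100 * (r + 1) ^ 2 * ((r ^ 2 - 1) ^ 2 - 7 * (1011 / 10000) * (r ^ 2 - 1)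
      - 6 * (1011 / 10000)) := by
  have h3 : r ≤ 33 / 20 := by nlinarith
  nlinarith [mul_nonneg (sub_nonneg.2 h1) (sub_nonneg.2 h3), sq_nonneg (r - 33 / 25),
    sq_nonneg ((r - 33 / 25) * r), sq_nonneg ((r - 33 / 25) * (r + 1) * r),
    mul_nonneg (sub_nonneg.2 h1) (sq_nonneg (r - 33 / 25)),
    mul_nonneg (sub_nonneg.2 h1) (sq_nonneg ((r - 33 / 25) * r)),
    mul_nonneg (sub_nonneg.2 h3) (sq_nonneg (r - 33 / 25)),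
    mul_nonneg (sub_nonneg.2 h1) (sq_nonneg ((r - 33 / 25) * (r + 1)))]

lemma nC1011 (r : ℝ) (h1 : 1 ≤ r) (h2 : 43 / 25 ≤ r ^ 2 - 1) :
    r ^ 2 - 1 - 43 / 25 ≤ 31 / 100 * (r - 1) ^ 2 * ((r ^ 2 - 1) ^ 2 - 7 * (1011 / 10000) * (r ^ 2 - 1)
      - 6 * (1011 / 10000)) := by
  have h3 : 1649 / 1000 ≤ r := by nlinarith
  obtain ⟨d, hd, rfl⟩ : ∃ d : ℝ, 0 ≤ d ∧ r = 1649 / 1000 + d := ⟨r - 1649 / 1000, by linarith, by ring⟩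
  nlinarith [mul_nonneg hd hd, mul_nonneg (mul_nonneg hd hd) hd, sq_nonneg (d - 1 / 5),
    mul_nonneg hd (sq_nonneg (d - 1 / 5)), mul_nonneg (mul_nonneg hd hd) (mul_nonneg hd hd),
    mul_nonneg (mul_nonneg (mul_nonneg hd hd) (mul_nonneg hd hd)) hd,
    mul_nonneg (mul_nonneg (mul_nonneg hd hd) (mul_nonneg hd hd)) (mul_nonneg hd hd)]

lemma nB1212 (r : ℝ) (h1 : 1 ≤ r) (h2 : r ^ 2 - 1 ≤ 47 / 25) :
    r ^ 2 - 1 - 47 / 25 ≤ 253 / 1000 * (r + 1) ^ 2 * ((r ^ 2 - 1) ^ 2 - 7 * (303 / 2500) * (r ^ 2 - 1)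
      - 6 * (303 / 2500)) := by
  have h3 : r ≤ 849 / 500 := by nlinarith
  nlinarith [mul_nonneg (sub_nonneg.2 h1) (sub_nonneg.2 h3), sq_nonneg (r - 137 / 100),
    sq_nonneg ((r - 137 / 100) * r), sq_nonneg ((r - 137 / 100) * (r + 1) * r),
    mul_nonneg (sub_nonneg.2 h1) (sq_nonneg (r - 137 / 100)),
    mul_nonneg (sub_nonneg.2 h1) (sq_nonneg ((r - 137 / 100) * r)),
    mul_nonneg (sub_nonneg.2 h3) (sq_nonneg (r - 137 / 100)),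
    mul_nonneg (sub_nonneg.2 h1) (sq_nonneg ((r - 137 / 100) * (r + 1)))]

lemma nC1212 (r : ℝ) (h1 : 1 ≤ r) (h2 : 47 / 25 ≤ r ^ 2 - 1) :
    r ^ 2 - 1 - 47 / 25 ≤ 253 / 1000 * (r - 1) ^ 2 * ((r ^ 2 - 1) ^ 2 - 7 * (303 / 2500) * (r ^ 2 - 1)
      - 6 * (303 / 2500)) := by
  have h3 : 1697 / 1000 ≤ r := by nlinarith
  obtain ⟨d, hd, rfl⟩ : ∃ d : ℝ, 0 ≤ d ∧ r = 1697 / 1000 + d := ⟨r - 1697 / 1000, by linarith, by ring⟩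
  nlinarith [mul_nonneg hd hd, mul_nonneg (mul_nonneg hd hd) hd, sq_nonneg (d - 1 / 5),
    mul_nonneg hd (sq_nonneg (d - 1 / 5)), mul_nonneg (mul_nonneg hd hd) (mul_nonneg hd hd),
    mul_nonneg (mul_nonneg (mul_nonneg hd hd) (mul_nonneg hd hd)) hd,
    mul_nonneg (mul_nonneg (mul_nonneg hd hd) (mul_nonneg hd hd)) (mul_nonneg hd hd)]

lemma nB1809 (r : ℝ) (h1 : 1 ≤ r) (h2 : r ^ 2 - 1 ≤ 237 / 100) :
    r ^ 2 - 1 - 237 / 100 ≤ 4 / 25 * (r + 1) ^ 2 * ((r ^ 2 - 1) ^ 2 - 7 * (1809 / 10000) * (r ^ 2 - 1)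
      - 6 * (1809 / 10000)) := by
  have h3 : r ≤ 459 / 250 := by nlinarith
  nlinarith [mul_nonneg (sub_nonneg.2 h1) (sub_nonneg.2 h3), sq_nonneg (r - 151 / 100),
    sq_nonneg ((r - 151 / 100) * r), sq_nonneg ((r - 151 / 100) * (r + 1) * r),
    mul_nonneg (sub_nonneg.2 h1) (sq_nonneg (r - 151 / 100)),
    mul_nonneg (sub_nonneg.2 h1) (sq_nonneg ((r - 151 / 100) * r)),
    mul_nonneg (sub_nonneg.2 h3) (sq_nonneg (r - 151 / 100)),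
    mul_nonneg (sub_nonneg.2 h1) (sq_nonneg ((r - 151 / 100) * (r + 1)))]

lemma nC1809 (r : ℝ) (h1 : 1 ≤ r) (h2 : 237 / 100 ≤ r ^ 2 - 1) :
    r ^ 2 - 1 - 237 / 100 ≤ 4 / 25 * (r - 1) ^ 2 * ((r ^ 2 - 1) ^ 2 - 7 * (1809 / 10000) * (r ^ 2 - 1)
      - 6 * (1809 / 10000)) := by
  have h3 : 367 / 200 ≤ r := by nlinarith
  obtain ⟨d, hd, rfl⟩ : ∃ d : ℝ, 0 ≤ d ∧ r = 367 / 200 + d := ⟨r - 367 / 200, by linarith, by ring⟩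
  nlinarith [mul_nonneg hd hd, mul_nonneg (mul_nonneg hd hd) hd, sq_nonneg (d - 1 / 5),
    mul_nonneg hd (sq_nonneg (d - 1 / 5)), mul_nonneg (mul_nonneg hd hd) (mul_nonneg hd hd),
    mul_nonneg (mul_nonneg (mul_nonneg hd hd) (mul_nonneg hd hd)) hd,
    mul_nonneg (mul_nonneg (mul_nonneg hd hd) (mul_nonneg hd hd)) (mul_nonneg hd hd)]

section

variable {X : Type*} {E : Type*} [NormedAddCommGroup E] [InnerProductSpace ℝ E]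
  [FiniteDimensional ℝ E] [TopologicalSpace X] [MeasurableSpace X] [CompactSpace X] [BorelSpace X]
  {μ : Measure X} [IsProbabilityMeasure μ] {m : ℕ} {p n : X → E} {J : E →L[ℝ] E} {Λ : ℝ}

/-- `E φ² ≤ 3703 / 1000 E a` for `Λ² ≤ 183 / 5000` -/
theorem PL0366 (d : Dat μ m p n J Λ) (hm : 36 ≤ m) (hκ : Λ ^ 2 ≤ 183 / 5000)
    (hH : ∫ x, aa J p n x ∂μ ≤ 1 / 50) :
    ∫ x, ph m J p x ^ 2 ∂μ ≤ 3703 / 1000 * ∫ x, aa J p n x ∂μ :=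
  d.P_level (κ := 183 / 5000) (A := 27 / 25) (ℓ := 957 / 5000) (s := 1113 / 2500) (θ := 157 / 2500) (lam := 71 / 200) (w := 583 / 10000)
    (t1 := 31 / 40) (t2 := 119 / 100) (t3 := 5659 / 1000) (t4 := 333 / 1000) (ρ1 := 19 / 80) (e := 9 / 10000)
    (ρ3 := 1797 / 5000) (ρ4 := 4287 / 10000) hm hκ (by constructor <;> norm_num)
    (d.E_aq (l := 81 / 100) hκ (by norm_num) (by norm_num) nB0366 nC0366) hH

/-- `E φ² ≤ 4769 / 1000 E a` for `Λ² ≤ 279 / 5000` -/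
theorem PL0558 (d : Dat μ m p n J Λ) (hm : 36 ≤ m) (hκ : Λ ^ 2 ≤ 279 / 5000)
    (hH : ∫ x, aa J p n x ∂μ ≤ 1 / 50) :
    ∫ x, ph m J p x ^ 2 ∂μ ≤ 4769 / 1000 * ∫ x, aa J p n x ∂μ :=
  d.P_level (κ := 279 / 5000) (A := 129 / 100) (ℓ := 2363 / 10000) (s := 2627 / 5000) (θ := 509 / 5000) (lam := 289 / 1000) (w := 189 / 2000)
    (t1 := 851 / 1000) (t2 := 267 / 250) (t3 := 883 / 250) (t4 := 317 / 500) (ρ1 := 393 / 1250) (e := 1 / 2000)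
    (ρ3 := 5617 / 10000) (ρ4 := 137 / 250) hm hκ (by constructor <;> norm_num)
    (d.E_aq (l := 11 / 20) hκ (by norm_num) (by norm_num) nB0558 nC0558) hH

/-- `E φ² ≤ 7109 / 1000 E a` for `Λ² ≤ 409 / 5000` -/
theorem PL0818 (d : Dat μ m p n J Λ) (hm : 36 ≤ m) (hκ : Λ ^ 2 ≤ 409 / 5000)
    (hH : ∫ x, aa J p n x ∂μ ≤ 1 / 50) :
    ∫ x, ph m J p x ^ 2 ∂μ ≤ 7109 / 1000 * ∫ x, aa J p n x ∂μ :=
  d.P_level (κ := 409 / 5000) (A := 77 / 50) (ℓ := 2861 / 10000) (s := 1543 / 2500) (θ := 57 / 400) (lam := 69 / 250) (w := 1323 / 10000)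
    (t1 := 501 / 500) (t2 := 501 / 500) (t3 := 1333 / 500) (t4 := 1) (ρ1 := 3937 / 10000) (e := 2701 / 10000)
    (ρ3 := 921 / 1000) (ρ4 := 7263 / 10000) hm hκ (by constructor <;> norm_num)
    (d.E_aq (l := 19 / 50) hκ (by norm_num) (by norm_num) nB0818 nC0818) hH

/-- `E φ² ≤ 93 / 10 E a` for `Λ² ≤ 1011 / 10000` -/
theorem PL1011 (d : Dat μ m p n J Λ) (hm : 36 ≤ m) (hκ : Λ ^ 2 ≤ 1011 / 10000)
    (hH : ∫ x, aa J p n x ∂μ ≤ 1 / 50) :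
    ∫ x, ph m J p x ^ 2 ∂μ ≤ 93 / 10 * ∫ x, aa J p n x ∂μ :=
  d.P_level (κ := 1011 / 10000) (A := 43 / 25) (ℓ := 159 / 500) (s := 677 / 1000) (θ := 31 / 200) (lam := 327 / 1000) (w := 1439 / 10000)
    (t1 := 559 / 500) (t2 := 559 / 500) (t3 := 61 / 20) (t4 := 1) (ρ1 := 4091 / 10000) (e := 7927 / 10000)
    (ρ3 := 2891 / 2500) (ρ4 := 2247 / 2500) hm hκ (by constructor <;> norm_num)
    (d.E_aq (l := 31 / 100) hκ (by norm_num) (by norm_num) nB1011 nC1011) hH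

/-- `E φ² ≤ 5921 / 500 E a` for `Λ² ≤ 303 / 2500` -/
theorem PL1212 (d : Dat μ m p n J Λ) (hm : 36 ≤ m) (hκ : Λ ^ 2 ≤ 303 / 2500)
    (hH : ∫ x, aa J p n x ∂μ ≤ 1 / 50) :
    ∫ x, ph m J p x ^ 2 ∂μ ≤ 5921 / 500 * ∫ x, aa J p n x ∂μ :=
  d.P_level (κ := 303 / 2500) (A := 47 / 25) (ℓ := 1741 / 5000) (s := 3671 / 5000) (θ := 67 / 400) (lam := 3 / 8) (w := 311 / 2000)
    (t1 := 247 / 200) (t2 := 247 / 200) (t3 := 3441 / 1000) (t4 := 1) (ρ1 := 847 / 2000) (e := 6829 / 5000)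
    (ρ3 := 14153 / 10000) (ρ4 := 10879 / 10000) hm hκ (by constructor <;> norm_num)
    (d.E_aq (l := 253 / 1000) hκ (by norm_num) (by norm_num) nB1212 nC1212) hH

/-- `E φ² ≤ 2157 / 100 E a` for `Λ² ≤ 1809 / 10000` -/
theorem PL1809 (d : Dat μ m p n J Λ) (hm : 36 ≤ m) (hκ : Λ ^ 2 ≤ 1809 / 10000)
    (hH : ∫ x, aa J p n x ∂μ ≤ 1 / 50) :
    ∫ x, ph m J p x ^ 2 ∂μ ≤ 2157 / 100 * ∫ x, aa J p n x ∂μ :=
  d.P_level (κ := 1809 / 10000) (A := 237 / 100) (ℓ := 2127 / 5000) (s := 8823 / 10000) (θ := 507 / 2500) (lam := 497 / 1000) (w := 941 / 5000)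
    (t1 := 1571 / 1000) (t2 := 1571 / 1000) (t3 := 1161 / 250) (t4 := 1) (ρ1 := 577 / 1250) (e := 16471 / 5000)
    (ρ3 := 22681 / 10000) (ρ4 := 17091 / 10000) hm hκ (by constructor <;> norm_num)
    (d.E_aq (l := 4 / 25) hκ (by norm_num) (by norm_num) nB1809 nC1809) hH

end

end Vale.Agent.P224.R2.H869
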