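import Vale.Agent.P224.R2.H686.PhiF
import Vale.Agent.P224.R2.H686.PhiA

/-!
More levels of `E φ² ≤ c₁ E a` for `Λ² ≤ κ`, all `m ≥ 36` and `E a ≤ 1/50`.
-/

namespace Vale.Agent.P224.R2.H869

open MeasureTheory Module Function Set Vale.Agent.P224.R2.H470 Vale.Agent.P224.R2.H686
open scoped RealInnerProductSpace Topology ContDiff

lemma nB0403 (r : ℝ) (h1 : 1 ≤ r) (h2 : r ^ 2 - 1 ≤ 28 / 25) :
    r ^ 2 - 1 - 28 / 25 ≤ 37 / 50 * (r + 1) ^ 2 * ((r ^ 2 - 1) ^ 2 - 7 * (403 / 10000) * (r ^ 2 - 1)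
      - 6 * (403 / 10000)) := by
  have h3 : r ≤ 1457 / 1000 := by nlinarith
  nlinarith [mul_nonneg (sub_nonneg.2 h1) (sub_nonneg.2 h3), sq_nonneg (r - 23 / 20),
    sq_nonneg ((r - 23 / 20) * r), sq_nonneg ((r - 23 / 20) * (r + 1) * r),
    mul_nonneg (sub_nonneg.2 h1) (sq_nonneg (r - 23 / 20)),
    mul_nonneg (sub_nonneg.2 h1) (sq_nonneg ((r - 23 / 20) * r)),
    mul_nonneg (sub_nonneg.2 h3) (sq_nonneg (r - 23 / 20)),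
    mul_nonneg (sub_nonneg.2 h1) (sq_nonneg ((r - 23 / 20) * (r + 1)))]

lemma nC0403 (r : ℝ) (h1 : 1 ≤ r) (h2 : 28 / 25 ≤ r ^ 2 - 1) :
    r ^ 2 - 1 - 28 / 25 ≤ 37 / 50 * (r - 1) ^ 2 * ((r ^ 2 - 1) ^ 2 - 7 * (403 / 10000) * (r ^ 2 - 1)
      - 6 * (403 / 10000)) := by
  have h3 : 182 / 125 ≤ r := by nlinarith
  obtain ⟨d, hd, rfl⟩ : ∃ d : ℝ, 0 ≤ d ∧ r = 182 / 125 + d := ⟨r - 182 / 125, by linarith, by ring⟩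
  nlinarith [mul_nonneg hd hd, mul_nonneg (mul_nonneg hd hd) hd, sq_nonneg (d - 1 / 5),
    mul_nonneg hd (sq_nonneg (d - 1 / 5)), mul_nonneg (mul_nonneg hd hd) (mul_nonneg hd hd),
    mul_nonneg (mul_nonneg (mul_nonneg hd hd) (mul_nonneg hd hd)) hd,
    mul_nonneg (mul_nonneg (mul_nonneg hd hd) (mul_nonneg hd hd)) (mul_nonneg hd hd)]

lemma nB0606 (r : ℝ) (h1 : 1 ≤ r) (h2 : r ^ 2 - 1 ≤ 67 / 50) :
    r ^ 2 - 1 - 67 / 50 ≤ 51 / 100 * (r + 1) ^ 2 * ((r ^ 2 - 1) ^ 2 - 7 * (303 / 5000) * (r ^ 2 - 1)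
      - 6 * (303 / 5000)) := by
  have h3 : r ≤ 153 / 100 := by nlinarith
  nlinarith [mul_nonneg (sub_nonneg.2 h1) (sub_nonneg.2 h3), sq_nonneg (r - 61 / 50),
    sq_nonneg ((r - 61 / 50) * r), sq_nonneg ((r - 61 / 50) * (r + 1) * r),
    mul_nonneg (sub_nonneg.2 h1) (sq_nonneg (r - 61 / 50)),
    mul_nonneg (sub_nonneg.2 h1) (sq_nonneg ((r - 61 / 50) * r)),
    mul_nonneg (sub_nonneg.2 h3) (sq_nonneg (r - 61 / 50)),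
    mul_nonneg (sub_nonneg.2 h1) (sq_nonneg ((r - 61 / 50) * (r + 1)))]

lemma nC0606 (r : ℝ) (h1 : 1 ≤ r) (h2 : 67 / 50 ≤ r ^ 2 - 1) :
    r ^ 2 - 1 - 67 / 50 ≤ 51 / 100 * (r - 1) ^ 2 * ((r ^ 2 - 1) ^ 2 - 7 * (303 / 5000) * (r ^ 2 - 1)
      - 6 * (303 / 5000)) := by
  have h3 : 1529 / 1000 ≤ r := by nlinarith
  obtain ⟨d, hd, rfl⟩ : ∃ d : ℝ, 0 ≤ d ∧ r = 1529 / 1000 + d := ⟨r - 1529 / 1000, by linarith, by ring⟩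
  nlinarith [mul_nonneg hd hd, mul_nonneg (mul_nonneg hd hd) hd, sq_nonneg (d - 1 / 5),
    mul_nonneg hd (sq_nonneg (d - 1 / 5)), mul_nonneg (mul_nonneg hd hd) (mul_nonneg hd hd),
    mul_nonneg (mul_nonneg (mul_nonneg hd hd) (mul_nonneg hd hd)) hd,
    mul_nonneg (mul_nonneg (mul_nonneg hd hd) (mul_nonneg hd hd)) (mul_nonneg hd hd)]

lemma nB0855 (r : ℝ) (h1 : 1 ≤ r) (h2 : r ^ 2 - 1 ≤ 157 / 100) :
    r ^ 2 - 1 - 157 / 100 ≤ 73 / 200 * (r + 1) ^ 2 * ((r ^ 2 - 1) ^ 2 - 7 * (171 / 2000) * (r ^ 2 - 1)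
      - 6 * (171 / 2000)) := by
  have h3 : r ≤ 401 / 250 := by nlinarith
  nlinarith [mul_nonneg (sub_nonneg.2 h1) (sub_nonneg.2 h3), sq_nonneg (r - 32 / 25),
    sq_nonneg ((r - 32 / 25) * r), sq_nonneg ((r - 32 / 25) * (r + 1) * r),
    mul_nonneg (sub_nonneg.2 h1) (sq_nonneg (r - 32 / 25)),
    mul_nonneg (sub_nonneg.2 h1) (sq_nonneg ((r - 32 / 25) * r)),
    mul_nonneg (sub_nonneg.2 h3) (sq_nonneg (r - 32 / 25)),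
    mul_nonneg (sub_nonneg.2 h1) (sq_nonneg ((r - 32 / 25) * (r + 1)))]

lemma nC0855 (r : ℝ) (h1 : 1 ≤ r) (h2 : 157 / 100 ≤ r ^ 2 - 1) :
    r ^ 2 - 1 - 157 / 100 ≤ 73 / 200 * (r - 1) ^ 2 * ((r ^ 2 - 1) ^ 2 - 7 * (171 / 2000) * (r ^ 2 - 1)
      - 6 * (171 / 2000)) := by
  have h3 : 1603 / 1000 ≤ r := by nlinarith
  obtain ⟨d, hd, rfl⟩ : ∃ d : ℝ, 0 ≤ d ∧ r = 1603 / 1000 + d := ⟨r - 1603 / 1000, by linarith, by ring⟩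
  nlinarith [mul_nonneg hd hd, mul_nonneg (mul_nonneg hd hd) hd, sq_nonneg (d - 1 / 5),
    mul_nonneg hd (sq_nonneg (d - 1 / 5)), mul_nonneg (mul_nonneg hd hd) (mul_nonneg hd hd),
    mul_nonneg (mul_nonneg (mul_nonneg hd hd) (mul_nonneg hd hd)) hd,
    mul_nonneg (mul_nonneg (mul_nonneg hd hd) (mul_nonneg hd hd)) (mul_nonneg hd hd)]

lemma nB1017 (r : ℝ) (h1 : 1 ≤ r) (h2 : r ^ 2 - 1 ≤ 43 / 25) :
    r ^ 2 - 1 - 43 / 25 ≤ 153 / 500 * (r + 1) ^ 2 * ((r ^ 2 - 1) ^ 2 - 7 * (1017 / 10000) * (r ^ 2 - 1)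
      - 6 * (1017 / 10000)) := by
  have h3 : r ≤ 33 / 20 := by nlinarith
  nlinarith [mul_nonneg (sub_nonneg.2 h1) (sub_nonneg.2 h3), sq_nonneg (r - 33 / 25),
    sq_nonneg ((r - 33 / 25) * r), sq_nonneg ((r - 33 / 25) * (r + 1) * r),
    mul_nonneg (sub_nonneg.2 h1) (sq_nonneg (r - 33 / 25)),
    mul_nonneg (sub_nonneg.2 h1) (sq_nonneg ((r - 33 / 25) * r)),
    mul_nonneg (sub_nonneg.2 h3) (sq_nonneg (r - 33 / 25)),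
    mul_nonneg (sub_nonneg.2 h1) (sq_nonneg ((r - 33 / 25) * (r + 1)))]

lemma nC1017 (r : ℝ) (h1 : 1 ≤ r) (h2 : 43 / 25 ≤ r ^ 2 - 1) :
    r ^ 2 - 1 - 43 / 25 ≤ 153 / 500 * (r - 1) ^ 2 * ((r ^ 2 - 1) ^ 2 - 7 * (1017 / 10000) * (r ^ 2 - 1)
      - 6 * (1017 / 10000)) := by
  have h3 : 1649 / 1000 ≤ r := by nlinarith
  obtain ⟨d, hd, rfl⟩ : ∃ d : ℝ, 0 ≤ d ∧ r = 1649 / 1000 + d := ⟨r - 1649 / 1000, by linarith, by ring⟩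
  nlinarith [mul_nonneg hd hd, mul_nonneg (mul_nonneg hd hd) hd, sq_nonneg (d - 1 / 5),
    mul_nonneg hd (sq_nonneg (d - 1 / 5)), mul_nonneg (mul_nonneg hd hd) (mul_nonneg hd hd),
    mul_nonneg (mul_nonneg (mul_nonneg hd hd) (mul_nonneg hd hd)) hd,
    mul_nonneg (mul_nonneg (mul_nonneg hd hd) (mul_nonneg hd hd)) (mul_nonneg hd hd)]

lemma nB124 (r : ℝ) (h1 : 1 ≤ r) (h2 : r ^ 2 - 1 ≤ 191 / 100) :
    r ^ 2 - 1 - 191 / 100 ≤ 247 / 1000 * (r + 1) ^ 2 * ((r ^ 2 - 1) ^ 2 - 7 * (31 / 250) * (r ^ 2 - 1)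
      - 6 * (31 / 250)) := by
  have h3 : r ≤ 853 / 500 := by nlinarith
  nlinarith [mul_nonneg (sub_nonneg.2 h1) (sub_nonneg.2 h3), sq_nonneg (r - 69 / 50),
    sq_nonneg ((r - 69 / 50) * r), sq_nonneg ((r - 69 / 50) * (r + 1) * r),
    mul_nonneg (sub_nonneg.2 h1) (sq_nonneg (r - 69 / 50)),
    mul_nonneg (sub_nonneg.2 h1) (sq_nonneg ((r - 69 / 50) * r)),
    mul_nonneg (sub_nonneg.2 h3) (sq_nonneg (r - 69 / 50)),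
    mul_nonneg (sub_nonneg.2 h1) (sq_nonneg ((r - 69 / 50) * (r + 1)))]

lemma nC124 (r : ℝ) (h1 : 1 ≤ r) (h2 : 191 / 100 ≤ r ^ 2 - 1) :
    r ^ 2 - 1 - 191 / 100 ≤ 247 / 1000 * (r - 1) ^ 2 * ((r ^ 2 - 1) ^ 2 - 7 * (31 / 250) * (r ^ 2 - 1)
      - 6 * (31 / 250)) := by
  have h3 : 341 / 200 ≤ r := by nlinarith
  obtain ⟨d, hd, rfl⟩ : ∃ d : ℝ, 0 ≤ d ∧ r = 341 / 200 + d := ⟨r - 341 / 200, by linarith, by ring⟩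
  nlinarith [mul_nonneg hd hd, mul_nonneg (mul_nonneg hd hd) hd, sq_nonneg (d - 1 / 5),
    mul_nonneg hd (sq_nonneg (d - 1 / 5)), mul_nonneg (mul_nonneg hd hd) (mul_nonneg hd hd),
    mul_nonneg (mul_nonneg (mul_nonneg hd hd) (mul_nonneg hd hd)) hd,
    mul_nonneg (mul_nonneg (mul_nonneg hd hd) (mul_nonneg hd hd)) (mul_nonneg hd hd)]

lemma nB191 (r : ℝ) (h1 : 1 ≤ r) (h2 : r ^ 2 - 1 ≤ 49 / 20) :
    r ^ 2 - 1 - 49 / 20 ≤ 3 / 20 * (r + 1) ^ 2 * ((r ^ 2 - 1) ^ 2 - 7 * (191 / 1000) * (r ^ 2 - 1)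
      - 6 * (191 / 1000)) := by
  have h3 : r ≤ 929 / 500 := by nlinarith
  nlinarith [mul_nonneg (sub_nonneg.2 h1) (sub_nonneg.2 h3), sq_nonneg (r - 153 / 100),
    sq_nonneg ((r - 153 / 100) * r), sq_nonneg ((r - 153 / 100) * (r + 1) * r),
    mul_nonneg (sub_nonneg.2 h1) (sq_nonneg (r - 153 / 100)),
    mul_nonneg (sub_nonneg.2 h1) (sq_nonneg ((r - 153 / 100) * r)),
    mul_nonneg (sub_nonneg.2 h3) (sq_nonneg (r - 153 / 100)),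
    mul_nonneg (sub_nonneg.2 h1) (sq_nonneg ((r - 153 / 100) * (r + 1)))]

lemma nC191 (r : ℝ) (h1 : 1 ≤ r) (h2 : 49 / 20 ≤ r ^ 2 - 1) :
    r ^ 2 - 1 - 49 / 20 ≤ 3 / 20 * (r - 1) ^ 2 * ((r ^ 2 - 1) ^ 2 - 7 * (191 / 1000) * (r ^ 2 - 1)
      - 6 * (191 / 1000)) := by
  have h3 : 1857 / 1000 ≤ r := by nlinarith
  obtain ⟨d, hd, rfl⟩ : ∃ d : ℝ, 0 ≤ d ∧ r = 1857 / 1000 + d := ⟨r - 1857 / 1000, by linarith, by ring⟩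
  nlinarith [mul_nonneg hd hd, mul_nonneg (mul_nonneg hd hd) hd, sq_nonneg (d - 1 / 5),
    mul_nonneg hd (sq_nonneg (d - 1 / 5)), mul_nonneg (mul_nonneg hd hd) (mul_nonneg hd hd),
    mul_nonneg (mul_nonneg (mul_nonneg hd hd) (mul_nonneg hd hd)) hd,
    mul_nonneg (mul_nonneg (mul_nonneg hd hd) (mul_nonneg hd hd)) (mul_nonneg hd hd)]

section

variable {X : Type*} {E : Type*} [NormedAddCommGroup E] [InnerProductSpace ℝ E]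
  [FiniteDimensional ℝ E] [TopologicalSpace X] [MeasurableSpace X] [CompactSpace X] [BorelSpace X]
  {μ : Measure X} [IsProbabilityMeasure μ] {m : ℕ} {p n : X → E} {J : E →L[ℝ] E} {Λ : ℝ}

/-- `E φ² ≤ 3881 / 1000 E a` for `Λ² ≤ 403 / 10000` -/
theorem PL0403 (d : Dat μ m p n J Λ) (hm : 36 ≤ m) (hκ : Λ ^ 2 ≤ 403 / 10000)
    (hH : ∫ x, aa J p n x ∂μ ≤ 1 / 50) :
    ∫ x, ph m J p x ^ 2 ∂μ ≤ 3881 / 1000 * ∫ x, aa J p n x ∂μ :=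
  d.P_level (κ := 403 / 10000) (A := 28 / 25) (ℓ := 251 / 1250) (s := 2309 / 5000) (θ := 699 / 10000) (lam := 341 / 1000) (w := 81 / 1250)
    (t1 := 197 / 250) (t2 := 293 / 250) (t3 := 5123 / 1000) (t4 := 48 / 125) (ρ1 := 2519 / 10000) (e := 1 / 625)
    (ρ3 := 1967 / 5000) (ρ4 := 2267 / 5000) hm hκ (by constructor <;> norm_num)
    (d.E_aq (l := 37 / 50) hκ (by norm_num) (by norm_num) nB0403 nC0403) hH

/-- `E φ² ≤ 5107 / 1000 E a` for `Λ² ≤ 303 / 5000` -/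
theorem PL0606 (d : Dat μ m p n J Λ) (hm : 36 ≤ m) (hκ : Λ ^ 2 ≤ 303 / 5000)
    (hH : ∫ x, aa J p n x ∂μ ≤ 1 / 50) :
    ∫ x, ph m J p x ^ 2 ∂μ ≤ 5107 / 1000 * ∫ x, aa J p n x ∂μ :=
  d.P_level (κ := 303 / 5000) (A := 67 / 50) (ℓ := 1231 / 5000) (s := 1087 / 2000) (θ := 14 / 125) (lam := 11 / 40) (w := 1039 / 10000)
    (t1 := 437 / 500) (t2 := 1029 / 1000) (t3 := 3099 / 1000) (t4 := 183 / 250) (ρ1 := 3351 / 10000) (e := 0)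
    (ρ3 := 1563 / 2500) (ρ4 := 5749 / 10000) hm hκ (by constructor <;> norm_num)
    (d.E_aq (l := 51 / 100) hκ (by norm_num) (by norm_num) nB0606 nC0606) hH

/-- `E φ² ≤ 7503 / 1000 E a` for `Λ² ≤ 171 / 2000` -/
theorem PL0855 (d : Dat μ m p n J Λ) (hm : 36 ≤ m) (hκ : Λ ^ 2 ≤ 171 / 2000)
    (hH : ∫ x, aa J p n x ∂μ ≤ 1 / 50) :
    ∫ x, ph m J p x ^ 2 ∂μ ≤ 7503 / 1000 * ∫ x, aa J p n x ∂μ :=
  d.P_level (κ := 171 / 2000) (A := 157 / 100) (ℓ := 117 / 400) (s := 6291 / 10000) (θ := 29 / 200) (lam := 143 / 500) (w := 673 / 5000)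
    (t1 := 41 / 40) (t2 := 41 / 40) (t3 := 2739 / 1000) (t4 := 1) (ρ1 := 248 / 625) (e := 3683 / 10000)
    (ρ3 := 1207 / 1250) (ρ4 := 7591 / 10000) hm hκ (by constructor <;> norm_num)
    (d.E_aq (l := 73 / 200) hκ (by norm_num) (by norm_num) nB0855 nC0855) hH

/-- `E φ² ≤ 9367 / 1000 E a` for `Λ² ≤ 1017 / 10000` -/
theorem PL1017 (d : Dat μ m p n J Λ) (hm : 36 ≤ m) (hκ : Λ ^ 2 ≤ 1017 / 10000)
    (hH : ∫ x, aa J p n x ∂μ ≤ 1 / 50) :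
    ∫ x, ph m J p x ^ 2 ∂μ ≤ 9367 / 1000 * ∫ x, aa J p n x ∂μ :=
  d.P_level (κ := 1017 / 10000) (A := 43 / 25) (ℓ := 319 / 1000) (s := 6789 / 10000) (θ := 777 / 5000) (lam := 41 / 125) (w := 721 / 5000)
    (t1 := 561 / 500) (t2 := 561 / 500) (t3 := 153 / 50) (t4 := 1) (ρ1 := 256 / 625) (e := 4047 / 5000)
    (ρ3 := 5823 / 5000) (ρ4 := 1131 / 1250) hm hκ (by constructor <;> norm_num)
    (d.E_aq (l := 153 / 500) hκ (by norm_num) (by norm_num) nB1017 nC1017) hH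

/-- `E φ² ≤ 12239 / 1000 E a` for `Λ² ≤ 31 / 250` -/
theorem PL124 (d : Dat μ m p n J Λ) (hm : 36 ≤ m) (hκ : Λ ^ 2 ≤ 31 / 250)
    (hH : ∫ x, aa J p n x ∂μ ≤ 1 / 50) :
    ∫ x, ph m J p x ^ 2 ∂μ ≤ 12239 / 1000 * ∫ x, aa J p n x ∂μ :=
  d.P_level (κ := 31 / 250) (A := 191 / 100) (ℓ := 1761 / 5000) (s := 3709 / 5000) (θ := 1691 / 10000) (lam := 381 / 1000) (w := 1569 / 10000)
    (t1 := 1251 / 1000) (t2 := 1251 / 1000) (t3 := 1749 / 500) (t4 := 1) (ρ1 := 266 / 625) (e := 7243 / 5000)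
    (ρ3 := 7261 / 5000) (ρ4 := 2787 / 2500) hm hκ (by constructor <;> norm_num)
    (d.E_aq (l := 247 / 1000) hκ (by norm_num) (by norm_num) nB124 nC124) hH

/-- `E φ² ≤ 1179 / 50 E a` for `Λ² ≤ 191 / 1000` -/
theorem PL191 (d : Dat μ m p n J Λ) (hm : 36 ≤ m) (hκ : Λ ^ 2 ≤ 191 / 1000)
    (hH : ∫ x, aa J p n x ∂μ ≤ 1 / 50) :
    ∫ x, ph m J p x ^ 2 ∂μ ≤ 1179 / 50 * ∫ x, aa J p n x ∂μ :=
  d.P_level (κ := 191 / 1000) (A := 49 / 20) (ℓ := 4371 / 10000) (s := 9049 / 10000) (θ := 2087 / 10000) (lam := 103 / 200) (w := 1937 / 10000)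
    (t1 := 407 / 250) (t2 := 407 / 250) (t3 := 607 / 125) (t4 := 1) (ρ1 := 187 / 400) (e := 3659 / 1000)
    (ρ3 := 12133 / 5000) (ρ4 := 9123 / 5000) hm hκ (by constructor <;> norm_num)
    (d.E_aq (l := 3 / 20) hκ (by norm_num) (by norm_num) nB191 nC191) hH

end

end Vale.Agent.P224.R2.H869
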