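import Vale.Agent.P224.R2.H686.PhiF
import Vale.Agent.P224.R2.H686.PhiA

/-!
More levels of `E φ² ≤ c₁ E a` for `Λ² ≤ κ`, all `m ≥ 36` and `E a ≤ 1/50`.
-/

namespace Vale.Agent.P224.R2.H869

open MeasureTheory Module Function Set Vale.Agent.P224.R2.H470 Vale.Agent.P224.R2.H686
open scoped RealInnerProductSpace Topology ContDiff

lemma nB0427 (r : ℝ) (h1 : 1 ≤ r) (h2 : r ^ 2 - 1 ≤ 23 / 20) :
    r ^ 2 - 1 - 23 / 20 ≤ 71 / 100 * (r + 1) ^ 2 * ((r ^ 2 - 1) ^ 2 - 7 * (427 / 10000) * (r ^ 2 - 1)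
      - 6 * (427 / 10000)) := by
  have h3 : r ≤ 1467 / 1000 := by nlinarith
  nlinarith [mul_nonneg (sub_nonneg.2 h1) (sub_nonneg.2 h3), sq_nonneg (r - 29 / 25),
    sq_nonneg ((r - 29 / 25) * r), sq_nonneg ((r - 29 / 25) * (r + 1) * r),
    mul_nonneg (sub_nonneg.2 h1) (sq_nonneg (r - 29 / 25)),
    mul_nonneg (sub_nonneg.2 h1) (sq_nonneg ((r - 29 / 25) * r)),
    mul_nonneg (sub_nonneg.2 h3) (sq_nonneg (r - 29 / 25)),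
    mul_nonneg (sub_nonneg.2 h1) (sq_nonneg ((r - 29 / 25) * (r + 1)))]

lemma nC0427 (r : ℝ) (h1 : 1 ≤ r) (h2 : 23 / 20 ≤ r ^ 2 - 1) :
    r ^ 2 - 1 - 23 / 20 ≤ 71 / 100 * (r - 1) ^ 2 * ((r ^ 2 - 1) ^ 2 - 7 * (427 / 10000) * (r ^ 2 - 1)
      - 6 * (427 / 10000)) := by
  have h3 : 733 / 500 ≤ r := by nlinarith
  obtain ⟨d, hd, rfl⟩ : ∃ d : ℝ, 0 ≤ d ∧ r = 733 / 500 + d := ⟨r - 733 / 500, by linarith, by ring⟩
  nlinarith [mul_nonneg hd hd, mul_nonneg (mul_nonneg hd hd) hd, sq_nonneg (d - 1 / 5),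
    mul_nonneg hd (sq_nonneg (d - 1 / 5)), mul_nonneg (mul_nonneg hd hd) (mul_nonneg hd hd),
    mul_nonneg (mul_nonneg (mul_nonneg hd hd) (mul_nonneg hd hd)) hd,
    mul_nonneg (mul_nonneg (mul_nonneg hd hd) (mul_nonneg hd hd)) (mul_nonneg hd hd)]

lemma nB0672 (r : ℝ) (h1 : 1 ≤ r) (h2 : r ^ 2 - 1 ≤ 7 / 5) :
    r ^ 2 - 1 - 7 / 5 ≤ 23 / 50 * (r + 1) ^ 2 * ((r ^ 2 - 1) ^ 2 - 7 * (42 / 625) * (r ^ 2 - 1)
      - 6 * (42 / 625)) := by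
  have h3 : r ≤ 31 / 20 := by nlinarith
  nlinarith [mul_nonneg (sub_nonneg.2 h1) (sub_nonneg.2 h3), sq_nonneg (r - 123 / 100),
    sq_nonneg ((r - 123 / 100) * r), sq_nonneg ((r - 123 / 100) * (r + 1) * r),
    mul_nonneg (sub_nonneg.2 h1) (sq_nonneg (r - 123 / 100)),
    mul_nonneg (sub_nonneg.2 h1) (sq_nonneg ((r - 123 / 100) * r)),
    mul_nonneg (sub_nonneg.2 h3) (sq_nonneg (r - 123 / 100)),
    mul_nonneg (sub_nonneg.2 h1) (sq_nonneg ((r - 123 / 100) * (r + 1)))]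

lemma nC0672 (r : ℝ) (h1 : 1 ≤ r) (h2 : 7 / 5 ≤ r ^ 2 - 1) :
    r ^ 2 - 1 - 7 / 5 ≤ 23 / 50 * (r - 1) ^ 2 * ((r ^ 2 - 1) ^ 2 - 7 * (42 / 625) * (r ^ 2 - 1)
      - 6 * (42 / 625)) := by
  have h3 : 1549 / 1000 ≤ r := by nlinarith
  obtain ⟨d, hd, rfl⟩ : ∃ d : ℝ, 0 ≤ d ∧ r = 1549 / 1000 + d := ⟨r - 1549 / 1000, by linarith, by ring⟩
  nlinarith [mul_nonneg hd hd, mul_nonneg (mul_nonneg hd hd) hd, sq_nonneg (d - 1 / 5),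
    mul_nonneg hd (sq_nonneg (d - 1 / 5)), mul_nonneg (mul_nonneg hd hd) (mul_nonneg hd hd),
    mul_nonneg (mul_nonneg (mul_nonneg hd hd) (mul_nonneg hd hd)) hd,
    mul_nonneg (mul_nonneg (mul_nonneg hd hd) (mul_nonneg hd hd)) (mul_nonneg hd hd)]

lemma nB0859 (r : ℝ) (h1 : 1 ≤ r) (h2 : r ^ 2 - 1 ≤ 79 / 50) :
    r ^ 2 - 1 - 79 / 50 ≤ 73 / 200 * (r + 1) ^ 2 * ((r ^ 2 - 1) ^ 2 - 7 * (859 / 10000) * (r ^ 2 - 1)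
      - 6 * (859 / 10000)) := by
  have h3 : r ≤ 1607 / 1000 := by nlinarith
  nlinarith [mul_nonneg (sub_nonneg.2 h1) (sub_nonneg.2 h3), sq_nonneg (r - 32 / 25),
    sq_nonneg ((r - 32 / 25) * r), sq_nonneg ((r - 32 / 25) * (r + 1) * r),
    mul_nonneg (sub_nonneg.2 h1) (sq_nonneg (r - 32 / 25)),
    mul_nonneg (sub_nonneg.2 h1) (sq_nonneg ((r - 32 / 25) * r)),
    mul_nonneg (sub_nonneg.2 h3) (sq_nonneg (r - 32 / 25)),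
    mul_nonneg (sub_nonneg.2 h1) (sq_nonneg ((r - 32 / 25) * (r + 1)))]

lemma nC0859 (r : ℝ) (h1 : 1 ≤ r) (h2 : 79 / 50 ≤ r ^ 2 - 1) :
    r ^ 2 - 1 - 79 / 50 ≤ 73 / 200 * (r - 1) ^ 2 * ((r ^ 2 - 1) ^ 2 - 7 * (859 / 10000) * (r ^ 2 - 1)
      - 6 * (859 / 10000)) := by
  have h3 : 803 / 500 ≤ r := by nlinarith
  obtain ⟨d, hd, rfl⟩ : ∃ d : ℝ, 0 ≤ d ∧ r = 803 / 500 + d := ⟨r - 803 / 500, by linarith, by ring⟩
  nlinarith [mul_nonneg hd hd, mul_nonneg (mul_nonneg hd hd) hd, sq_nonneg (d - 1 / 5),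
    mul_nonneg hd (sq_nonneg (d - 1 / 5)), mul_nonneg (mul_nonneg hd hd) (mul_nonneg hd hd),
    mul_nonneg (mul_nonneg (mul_nonneg hd hd) (mul_nonneg hd hd)) hd,
    mul_nonneg (mul_nonneg (mul_nonneg hd hd) (mul_nonneg hd hd)) (mul_nonneg hd hd)]

lemma nB1028 (r : ℝ) (h1 : 1 ≤ r) (h2 : r ^ 2 - 1 ≤ 173 / 100) :
    r ^ 2 - 1 - 173 / 100 ≤ 3 / 10 * (r + 1) ^ 2 * ((r ^ 2 - 1) ^ 2 - 7 * (257 / 2500) * (r ^ 2 - 1)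
      - 6 * (257 / 2500)) := by
  have h3 : r ≤ 1653 / 1000 := by nlinarith
  nlinarith [mul_nonneg (sub_nonneg.2 h1) (sub_nonneg.2 h3), sq_nonneg (r - 133 / 100),
    sq_nonneg ((r - 133 / 100) * r), sq_nonneg ((r - 133 / 100) * (r + 1) * r),
    mul_nonneg (sub_nonneg.2 h1) (sq_nonneg (r - 133 / 100)),
    mul_nonneg (sub_nonneg.2 h1) (sq_nonneg ((r - 133 / 100) * r)),
    mul_nonneg (sub_nonneg.2 h3) (sq_nonneg (r - 133 / 100)),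
    mul_nonneg (sub_nonneg.2 h1) (sq_nonneg ((r - 133 / 100) * (r + 1)))]

lemma nC1028 (r : ℝ) (h1 : 1 ≤ r) (h2 : 173 / 100 ≤ r ^ 2 - 1) :
    r ^ 2 - 1 - 173 / 100 ≤ 3 / 10 * (r - 1) ^ 2 * ((r ^ 2 - 1) ^ 2 - 7 * (257 / 2500) * (r ^ 2 - 1)
      - 6 * (257 / 2500)) := by
  have h3 : 413 / 250 ≤ r := by nlinarith
  obtain ⟨d, hd, rfl⟩ : ∃ d : ℝ, 0 ≤ d ∧ r = 413 / 250 + d := ⟨r - 413 / 250, by linarith, by ring⟩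
  nlinarith [mul_nonneg hd hd, mul_nonneg (mul_nonneg hd hd) hd, sq_nonneg (d - 1 / 5),
    mul_nonneg hd (sq_nonneg (d - 1 / 5)), mul_nonneg (mul_nonneg hd hd) (mul_nonneg hd hd),
    mul_nonneg (mul_nonneg (mul_nonneg hd hd) (mul_nonneg hd hd)) hd,
    mul_nonneg (mul_nonneg (mul_nonneg hd hd) (mul_nonneg hd hd)) (mul_nonneg hd hd)]

lemma nB1304 (r : ℝ) (h1 : 1 ≤ r) (h2 : r ^ 2 - 1 ≤ 49 / 25) :
    r ^ 2 - 1 - 49 / 25 ≤ 233 / 1000 * (r + 1) ^ 2 * ((r ^ 2 - 1) ^ 2 - 7 * (163 / 1250) * (r ^ 2 - 1)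
      - 6 * (163 / 1250)) := by
  have h3 : r ≤ 1721 / 1000 := by nlinarith
  nlinarith [mul_nonneg (sub_nonneg.2 h1) (sub_nonneg.2 h3), sq_nonneg (r - 139 / 100),
    sq_nonneg ((r - 139 / 100) * r), sq_nonneg ((r - 139 / 100) * (r + 1) * r),
    mul_nonneg (sub_nonneg.2 h1) (sq_nonneg (r - 139 / 100)),
    mul_nonneg (sub_nonneg.2 h1) (sq_nonneg ((r - 139 / 100) * r)),
    mul_nonneg (sub_nonneg.2 h3) (sq_nonneg (r - 139 / 100)),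
    mul_nonneg (sub_nonneg.2 h1) (sq_nonneg ((r - 139 / 100) * (r + 1)))]

lemma nC1304 (r : ℝ) (h1 : 1 ≤ r) (h2 : 49 / 25 ≤ r ^ 2 - 1) :
    r ^ 2 - 1 - 49 / 25 ≤ 233 / 1000 * (r - 1) ^ 2 * ((r ^ 2 - 1) ^ 2 - 7 * (163 / 1250) * (r ^ 2 - 1)
      - 6 * (163 / 1250)) := by
  have h3 : 43 / 25 ≤ r := by nlinarith
  obtain ⟨d, hd, rfl⟩ : ∃ d : ℝ, 0 ≤ d ∧ r = 43 / 25 + d := ⟨r - 43 / 25, by linarith, by ring⟩
  nlinarith [mul_nonneg hd hd, mul_nonneg (mul_nonneg hd hd) hd, sq_nonneg (d - 1 / 5),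
    mul_nonneg hd (sq_nonneg (d - 1 / 5)), mul_nonneg (mul_nonneg hd hd) (mul_nonneg hd hd),
    mul_nonneg (mul_nonneg (mul_nonneg hd hd) (mul_nonneg hd hd)) hd,
    mul_nonneg (mul_nonneg (mul_nonneg hd hd) (mul_nonneg hd hd)) (mul_nonneg hd hd)]

section

variable {X : Type*} {E : Type*} [NormedAddCommGroup E] [InnerProductSpace ℝ E]
  [FiniteDimensional ℝ E] [TopologicalSpace X] [MeasurableSpace X] [CompactSpace X] [BorelSpace X]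
  {μ : Measure X} [IsProbabilityMeasure μ] {m : ℕ} {p n : X → E} {J : E →L[ℝ] E} {Λ : ℝ}

/-- `E φ² ≤ 4003 / 1000 E a` for `Λ² ≤ 427 / 10000` -/
theorem PL0427 (d : Dat μ m p n J Λ) (hm : 36 ≤ m) (hκ : Λ ^ 2 ≤ 427 / 10000)
    (hH : ∫ x, aa J p n x ∂μ ≤ 1 / 50) :
    ∫ x, ph m J p x ^ 2 ∂μ ≤ 4003 / 1000 * ∫ x, aa J p n x ∂μ :=
  d.P_level (κ := 427 / 10000) (A := 23 / 20) (ℓ := 2067 / 10000) (s := 2361 / 5000) (θ := 747 / 10000) (lam := 333 / 1000) (w := 693 / 10000)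
    (t1 := 797 / 1000) (t2 := 1157 / 1000) (t3 := 2317 / 500) (t4 := 52 / 125) (ρ1 := 1307 / 5000) (e := 1 / 2000)
    (ρ3 := 833 / 2000) (ρ4 := 4687 / 10000) hm hκ (by constructor <;> norm_num)
    (d.E_aq (l := 71 / 100) hκ (by norm_num) (by norm_num) nB0427 nC0427) hH

/-- `E φ² ≤ 5639 / 1000 E a` for `Λ² ≤ 42 / 625` -/
theorem PL0672 (d : Dat μ m p n J Λ) (hm : 36 ≤ m) (hκ : Λ ^ 2 ≤ 42 / 625)
    (hH : ∫ x, aa J p n x ∂μ ≤ 1 / 50) :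
    ∫ x, ph m J p x ^ 2 ∂μ ≤ 5639 / 1000 * ∫ x, aa J p n x ∂μ :=
  d.P_level (κ := 42 / 625) (A := 7 / 5) (ℓ := 2593 / 10000) (s := 227 / 400) (θ := 1263 / 10000) (lam := 129 / 500) (w := 293 / 2500)
    (t1 := 911 / 1000) (t2 := 487 / 500) (t3 := 1339 / 500) (t4 := 443 / 500) (ρ1 := 3643 / 10000) (e := 9 / 10000)
    (ρ3 := 3629 / 5000) (ρ4 := 6127 / 10000) hm hκ (by constructor <;> norm_num)
    (d.E_aq (l := 23 / 50) hκ (by norm_num) (by norm_num) nB0672 nC0672) hH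

/-- `E φ² ≤ 3777 / 500 E a` for `Λ² ≤ 859 / 10000` -/
theorem PL0859 (d : Dat μ m p n J Λ) (hm : 36 ≤ m) (hκ : Λ ^ 2 ≤ 859 / 10000)
    (hH : ∫ x, aa J p n x ∂μ ≤ 1 / 50) :
    ∫ x, ph m J p x ^ 2 ∂μ ≤ 3777 / 500 * ∫ x, aa J p n x ∂μ :=
  d.P_level (κ := 859 / 10000) (A := 79 / 50) (ℓ := 2931 / 10000) (s := 6303 / 10000) (θ := 1453 / 10000) (lam := 287 / 1000) (w := 337 / 2500)
    (t1 := 1027 / 1000) (t2 := 1027 / 1000) (t3 := 687 / 250) (t4 := 1) (ρ1 := 993 / 2500) (e := 3789 / 10000)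
    (ρ3 := 4849 / 5000) (ρ4 := 3811 / 5000) hm hκ (by constructor <;> norm_num)
    (d.E_aq (l := 73 / 200) hκ (by norm_num) (by norm_num) nB0859 nC0859) hH

/-- `E φ² ≤ 9499 / 1000 E a` for `Λ² ≤ 257 / 2500` -/
theorem PL1028 (d : Dat μ m p n J Λ) (hm : 36 ≤ m) (hκ : Λ ^ 2 ≤ 257 / 2500)
    (hH : ∫ x, aa J p n x ∂μ ≤ 1 / 50) :
    ∫ x, ph m J p x ^ 2 ∂μ ≤ 9499 / 1000 * ∫ x, aa J p n x ∂μ :=
  d.P_level (κ := 257 / 2500) (A := 173 / 100) (ℓ := 3207 / 10000) (s := 6821 / 10000) (θ := 1561 / 10000) (lam := 331 / 1000) (w := 1449 / 10000)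
    (t1 := 141 / 125) (t2 := 141 / 125) (t3 := 1541 / 500) (t4 := 1) (ρ1 := 821 / 2000) (e := 2099 / 2500)
    (ρ3 := 11779 / 10000) (ρ4 := 1829 / 2000) hm hκ (by constructor <;> norm_num)
    (d.E_aq (l := 3 / 10) hκ (by norm_num) (by norm_num) nB1028 nC1028) hH

/-- `E φ² ≤ 1313 / 100 E a` for `Λ² ≤ 163 / 1250` -/
theorem PL1304 (d : Dat μ m p n J Λ) (hm : 36 ≤ m) (hκ : Λ ^ 2 ≤ 163 / 1250)
    (hH : ∫ x, aa J p n x ∂μ ≤ 1 / 50) :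
    ∫ x, ph m J p x ^ 2 ∂μ ≤ 1313 / 100 * ∫ x, aa J p n x ∂μ :=
  d.P_level (κ := 163 / 1250) (A := 49 / 25) (ℓ := 903 / 2500) (s := 759 / 1000) (θ := 173 / 1000) (lam := 79 / 200) (w := 803 / 5000)
    (t1 := 1287 / 1000) (t2 := 1287 / 1000) (t3 := 3623 / 1000) (t4 := 1) (ρ1 := 4301 / 10000) (e := 2047 / 1250)
    (ρ3 := 15377 / 10000) (ρ4 := 11771 / 10000) hm hκ (by constructor <;> norm_num)
    (d.E_aq (l := 233 / 1000) hκ (by norm_num) (by norm_num) nB1304 nC1304) hH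

end

end Vale.Agent.P224.R2.H869
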