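import Vale.Agent.P224.R2.H869.TlBlk
import Vale.Agent.P224.R2.H484.TbA

/-!
The blocks 36 to 60 and 60 to 100.
-/

namespace Vale.Agent.P224.R2.H869

open Vale.Agent.P224.R2.H484 Vale.Agent.P224.R2.H876

/-- the block 36 to 60 -/
def bA36 : BlkS where
  m1 := 36
  m2 := 60
  L := La36
  Lm := L60
  c1 := 91 / 5
  c2 := 61 / 5
  η := 1 / 20
  β := 41 / 50
  K := 57 / 50
  jj := 5
  i1 := 14
  i2 := 10
  X2 := tN X2a36
  X1 := tN X1a36
  X0 := tN X0a36
  z2 := z2a36
  z1 := z1a36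
  z0 := z0a36
  ok := oka36
  cells := cellsa36
  coef := coefa36
  mom := fun m q h1 h2 => MM_le_60 (by omega) (by omega) q

/-- the block 60 to 100 -/
def bA60 : BlkS where
  m1 := 60
  m2 := 100
  L := La60
  Lm := L100
  c1 := 91 / 5
  c2 := 61 / 5
  η := 1 / 20
  β := 41 / 50
  K := 57 / 50
  jj := 5
  i1 := 14
  i2 := 8
  X2 := tN X2a60
  X1 := tN X1a60
  X0 := tN X0a60
  z2 := z2a60
  z1 := z1a60
  z0 := z0a60
  ok := oka60
  cells := cellsa60
  coef := coefa60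
  mom := fun m q h1 h2 => MM_le_100 (by omega) (by omega) q

end Vale.Agent.P224.R2.H869
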