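import Vale.Agent.P224.R2.H869.TlPt
import Vale.Agent.P224.R2.H484.TlC
import Vale.Agent.P224.R2.H662.Nrm
import Vale.Agent.P224.R2.H176.G.Tail

/-!
The relative tail for minimal hypersurfaces from the one point function and the pointwise
inequality.
-/

namespace Vale.Agent.P224.R2.H869

open MeasureTheory Set Function Real Module Matrix Vale.Agent.P224 Vale.Agent.P224.FV
  Vale.Agent.P224.R2.H582 Vale.Agent.P224.R2.H484 Vale.Agent.P224.R2.H728
  Vale.Agent.P224.R2.H686 Vale.Agent.P224.R2.H662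
open Vale.Agent.P224.SM2 hiding ker
open Vale.Agent.P224.R2.H470 hiding tg
open scoped Topology RealInnerProductSpace ContDiff Manifold

set_option linter.unusedSectionVars false

section

variable {X : Type*} {E : Type*} [NormedAddCommGroup E] [InnerProductSpace ℝ E]
  {m : ℕ} {p n : X → E} {J : E →L[ℝ] E} {Λ : ℝ}

lemma aG_eq (x : X) : aG (zz J p n) x = aa J p n x := rfl

variable [FiniteDimensional ℝ E] [TopologicalSpace X] [MeasurableSpace X] [CompactSpace X]
  [BorelSpace X] {μ : Measure X} [IsProbabilityMeasure μ]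

lemma pG_eq (d : Dat μ m p n J Λ) (x : X) : pG m p (zz J p n) x = ph m J p x := by
  unfold pG ph
  rw [d.f_eq, abs_neg]

lemma zz_pair (hJ : ∀ u v, ⟪J u, v⟫ = ⟪u, J v⟫) (x y : X) :
    ⟪n x, p y⟫ - ⟪p x, n y⟫ = ⟪zz J p n x, p y⟫ - ⟪p x, zz J p n y⟫ := by
  unfold zz
  rw [inner_sub_left, inner_sub_right, hJ (p x) (p y)]
  ring

end

section

variable {V W M : Type*} [NormedAddCommGroup V] [InnerProductSpace ℝ V] [FiniteDimensional ℝ V]
  [NormedAddCommGroup W] [InnerProductSpace ℝ W] [FiniteDimensional ℝ W]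
  [TopologicalSpace M] [ChartedSpace V M]
  [MeasurableSpace V] [BorelSpace V] [MeasurableSpace M] [BorelSpace M]
  [MeasurableSpace W] [BorelSpace W] [IsManifold 𝓘(ℝ, V) ∞ M]
  [CompactSpace M] [T2Space M]

/-- the data of a minimal hypersurface for the normalised measure -/
structure NrmData (V : Type*) [NormedAddCommGroup V] [InnerProductSpace ℝ V]
    [FiniteDimensional ℝ V] {W M : Type*}
    [NormedAddCommGroup W] [InnerProductSpace ℝ W] [FiniteDimensional ℝ W]
    [TopologicalSpace M] [ChartedSpace V M]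
    [MeasurableSpace V] [BorelSpace V] [MeasurableSpace M] [BorelSpace M]
    [MeasurableSpace W] [BorelSpace W] [CompactSpace M] (F N : M → W) : Prop where
  fin : IsFiniteMeasure (volM V F)
  nz : NeZero (volM V F)
  prob : IsProbabilityMeasure (nrm (volM V F))
  one : OneP (nrm (volM V F)) (finrank ℝ V) F N
  two : Two (nrm (volM V F)) (finrank ℝ V) F N
  row : MinRow (nrm (volM V F)) (finrank ℝ V) F N

theorem nrmData_of_min [Nonempty M] (hm : 1 ≤ finrank ℝ V) (hW : finrank ℝ W = finrank ℝ V + 2)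
    {F : M → W} (hF : SphImm V F) (hmin : ∀ x n, IsUnitNormal V F x n → meanCurv V F x n = 0)
    {N : M → W} (hNs : ContMDiff 𝓘(ℝ, V) 𝓘(ℝ, W) ∞ N) (hN : ∀ x, IsUnitNormal V F x (N x)) :
    NrmData V F N := by
  have hfin : IsFiniteMeasure (volM V F) := isFiniteMeasure_volM hF
  have hvpos : 0 < volM V F univ := volM_pos_of_isOpen hW hF isOpen_univ univ_nonempty
  have hnz : NeZero (volM V F) := ⟨fun h => by rw [h] at hvpos; simp at hvpos⟩
  have hprob : IsProbabilityMeasure (nrm (volM V F)) := by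
    refine ⟨?_⟩
    unfold nrm
    rw [Measure.smul_apply, smul_eq_mul, ENNReal.inv_mul_cancel hvpos.ne' (measure_ne_top _ _)]
  exact ⟨hfin, hnz, hprob, H460.oneP_smul (oneP_of_min hW hF hmin hNs hN) _,
    two_smul' (two_of_min hW hF hmin hNs hN) _,
    minRow_smul (H176.minRow_of_min hm hW hF hmin hNs hN) _⟩

/-- **the relative tail for a minimal hypersurface**: from the tail in terms of a one point function
and the pointwise inequality -/
theorem rel_core {F N : M → W} (D : NrmData V F N) {ι : Type*} [Fintype ι] [DecidableEq ι]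
    (b : OrthonormalBasis ι ℝ W) (j : ι → ℝ) {Λ : ℝ}
    (d : Dat (nrm (volM V F)) (finrank ℝ V) F N (dop b j) Λ) {lT : ℝ → ℝ}
    {G R : ℝ → ℝ → ℝ → ℝ} {c : ℝ}
    (hG : Integrable (fun x => G (aa (dop b j) F N x) (qq (dop b j) F x)
      (ph (finrank ℝ V) (dop b j) F x)) (nrm (volM V F)))
    (hTail : Tail (nrm (volM V F)) (finrank ℝ V) F N lT (∫ x, G (aa (dop b j) F N x)
      (qq (dop b j) F x) (ph (finrank ℝ V) (dop b j) F x) ∂(nrm (volM V F))))
    (hR : IsRow (nrm (volM V F)) (finrank ℝ V) F N (dop b j) R)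
    (hpt : ∀ a q φ, 0 ≤ a → -1 ≤ q → 0 ≤ φ → φ ^ 2 ≤ (finrank ℝ V : ℝ) * (a - (a - q) ^ 2 / 4) →
      G a q φ ≤ c * a + R a q φ) :
    Tail (volM V F) (finrank ℝ V) F N lT
      (c * hh (nrm (volM V F)) (diagonal j) (co b F) (co b N)) := by
  have := D.fin
  have := D.nz
  have := D.prob
  have h1 := int_le_of_pt d hG hR (c := c) (fun x => by
    obtain ⟨r1, r2, r3, r4⟩ := range_data d x
    exact hpt _ _ _ r1 r2 r3 r4)
  have h2 : hh (nrm (volM V F)) (diagonal j) (co b F) (co b N)
      = ∫ x, aa (dop b j) F N x ∂(nrm (volM V F)) := hh_norm b j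
  rw [h2]
  exact Tail.of_nrm (hTail.mono h1)

end

end Vale.Agent.P224.R2.H869
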