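import Vale.Agent.P224.R2.H686.RowC
import Vale.Agent.P224.R2.H686.Bridge
import Vale.Agent.P224.R2.H876.RowX
import Vale.Agent.P224.R2.H460.LawS
import Vale.Agent.P224.R2.H869.Cv

/-!
From a pointwise inequality with the one point rows to the integrated one; scaling of the data.
-/

namespace Vale.Agent.P224.R2.H869

open MeasureTheory Set Function Module Vale.Agent.P224 Vale.Agent.P224.SM2
  Vale.Agent.P224.R2.H728
open scoped RealInnerProductSpace

set_option linter.unusedSectionVars false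

/-- the row function of `q` -/
noncomputable def RR1 (Λ : ℝ) (k l : ℕ) (q : ℝ) : ℝ :=
  max q 0 ^ (k + 3) * (1 + q) ^ l - Λ ^ 2 * (max q 0 ^ (k + 2) * (1 + q) ^ l)
    - 2 * Λ ^ 2 * ((k + 2) * max q 0 ^ (k + 1) * (1 + q) ^ (l + 1)
      + l * max q 0 ^ (k + 2) * (1 + q) ^ l)

/-- the row function of `φ` -/
noncomputable def FF1 (Λ : ℝ) (i : ℕ) (a q φ : ℝ) : ℝ :=
  φ ^ (2 * i + 2) - (4 * i + 2) * φ ^ (2 * i) * (a - (a - q) ^ 2 / 4) - 2 * Λ * φ ^ (2 * i + 1)

/-- the mixed row function; `η` bounds the mean of `a` -/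
noncomputable def XX1 (Λ η θ : ℝ) (a q φ : ℝ) : ℝ :=
  (1 - θ) * (φ ^ 2 * q ^ 2) - Λ ^ 2 * (φ ^ 2 * max q 0) - (Λ ^ 2 + η) * (φ ^ 2 * max (-q) 0)
    - 4 * Λ ^ 2 / θ * ((a - (a - q) ^ 2 / 4) * (1 + q)) - 2 * Λ ^ 2 * (φ ^ 2 * (1 + q))

section

open Vale.Agent.P224.R2.H470 Vale.Agent.P224.R2.H686

variable {X : Type*} {E : Type*} [NormedAddCommGroup E] [InnerProductSpace ℝ E]
  [FiniteDimensional ℝ E] [TopologicalSpace X] [MeasurableSpace X] [CompactSpace X] [BorelSpace X]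
  {μ : Measure X} [IsProbabilityMeasure μ] {m : ℕ} {p n : X → E} {J : E →L[ℝ] E} {Λ : ℝ}

variable (μ m p n J) in
/-- a one point row: the mean of `R(a, q, φ)` is at most zero -/
def IsRow (R : ℝ → ℝ → ℝ → ℝ) : Prop :=
  Continuous (fun x => R (aa J p n x) (qq J p x) (ph m J p x)) ∧
    ∫ x, R (aa J p n x) (qq J p x) (ph m J p x) ∂μ ≤ 0

lemma IsRow.add {R S : ℝ → ℝ → ℝ → ℝ} (hR : IsRow μ m p n J R) (hS : IsRow μ m p n J S) :
    IsRow μ m p n J (fun a q φ => R a q φ + S a q φ) := by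
  refine ⟨hR.1.add hS.1, ?_⟩
  rw [integral_add (int_of_cont hR.1) (int_of_cont hS.1)]
  exact add_nonpos hR.2 hS.2

lemma IsRow.smul {R : ℝ → ℝ → ℝ → ℝ} (hR : IsRow μ m p n J R) {c : ℝ} (hc : 0 ≤ c) :
    IsRow μ m p n J (fun a q φ => c * R a q φ) := by
  refine ⟨continuous_const.mul hR.1, ?_⟩
  rw [integral_const_mul]
  exact mul_nonpos_of_nonneg_of_nonpos hc hR.2

lemma IsRow.sum {ι : Type*} (s : Finset ι) {R : ι → ℝ → ℝ → ℝ → ℝ} {c : ι → ℝ}
    (hR : ∀ i ∈ s, IsRow μ m p n J (R i)) (hc : ∀ i ∈ s, 0 ≤ c i) :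
    IsRow μ m p n J (fun a q φ => ∑ i ∈ s, c i * R i a q φ) := by
  classical
  induction s using Finset.induction_on with
  | empty => exact ⟨by simpa using continuous_const, by simp⟩
  | insert i s hi ih =>
    have h1 := (hR i (Finset.mem_insert_self i s)).smul (hc i (Finset.mem_insert_self i s))
    have h2 := ih (fun k hk => hR k (Finset.mem_insert_of_mem hk))
      (fun k hk => hc k (Finset.mem_insert_of_mem hk))
    have h3 := h1.add h2
    simpa only [Finset.sum_insert hi] using h3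

/-- the rows of `q` -/
lemma isRow_R (d : Dat μ m p n J Λ) (k l : ℕ) : IsRow μ m p n J (fun _ q _ => RR1 Λ k l q) := by
  have cq := d.cq
  refine ⟨?_, ?_⟩
  · unfold RR1
    fun_prop
  · unfold RR1
    exact d.R_row k l

/-- the rows of `φ` -/
lemma isRow_F (d : Dat μ m p n J Λ) (i : ℕ) : IsRow μ m p n J (FF1 Λ i) := by
  have ca := d.ca
  have cq := d.cq
  have cp := d.cph
  refine ⟨?_, ?_⟩
  · unfold FF1
    fun_prop
  · have h := d.F_row i
    unfold FF1
    simpa only [tau] using h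

/-- the mixed row -/
lemma isRow_X (d : Dat μ m p n J Λ) {η θ : ℝ} (hθ : 0 < θ) (hη : ∫ x, aa J p n x ∂μ ≤ η) :
    IsRow μ m p n J (XX1 Λ η θ) := by
  have ca := d.ca
  have cq := d.cq
  have cp := d.cph
  have ct := d.ctau
  refine ⟨?_, ?_⟩
  · unfold XX1
    fun_prop
  refine le_trans ?_ (H876.X_row' d hθ)
  refine integral_mono (int_of_cont ?_) (int_of_cont (by fun_prop)) fun x => ?_
  · unfold XX1
    fun_prop
  have hm := d.m_pos
  have hm1 : (0 : ℝ) < m + 1 := by linarith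
  have h1 : t0 J / (m + 1) ≤ Λ ^ 2 := by
    rw [div_le_iff₀ hm1]
    have := d.t0_le
    nlinarith [sq_nonneg Λ]
  have h2 : -η ≤ t0 J / (m + 1) := by
    rw [le_div_iff₀ hm1]
    have := d.t0_ge
    nlinarith
  have hφ : 0 ≤ ph m J p x ^ 2 := sq_nonneg _
  simp only [XX1]
  change _ ≤ (1 - θ) * (ph m J p x ^ 2 * qq J p x ^ 2)
      - t0 J / (m + 1) * (ph m J p x ^ 2 * qq J p x)
      - Λ ^ 2 * (ph m J p x ^ 2 * max (-qq J p x) 0)
      - 4 * Λ ^ 2 / θ * (tau J p n x * (1 + qq J p x))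
      - 2 * Λ ^ 2 * (ph m J p x ^ 2 * (1 + qq J p x))
  have e1 : tau J p n x = aa J p n x - (aa J p n x - qq J p x) ^ 2 / 4 := rfl
  rw [e1]
  rcases le_total 0 (qq J p x) with hq | hq
  · rw [max_eq_left hq, max_eq_right (by linarith : -qq J p x ≤ 0)]
    have h3 := mul_le_mul_of_nonneg_right h1 (mul_nonneg hφ hq)
    linarith
  · rw [max_eq_right hq, max_eq_left (by linarith : 0 ≤ -qq J p x)]
    have h3 := mul_le_mul_of_nonneg_right h2 (mul_nonneg hφ (by linarith : 0 ≤ -qq J p x))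
    have e2 : t0 J / (m + 1) * (ph m J p x ^ 2 * qq J p x)
        = -(t0 J / (m + 1) * (ph m J p x ^ 2 * -qq J p x)) := by ring
    rw [e2]
    nlinarith

/-- the row of `φ²` -/
lemma isRow_P (d : Dat μ m p n J Λ) {c1 : ℝ}
    (hP : ∫ x, ph m J p x ^ 2 ∂μ ≤ c1 * ∫ x, aa J p n x ∂μ) :
    IsRow μ m p n J (fun a _ φ => φ ^ 2 - c1 * a) := by
  have ca := d.ca
  have cp := d.cph
  refine ⟨by fun_prop, ?_⟩
  rw [integral_sub (int_of_cont (by fun_prop)) (int_of_cont (by fun_prop)), integral_const_mul]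
  linarith

/-- **integration of the pointwise inequality** -/
theorem int_le_of_pt (d : Dat μ m p n J Λ) {F : X → ℝ} (hF : Integrable F μ) {c : ℝ}
    {R : ℝ → ℝ → ℝ → ℝ} (hR : IsRow μ m p n J R)
    (hpt : ∀ x, F x ≤ c * aa J p n x + R (aa J p n x) (qq J p x) (ph m J p x)) :
    ∫ x, F x ∂μ ≤ c * ∫ x, aa J p n x ∂μ := by
  have ca := d.ca
  have i1 : Integrable (fun x => c * aa J p n x) μ := int_of_cont (by fun_prop)
  have h1 : ∫ x, F x ∂μ ≤ ∫ x, (c * aa J p n x
      + R (aa J p n x) (qq J p x) (ph m J p x)) ∂μ :=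
    integral_mono hF (i1.add (int_of_cont hR.1)) hpt
  rw [integral_add i1 (int_of_cont hR.1), integral_const_mul] at h1
  linarith [hR.2]

/-- the range of the variables -/
lemma range_data (d : Dat μ m p n J Λ) (x : X) :
    0 ≤ aa J p n x ∧ -1 ≤ qq J p x ∧ 0 ≤ ph m J p x ∧
      ph m J p x ^ 2 ≤ m * (aa J p n x - (aa J p n x - qq J p x) ^ 2 / 4) := by
  refine ⟨sq_nonneg _, d.q_ge x, ph_nonneg x, ?_⟩
  have h1 := d.t1_sq x
  have h2 := d.a_eq x
  have h3 : H686.cc J p n x = (aa J p n x - qq J p x) / 2 := by linarith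
  have h4 : 0 ≤ aa J p n x - H686.cc J p n x ^ 2 - ff J p x ^ 2 := by
    rw [← h1]
    positivity
  have h5 : ph m J p x ^ 2 = m * ff J p x ^ 2 := by
    rw [ph, mul_pow, Real.sq_sqrt (Nat.cast_nonneg m), sq_abs]
  rw [h5]
  refine mul_le_mul_of_nonneg_left ?_ (Nat.cast_nonneg m)
  rw [h3] at h4
  nlinarith

end

section

variable {X : Type*} [MeasurableSpace X] {E : Type*} [NormedAddCommGroup E]
  [InnerProductSpace ℝ E] [MeasurableSpace E] [BorelSpace E] [SecondCountableTopology E]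
  {μ : Measure X} {m : ℕ} {p n : X → E}

/-- the two point rows for a multiple of the measure -/
lemma two_smul' (h : Two μ m p n) (c : ENNReal) : Two (c • μ) m p n where
  toPts := h.toPts
  pn := h.pn
  row := by
    intro z T hT y e r
    rw [integral_smul_measure, h.row z T hT y e r, smul_zero]

/-- the row of the conformal volume for a multiple of the measure -/
lemma minRow_smul (h : MinRow μ m p n) (c : ENNReal) : MinRow (c • μ) m p n where
  mp := h.mp
  mn := h.mn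
  np := h.np
  nn := h.nn
  row := by
    intro a ha ρ hρ
    rw [integral_smul_measure, h.row a ha ρ hρ, smul_zero]

end

end Vale.Agent.P224.R2.H869
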